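import Mathlib
import Crest.Prelude.Def_MultiMarginal

/-!
# S0175: the abstract transport argument (duality, optimal plan, no Monge minimiser, approximation)
-/

set_option autoImplicit false
open MeasureTheory Set
open scoped ENNReal
open Crest.AnalysisR.OT

namespace Crest.Agent.OT3

variable {α : Type*} [MeasurableSpace α]

/-- sum of a one-body function over the three slots -/
def sum3 (p : α → ℝ≥0∞) (q : α × α × α) : ℝ≥0∞ := p q.1 + p q.2.1 + p q.2.2

lemma measurable_sum3 {p : α → ℝ≥0∞} (hp : Measurable p) : Measurable (sum3 p) := by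
  unfold sum3
  fun_prop

lemma lintegral_sum3 {μ : Measure α} {π : Measure (α × α × α)} (hπ : IsCoupling₃ μ π)
    {p : α → ℝ≥0∞} (hp : Measurable p) :
    ∫⁻ q, sum3 p q ∂π = 3 * ∫⁻ x, p x ∂μ := by
  obtain ⟨h1, h2, h3⟩ := hπ
  have e1 : ∫⁻ q, p q.1 ∂π = ∫⁻ x, p x ∂μ := by
    rw [← h1, lintegral_map hp (by fun_prop)]
  have e2 : ∫⁻ q, p q.2.1 ∂π = ∫⁻ x, p x ∂μ := by
    rw [← h2, lintegral_map hp (by fun_prop)]
  have e3 : ∫⁻ q, p q.2.2 ∂π = ∫⁻ x, p x ∂μ := by
    rw [← h3, lintegral_map hp (by fun_prop)]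
  unfold sum3
  rw [lintegral_add_right _ (by fun_prop), lintegral_add_right _ (by fun_prop), e1, e2, e3]
  ring

lemma ae_mem_of_coupling {μ : Measure α} {π : Measure (α × α × α)} (hπ : IsCoupling₃ μ π)
    {S : Set α} (hS : MeasurableSet S) (hfull : μ Sᶜ = 0) :
    ∀ᵐ q ∂π, q.1 ∈ S ∧ q.2.1 ∈ S ∧ q.2.2 ∈ S := by
  obtain ⟨h1, h2, h3⟩ := hπ
  have a1 : ∀ᵐ q ∂π, q.1 ∈ S := by
    have : (π.map (fun p => p.1)) Sᶜ = 0 := by rw [h1]; exact hfull
    rw [Measure.map_apply (by fun_prop) hS.compl] at this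
    rw [ae_iff]; exact this
  have a2 : ∀ᵐ q ∂π, q.2.1 ∈ S := by
    have : (π.map (fun p => p.2.1)) Sᶜ = 0 := by rw [h2]; exact hfull
    rw [Measure.map_apply (by fun_prop) hS.compl] at this
    rw [ae_iff]; exact this
  have a3 : ∀ᵐ q ∂π, q.2.2 ∈ S := by
    have : (π.map (fun p => p.2.2)) Sᶜ = 0 := by rw [h3]; exact hfull
    rw [Measure.map_apply (by fun_prop) hS.compl] at this
    rw [ae_iff]; exact this
  filter_upwards [a1, a2, a3] with q b1 b2 b3 using ⟨b1, b2, b3⟩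

/-- weak duality -/
lemma coupling_lower {μ : Measure α} {π : Measure (α × α × α)} (hπ : IsCoupling₃ μ π)
    {S : Set α} (hS : MeasurableSet S) (hfull : μ Sᶜ = 0)
    {c : α × α × α → ℝ≥0∞} {p v : α → ℝ≥0∞} (hp : Measurable p) (hv : Measurable v)
    (hineq : ∀ x ∈ S, ∀ y ∈ S, ∀ z ∈ S, p x + p y + p z ≤ c (x, y, z) + (v x + v y + v z)) :
    3 * ∫⁻ x, p x ∂μ ≤ ∫⁻ q, c q ∂π + 3 * ∫⁻ x, v x ∂μ := by
  rw [← lintegral_sum3 hπ hp, ← lintegral_sum3 hπ hv,
    ← lintegral_add_right _ (measurable_sum3 hv)]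
  apply lintegral_mono_ae
  filter_upwards [ae_mem_of_coupling hπ hS hfull] with q hq
  exact hineq _ hq.1 _ hq.2.1 _ hq.2.2

/-- the Monge plan of two measure preserving maps is a coupling -/
lemma isCoupling_monge {μ : Measure α} {T₂ T₃ : α → α} (h2 : Measurable T₂) (h3 : Measurable T₃)
    (m2 : μ.map T₂ = μ) (m3 : μ.map T₃ = μ) :
    IsCoupling₃ μ (μ.map (fun x => (x, T₂ x, T₃ x))) := by
  refine ⟨?_, ?_, ?_⟩
  · rw [Measure.map_map (by fun_prop) (by fun_prop)]
    exact Measure.map_id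
  · rw [Measure.map_map (by fun_prop) (by fun_prop)]
    exact m2
  · rw [Measure.map_map (by fun_prop) (by fun_prop)]
    exact m3

/-- The optimal plan. -/
noncomputable def plan0 (μ : Measure α) (Out : Set α) (F G : α → α) : Measure (α × α × α) :=
  (2⁻¹ : ℝ≥0∞) • ((μ.restrict Out).map (fun y => (F y, y, G y))
    + (μ.restrict Out).map (fun y => (y, G y, F y))
    + (μ.restrict Out).map (fun y => (G y, F y, y)))

lemma half_smul_aux (a b : Measure α) : (2⁻¹ : ℝ≥0∞) • ((2 : ℝ≥0∞) • a + b + b) = a + b := by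
  ext s _
  simp only [Measure.smul_apply, Measure.add_apply, smul_eq_mul]
  have h2 : (2⁻¹ : ℝ≥0∞) * 2 = 1 := ENNReal.inv_mul_cancel (by norm_num) (by norm_num)
  calc (2⁻¹ : ℝ≥0∞) * (2 * a s + b s + b s) = (2⁻¹ * 2) * (a s + b s) := by ring
    _ = a s + b s := by rw [h2, one_mul]

lemma isCoupling_plan0 {μ : Measure α} {In Out : Set α} {F G : α → α}
    (hFm : Measurable F) (hGm : Measurable G)
    (hdec : μ = μ.restrict In + μ.restrict Out)
    (hF : (μ.restrict Out).map F = (2 : ℝ≥0∞) • μ.restrict In)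
    (hG : (μ.restrict Out).map G = μ.restrict Out) :
    IsCoupling₃ μ (plan0 μ Out F G) := by
  have key : (2⁻¹ : ℝ≥0∞) • ((2 : ℝ≥0∞) • μ.restrict In + μ.restrict Out + μ.restrict Out) = μ := by
    rw [half_smul_aux]; exact hdec.symm
  have hid : (μ.restrict Out).map (fun y => y) = μ.restrict Out := Measure.map_id
  unfold plan0
  refine ⟨?_, ?_, ?_⟩
  · rw [Measure.map_smul, Measure.map_add _ _ (by fun_prop), Measure.map_add _ _ (by fun_prop),
      Measure.map_map (by fun_prop) (by fun_prop), Measure.map_map (by fun_prop) (by fun_prop),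
      Measure.map_map (by fun_prop) (by fun_prop)]
    change (2⁻¹ : ℝ≥0∞) • ((μ.restrict Out).map F + (μ.restrict Out).map (fun y => y)
      + (μ.restrict Out).map G) = μ
    rw [hF, hG, hid, key]
  · rw [Measure.map_smul, Measure.map_add _ _ (by fun_prop), Measure.map_add _ _ (by fun_prop),
      Measure.map_map (by fun_prop) (by fun_prop), Measure.map_map (by fun_prop) (by fun_prop),
      Measure.map_map (by fun_prop) (by fun_prop)]
    change (2⁻¹ : ℝ≥0∞) • ((μ.restrict Out).map (fun y => y) + (μ.restrict Out).map G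
      + (μ.restrict Out).map F) = μ
    rw [hF, hG, hid, show μ.restrict Out + μ.restrict Out + (2 : ℝ≥0∞) • μ.restrict In
      = (2 : ℝ≥0∞) • μ.restrict In + μ.restrict Out + μ.restrict Out by abel]
    exact key
  · rw [Measure.map_smul, Measure.map_add _ _ (by fun_prop), Measure.map_add _ _ (by fun_prop),
      Measure.map_map (by fun_prop) (by fun_prop), Measure.map_map (by fun_prop) (by fun_prop),
      Measure.map_map (by fun_prop) (by fun_prop)]
    change (2⁻¹ : ℝ≥0∞) • ((μ.restrict Out).map G + (μ.restrict Out).map F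
      + (μ.restrict Out).map (fun y => y)) = μ
    rw [hF, hG, hid, show μ.restrict Out + (2 : ℝ≥0∞) • μ.restrict In + μ.restrict Out
      = (2 : ℝ≥0∞) • μ.restrict In + μ.restrict Out + μ.restrict Out by abel]
    exact key

lemma plan0_cost {μ : Measure α} {In Out : Set α} {F G : α → α}
    (hOut : MeasurableSet Out)
    (hFm : Measurable F) (hGm : Measurable G)
    (hdec : μ = μ.restrict In + μ.restrict Out)
    (hF : (μ.restrict Out).map F = (2 : ℝ≥0∞) • μ.restrict In)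
    (hG : (μ.restrict Out).map G = μ.restrict Out)
    {c : α × α × α → ℝ≥0∞} (hc : Measurable c)
    (hcyc : ∀ x y z, c (x, y, z) = c (y, z, x))
    {p v : α → ℝ≥0∞} (hp : Measurable p) (hv : Measurable v)
    (heq : ∀ y ∈ Out, c (F y, y, G y) + (v (F y) + v y + v (G y)) = p (F y) + p y + p (G y)) :
    ∫⁻ q, c q ∂(plan0 μ Out F G) + 3 * ∫⁻ x, v x ∂μ = 3 * ∫⁻ x, p x ∂μ := by
  have hπ := isCoupling_plan0 hFm hGm hdec hF hG
  rw [← lintegral_sum3 hπ hp, ← lintegral_sum3 hπ hv,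
    ← lintegral_add_right _ (measurable_sum3 hv)]
  have hm1 : Measurable (fun q => c q + sum3 v q) := hc.add (measurable_sum3 hv)
  have hm2 := measurable_sum3 hp
  unfold plan0
  rw [lintegral_smul_measure, lintegral_smul_measure, lintegral_add_measure,
    lintegral_add_measure, lintegral_add_measure, lintegral_add_measure,
    lintegral_map hm1 (by fun_prop), lintegral_map hm1 (by fun_prop),
    lintegral_map hm1 (by fun_prop), lintegral_map hm2 (by fun_prop),
    lintegral_map hm2 (by fun_prop), lintegral_map hm2 (by fun_prop)]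
  congr 1
  congr 1
  · congr 1
    · apply setLIntegral_congr_fun hOut
      intro y hy
      simpa [sum3] using heq y hy
    · apply setLIntegral_congr_fun hOut
      intro y hy
      have := heq y hy
      simp only [sum3]
      rw [← hcyc, add_comm (v y + v (G y)) (v (F y)), ← add_assoc (v (F y)), this]
      ring
  · apply setLIntegral_congr_fun hOut
    intro y hy
    have := heq y hy
    simp only [sum3]
    rw [hcyc, add_assoc (v (G y)), add_comm (v (G y)), this]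
    ring

/-- the measure-theoretic heart of the non-existence of Monge minimisers. -/
lemma no_monge_core [StandardBorelSpace α] {μ : Measure α} [IsFiniteMeasure μ]
    {In Out : Set α} (hIn : MeasurableSet In) (hOut : MeasurableSet Out)
    {F Fb T₂ : α → α} (hFm : Measurable F) (hFbm : Measurable Fb) (hT : Measurable T₂)
    (hF : (μ.restrict Out).map F = (2 : ℝ≥0∞) • μ.restrict In)
    (hFb : (μ.restrict Out).map Fb = (2 : ℝ≥0∞) • μ.restrict In)
    (hFinj : InjOn F Out) (hFbinj : InjOn Fb Out)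
    (m2 : μ.map T₂ = μ)
    (hrig : ∀ᵐ x ∂μ, T₂ x ∈ In → x ∈ Out ∧ (T₂ x = F x ∨ T₂ x = Fb x)) :
    μ In = 0 := by
  -- general claim
  have claim : ∀ Φ : α → α, Measurable Φ → (μ.restrict Out).map Φ = (2 : ℝ≥0∞) • μ.restrict In →
      InjOn Φ Out → μ {x | x ∈ Out ∧ T₂ x ∈ In ∧ T₂ x = Φ x} = 0 := by
    intro Φ hΦm hΦ hΦinj
    set A : Set α := {x | x ∈ Out ∧ T₂ x ∈ In ∧ T₂ x = Φ x} with hA
    have hAm : MeasurableSet A :=
      hOut.inter ((hT hIn).inter (measurableSet_eq_fun hT hΦm))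
    have hAO : A ⊆ Out := fun x hx => hx.1
    set W : Set α := Φ '' A with hW
    have hWm : MeasurableSet W := hAm.image_of_measurable_injOn hΦm (hΦinj.mono hAO)
    have hWIn : W ⊆ In := by
      rintro _ ⟨x, hx, rfl⟩
      rw [← hx.2.2]; exact hx.2.1
    have h1 : μ A ≤ μ W := by
      calc μ A ≤ μ (T₂ ⁻¹' W) := by
            apply measure_mono
            intro x hx
            show T₂ x ∈ W
            rw [hx.2.2]; exact ⟨x, hx, rfl⟩
        _ = (μ.map T₂) W := (Measure.map_apply hT hWm).symm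
        _ = μ W := by rw [m2]
    have h2 : 2 * μ W = μ A := by
      have e1 : ((μ.restrict Out).map Φ) W = 2 * μ W := by
        rw [hΦ, Measure.smul_apply, Measure.restrict_apply hWm,
          inter_eq_self_of_subset_left hWIn, smul_eq_mul]
      rw [← e1, Measure.map_apply hΦm hWm, Measure.restrict_apply (hΦm hWm)]
      congr 1
      ext x
      constructor
      · rintro ⟨⟨x', hx', hxx'⟩, hxO⟩
        have : x' = x := hΦinj (hAO hx') hxO hxx'
        rwa [← this]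
      · intro hx
        exact ⟨⟨x, hx, rfl⟩, hAO hx⟩
    have hfin : μ W ≠ ⊤ := measure_ne_top μ W
    have h3 : 2 * μ W ≤ μ W := h2 ▸ h1
    have h4 : μ W = 0 := by
      by_contra hne
      have : μ W + μ W ≤ μ W + 0 := by rw [add_zero, ← two_mul]; exact h3
      have := (ENNReal.add_le_add_iff_left hfin).mp this
      exact hne (le_antisymm this zero_le)
    rw [← h2, h4, mul_zero]
  have c1 := claim F hFm hF hFinj
  have c2 := claim Fb hFbm hFb hFbinj
  refine le_antisymm ?_ zero_le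
  calc μ In = (μ.map T₂) In := by rw [m2]
    _ = μ (T₂ ⁻¹' In) := Measure.map_apply hT hIn
    _ ≤ μ ({x | x ∈ Out ∧ T₂ x ∈ In ∧ T₂ x = F x} ∪ {x | x ∈ Out ∧ T₂ x ∈ In ∧ T₂ x = Fb x}) := by
        apply measure_mono_ae
        filter_upwards [hrig] with x hx hxIn
        have hxIn' : T₂ x ∈ In := hxIn
        obtain ⟨hO, h | h⟩ := hx hxIn'
        · exact Or.inl ⟨hO, hxIn', h⟩
        · exact Or.inr ⟨hO, hxIn', h⟩
    _ ≤ _ := measure_union_le _ _
    _ = 0 := by rw [c1, c2, add_zero]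

/-- **Abstract main theorem.** -/
theorem abstract_main [StandardBorelSpace α] {μ : Measure α} [IsFiniteMeasure μ]
    {In Out : Set α} (hIn : MeasurableSet In) (hOut : MeasurableSet Out)
    (hdisj : Disjoint In Out) (hfull : μ (In ∪ Out)ᶜ = 0) (hpos : μ In ≠ 0)
    {c : α × α × α → ℝ≥0∞} (hc : Measurable c)
    (hcyc : ∀ x y z, c (x, y, z) = c (y, z, x))
    {p v : α → ℝ≥0∞} (hp : Measurable p) (hv : Measurable v)
    (hpfin : ∫⁻ x, p x ∂μ ≠ ⊤) (hvfin : ∫⁻ x, v x ∂μ ≠ ⊤)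
    (hineq : ∀ x ∈ In ∪ Out, ∀ y ∈ In ∪ Out, ∀ z ∈ In ∪ Out,
      p x + p y + p z ≤ c (x, y, z) + (v x + v y + v z))
    {F Fb G : α → α} (hFm : Measurable F) (hFbm : Measurable Fb) (hGm : Measurable G)
    (hF : (μ.restrict Out).map F = (2 : ℝ≥0∞) • μ.restrict In)
    (hFb : (μ.restrict Out).map Fb = (2 : ℝ≥0∞) • μ.restrict In)
    (hG : (μ.restrict Out).map G = μ.restrict Out)
    (hFinj : InjOn F Out) (hFbinj : InjOn Fb Out)
    (heq : ∀ y ∈ Out, c (F y, y, G y) + (v (F y) + v y + v (G y)) = p (F y) + p y + p (G y))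
    (hrig : ∀ x ∈ In ∪ Out, ∀ y ∈ In, ∀ z ∈ In ∪ Out,
      c (x, y, z) + (v x + v y + v z) = p x + p y + p z → x ∈ Out ∧ (y = F x ∨ y = Fb x))
    (happ : ∀ ε : ℝ≥0∞, 0 < ε → ∃ T₂ T₃ : α → α, Measurable T₂ ∧ Measurable T₃ ∧
      μ.map T₂ = μ ∧ μ.map T₃ = μ ∧
      ∀ᵐ x ∂μ, c (x, T₂ x, T₃ x) + (v x + v (T₂ x) + v (T₃ x))
        ≤ p x + p (T₂ x) + p (T₃ x) + ε) :
    ∃ π₀ : Measure (α × α × α), IsCoupling₃ μ π₀ ∧ ∫⁻ q, c q ∂π₀ < ⊤ ∧
      (∀ π : Measure (α × α × α), IsCoupling₃ μ π → ∫⁻ q, c q ∂π₀ ≤ ∫⁻ q, c q ∂π) ∧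
      (∀ T₂ T₃ : α → α, Measurable T₂ → Measurable T₃ → μ.map T₂ = μ → μ.map T₃ = μ →
        ∫⁻ q, c q ∂π₀ < ∫⁻ x, c (x, T₂ x, T₃ x) ∂μ) ∧
      (∀ ε : ℝ≥0∞, 0 < ε → ∃ T₂ T₃ : α → α, Measurable T₂ ∧ Measurable T₃ ∧
        μ.map T₂ = μ ∧ μ.map T₃ = μ ∧
        ∫⁻ x, c (x, T₂ x, T₃ x) ∂μ < ∫⁻ q, c q ∂π₀ + ε) := by
  have hS : MeasurableSet (In ∪ Out) := hIn.union hOut
  have hdec : μ = μ.restrict In + μ.restrict Out := by
    rw [← Measure.restrict_union hdisj hOut]
    exact (Measure.restrict_eq_self_of_ae_mem (by rw [ae_iff]; exact hfull)).symm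
  have hπ₀ := isCoupling_plan0 hFm hGm hdec hF hG
  have hcost := plan0_cost hOut hFm hGm hdec hF hG hc hcyc hp hv heq
  set π₀ := plan0 μ Out F G with hπ₀def
  have h3v : 3 * ∫⁻ x, v x ∂μ ≠ ⊤ := ENNReal.mul_ne_top (by norm_num) hvfin
  have h3p : 3 * ∫⁻ x, p x ∂μ ≠ ⊤ := ENNReal.mul_ne_top (by norm_num) hpfin
  have hfin : ∫⁻ q, c q ∂π₀ < ⊤ := by
    refine lt_of_le_of_lt ?_ (lt_top_iff_ne_top.mpr h3p)
    rw [← hcost]; exact le_self_add
  have hopt : ∀ π : Measure (α × α × α), IsCoupling₃ μ π → ∫⁻ q, c q ∂π₀ ≤ ∫⁻ q, c q ∂π := by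
    intro π hπ
    have := coupling_lower hπ hS hfull hp hv hineq
    rw [← hcost] at this
    exact (ENNReal.add_le_add_iff_right h3v).mp this
  refine ⟨π₀, hπ₀, hfin, hopt, ?_, ?_⟩
  · intro T₂ T₃ h2 h3 m2 m3
    by_contra hnot
    push Not at hnot
    -- a.e. membership
    have aS : ∀ᵐ x ∂μ, x ∈ In ∪ Out := by rw [ae_iff]; exact hfull
    have aS2 : ∀ᵐ x ∂μ, T₂ x ∈ In ∪ Out := by
      have : (μ.map T₂) (In ∪ Out)ᶜ = 0 := by rw [m2]; exact hfull
      rw [Measure.map_apply h2 hS.compl] at this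
      rw [ae_iff]; exact this
    have aS3 : ∀ᵐ x ∂μ, T₃ x ∈ In ∪ Out := by
      have : (μ.map T₃) (In ∪ Out)ᶜ = 0 := by rw [m3]; exact hfull
      rw [Measure.map_apply h3 hS.compl] at this
      rw [ae_iff]; exact this
    have i2 : ∀ f : α → ℝ≥0∞, Measurable f → ∫⁻ x, f (T₂ x) ∂μ = ∫⁻ x, f x ∂μ := by
      intro f hf
      conv_rhs => rw [← m2]
      rw [lintegral_map hf h2]
    have i3 : ∀ f : α → ℝ≥0∞, Measurable f → ∫⁻ x, f (T₃ x) ∂μ = ∫⁻ x, f x ∂μ := by
      intro f hf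
      conv_rhs => rw [← m3]
      rw [lintegral_map hf h3]
    have isum : ∀ f : α → ℝ≥0∞, Measurable f →
        ∫⁻ x, (f x + f (T₂ x) + f (T₃ x)) ∂μ = 3 * ∫⁻ x, f x ∂μ := by
      intro f hf
      rw [lintegral_add_right _ (by fun_prop), lintegral_add_right _ (by fun_prop), i2 f hf, i3 f hf]
      ring
    have hle : (fun x => p x + p (T₂ x) + p (T₃ x)) ≤ᵐ[μ]
        (fun x => c (x, T₂ x, T₃ x) + (v x + v (T₂ x) + v (T₃ x))) := by
      filter_upwards [aS, aS2, aS3] with x a1 a2 a3 using hineq _ a1 _ a2 _ a3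
    have hae := ae_eq_of_ae_le_of_lintegral_le hle (by rw [isum p hp]; exact h3p)
      (by fun_prop) (by
        rw [lintegral_add_right _ (by fun_prop), isum p hp, isum v hv, ← hcost]
        gcongr)
    have hr : ∀ᵐ x ∂μ, T₂ x ∈ In → x ∈ Out ∧ (T₂ x = F x ∨ T₂ x = Fb x) := by
      filter_upwards [hae, aS, aS3] with x hx a1 a3 hxin
      exact hrig x a1 _ hxin _ a3 hx.symm
    exact hpos (no_monge_core hIn hOut hFm hFbm h2 hF hFb hFinj hFbinj m2 hr)
  · intro ε hε
    -- choose ε' with ε' * μ univ < ε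
    obtain ⟨ε', hε'0, hε'⟩ : ∃ ε' : ℝ≥0∞, 0 < ε' ∧ ε' * μ univ < ε := by
      by_cases hμ0 : μ univ = 0
      · exact ⟨1, one_pos, by rw [hμ0, mul_zero]; exact hε⟩
      · by_cases hεt : ε = ⊤
        · refine ⟨1, one_pos, ?_⟩
          rw [hεt, one_mul]; exact measure_lt_top μ univ
        · refine ⟨ε / 2 / μ univ, ?_, ?_⟩
          · apply ENNReal.div_pos
            · exact (ENNReal.half_pos hε.ne').ne'
            · exact measure_ne_top μ univ
          · rw [ENNReal.div_mul_cancel hμ0 (measure_ne_top μ univ)]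
            exact ENNReal.half_lt_self hε.ne' hεt
    obtain ⟨T₂, T₃, h2, h3, m2, m3, hae⟩ := happ ε' hε'0
    refine ⟨T₂, T₃, h2, h3, m2, m3, ?_⟩
    have i2 : ∀ f : α → ℝ≥0∞, Measurable f → ∫⁻ x, f (T₂ x) ∂μ = ∫⁻ x, f x ∂μ := by
      intro f hf
      conv_rhs => rw [← m2]
      rw [lintegral_map hf h2]
    have i3 : ∀ f : α → ℝ≥0∞, Measurable f → ∫⁻ x, f (T₃ x) ∂μ = ∫⁻ x, f x ∂μ := by
      intro f hf
      conv_rhs => rw [← m3]
      rw [lintegral_map hf h3]
    have isum : ∀ f : α → ℝ≥0∞, Measurable f →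
        ∫⁻ x, (f x + f (T₂ x) + f (T₃ x)) ∂μ = 3 * ∫⁻ x, f x ∂μ := by
      intro f hf
      rw [lintegral_add_right _ (by fun_prop), lintegral_add_right _ (by fun_prop), i2 f hf, i3 f hf]
      ring
    have hint := lintegral_mono_ae hae
    rw [lintegral_add_right _ (by fun_prop), isum v hv, lintegral_add_right _ (by fun_prop),
      isum p hp, lintegral_const, ← hcost, add_right_comm] at hint
    have := (ENNReal.add_le_add_iff_right h3v).mp hint
    refine lt_of_le_of_lt this ?_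
    exact (ENNReal.add_lt_add_iff_left hfin.ne).mpr hε'

end Crest.Agent.OT3
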