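import Mathlib

/-!
# S0175: the approximating Monge maps (abstract measure theory)

`μ = μ|In + μ|Out`.  Given the structural maps `f F Fb G Gb` and the angle halving / doubling maps
`He Ho De Do`, the piecewise defined maps `T2map`, `T3map` are measurable and preserve `μ`.
-/

set_option autoImplicit false
open MeasureTheory Set
open scoped ENNReal

namespace Crest.Agent.OT3

variable {α : Type*} [MeasurableSpace α]

open Classical in
/-- piecewise map: `a` on `In`, `b` on `Out ∩ EN`, `c` on `Out \ EN`, identity elsewhere. -/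
noncomputable def pw (In Out EN : Set α) (a b c : α → α) (x : α) : α :=
  if x ∈ In then a x else if x ∈ Out then (if x ∈ EN then b x else c x) else x

omit [MeasurableSpace α] in
lemma pw_of_mem_In {In Out EN : Set α} {a b c : α → α} {x : α} (hx : x ∈ In) :
    pw In Out EN a b c x = a x := by
  simp [pw, hx]

omit [MeasurableSpace α] in
lemma pw_of_mem_EN {In Out EN : Set α} {a b c : α → α} {x : α} (hdisj : Disjoint In Out)
    (hx : x ∈ Out) (hx' : x ∈ EN) : pw In Out EN a b c x = b x := by
  have : x ∉ In := fun h => (Set.disjoint_left.1 hdisj) h hx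
  simp [pw, hx, hx', this]

omit [MeasurableSpace α] in
lemma pw_of_not_mem_EN {In Out EN : Set α} {a b c : α → α} {x : α} (hdisj : Disjoint In Out)
    (hx : x ∈ Out) (hx' : x ∉ EN) : pw In Out EN a b c x = c x := by
  have : x ∉ In := fun h => (Set.disjoint_left.1 hdisj) h hx
  simp [pw, hx, hx', this]

lemma measurable_pw {In Out EN : Set α} (hIn : MeasurableSet In) (hOut : MeasurableSet Out)
    (hEN : MeasurableSet EN) {a b c : α → α} (ha : Measurable a) (hb : Measurable b)
    (hc : Measurable c) : Measurable (pw In Out EN a b c) := by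
  unfold pw
  exact Measurable.ite hIn ha (Measurable.ite hOut (Measurable.ite hEN hb hc) measurable_id)

lemma map_pw {μ : Measure α} {In Out EN : Set α} (hIn : MeasurableSet In)
    (hOut : MeasurableSet Out) (hEN : MeasurableSet EN) (hdisj : Disjoint In Out)
    (hdec : μ = μ.restrict In + μ.restrict Out)
    {a b c : α → α} (ha : Measurable a) (hb : Measurable b) (hc : Measurable c) :
    μ.map (pw In Out EN a b c) = (μ.restrict In).map a + ((μ.restrict Out).restrict EN).map b
      + ((μ.restrict Out).restrict ENᶜ).map c := by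
  have hm := measurable_pw hIn hOut hEN ha hb hc
  have hsplit : μ.restrict Out = (μ.restrict Out).restrict EN + (μ.restrict Out).restrict ENᶜ :=
    (Measure.restrict_add_restrict_compl hEN).symm
  have e1 : (μ.restrict In).map (pw In Out EN a b c) = (μ.restrict In).map a := by
    apply Measure.map_congr
    filter_upwards [ae_restrict_mem hIn] with x hx using pw_of_mem_In hx
  have e2 : ((μ.restrict Out).restrict EN).map (pw In Out EN a b c)
      = ((μ.restrict Out).restrict EN).map b := by
    apply Measure.map_congr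
    filter_upwards [ae_restrict_mem hEN, ae_restrict_of_ae (ae_restrict_mem hOut)] with x hx hx'
      using pw_of_mem_EN hdisj hx' hx
  have e3 : ((μ.restrict Out).restrict ENᶜ).map (pw In Out EN a b c)
      = ((μ.restrict Out).restrict ENᶜ).map c := by
    apply Measure.map_congr
    filter_upwards [ae_restrict_mem hEN.compl, ae_restrict_of_ae (ae_restrict_mem hOut)]
      with x hx hx' using pw_of_not_mem_EN hdisj hx' hx
  calc μ.map (pw In Out EN a b c)
      = (μ.restrict In + ((μ.restrict Out).restrict EN + (μ.restrict Out).restrict ENᶜ)).map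
          (pw In Out EN a b c) := by rw [← hsplit, ← hdec]
    _ = _ := by
        rw [Measure.map_add _ _ hm, Measure.map_add _ _ hm, e1, e2, e3, add_assoc]

lemma inv_two_smul_two_smul (m : Measure α) : (2⁻¹ : ℝ≥0∞) • ((2 : ℝ≥0∞) • m) = m := by
  rw [smul_smul, ENNReal.inv_mul_cancel (by norm_num) (by norm_num), one_smul]

lemma two_smul_inv_two_smul (m : Measure α) : (2 : ℝ≥0∞) • ((2⁻¹ : ℝ≥0∞) • m) = m := by
  rw [smul_smul, ENNReal.mul_inv_cancel (by norm_num) (by norm_num), one_smul]

/-- a left inverse of a "doubling onto `S`" map halves the measure. -/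
lemma map_leftInverse_half {ν : Measure α} {S : Set α} {Hh Dd : α → α} (hH : Measurable Hh)
    (hD : Measurable Dd) (hmap : ν.map Hh = (2 : ℝ≥0∞) • ν.restrict S)
    (hinv : ∀ᵐ x ∂ν, Dd (Hh x) = x) : (ν.restrict S).map Dd = (2⁻¹ : ℝ≥0∞) • ν := by
  have h1 : ν.restrict S = (2⁻¹ : ℝ≥0∞) • ν.map Hh := by rw [hmap, inv_two_smul_two_smul]
  rw [h1, Measure.map_smul, Measure.map_map hD hH]
  congr 1
  have : ν.map (Dd ∘ Hh) = ν.map id := Measure.map_congr hinv
  rw [this, Measure.map_id]

/-- The second component of the approximating Monge plan. -/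
noncomputable def T2map (In Out EN : Set α) (f F Gb He Ho De Do : α → α) : α → α :=
  pw In Out EN (fun x => He (f x)) (fun x => F (De x)) (fun x => Ho (Gb (Do x)))

/-- The third component of the approximating Monge plan. -/
noncomputable def T3map (In Out EN : Set α) (f Fb G He Ho De Do : α → α) : α → α :=
  pw In Out EN (fun x => Ho (G (f x))) (fun x => He (G (De x))) (fun x => Fb (Do x))

section
variable {μ : Measure α} {In Out EN : Set α} {f F Fb G Gb He Ho De Do : α → α}

omit [MeasurableSpace α] in
lemma T2map_In {x : α} (hx : x ∈ In) : T2map In Out EN f F Gb He Ho De Do x = He (f x) :=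
  pw_of_mem_In hx

omit [MeasurableSpace α] in
lemma T2map_EN {x : α} (hdisj : Disjoint In Out) (hx : x ∈ Out) (hx' : x ∈ EN) :
    T2map In Out EN f F Gb He Ho De Do x = F (De x) := pw_of_mem_EN hdisj hx hx'

omit [MeasurableSpace α] in
lemma T2map_ON {x : α} (hdisj : Disjoint In Out) (hx : x ∈ Out) (hx' : x ∉ EN) :
    T2map In Out EN f F Gb He Ho De Do x = Ho (Gb (Do x)) := pw_of_not_mem_EN hdisj hx hx'

omit [MeasurableSpace α] in
lemma T3map_In {x : α} (hx : x ∈ In) : T3map In Out EN f Fb G He Ho De Do x = Ho (G (f x)) :=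
  pw_of_mem_In hx

omit [MeasurableSpace α] in
lemma T3map_EN {x : α} (hdisj : Disjoint In Out) (hx : x ∈ Out) (hx' : x ∈ EN) :
    T3map In Out EN f Fb G He Ho De Do x = He (G (De x)) := pw_of_mem_EN hdisj hx hx'

omit [MeasurableSpace α] in
lemma T3map_ON {x : α} (hdisj : Disjoint In Out) (hx : x ∈ Out) (hx' : x ∉ EN) :
    T3map In Out EN f Fb G He Ho De Do x = Fb (Do x) := pw_of_not_mem_EN hdisj hx hx'

lemma measurable_T2map (hIn : MeasurableSet In) (hOut : MeasurableSet Out) (hEN : MeasurableSet EN)
    (hfm : Measurable f) (hFm : Measurable F) (hGbm : Measurable Gb) (hHem : Measurable He)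
    (hHom : Measurable Ho) (hDem : Measurable De) (hDom : Measurable Do) :
    Measurable (T2map In Out EN f F Gb He Ho De Do) :=
  measurable_pw hIn hOut hEN (hHem.comp hfm) (hFm.comp hDem) (hHom.comp (hGbm.comp hDom))

lemma measurable_T3map (hIn : MeasurableSet In) (hOut : MeasurableSet Out) (hEN : MeasurableSet EN)
    (hfm : Measurable f) (hFbm : Measurable Fb) (hGm : Measurable G) (hHem : Measurable He)
    (hHom : Measurable Ho) (hDem : Measurable De) (hDom : Measurable Do) :
    Measurable (T3map In Out EN f Fb G He Ho De Do) :=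
  measurable_pw hIn hOut hEN (hHom.comp (hGm.comp hfm)) (hHem.comp (hGm.comp hDem))
    (hFbm.comp hDom)

theorem map_T2map (hIn : MeasurableSet In) (hOut : MeasurableSet Out) (hEN : MeasurableSet EN)
    (hdisj : Disjoint In Out) (hdec : μ = μ.restrict In + μ.restrict Out)
    (hfm : Measurable f) (hFm : Measurable F) (hGbm : Measurable Gb) (hHem : Measurable He)
    (hHom : Measurable Ho) (hDem : Measurable De) (hDom : Measurable Do)
    (hf : (μ.restrict In).map f = (2⁻¹ : ℝ≥0∞) • μ.restrict Out)
    (hF : (μ.restrict Out).map F = (2 : ℝ≥0∞) • μ.restrict In)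
    (hGb : (μ.restrict Out).map Gb = μ.restrict Out)
    (hHe : (μ.restrict Out).map He = (2 : ℝ≥0∞) • (μ.restrict Out).restrict EN)
    (hHo : (μ.restrict Out).map Ho = (2 : ℝ≥0∞) • (μ.restrict Out).restrict ENᶜ)
    (hDe : ∀ᵐ x ∂(μ.restrict Out), De (He x) = x)
    (hDo : ∀ᵐ x ∂(μ.restrict Out), Do (Ho x) = x) :
    μ.map (T2map In Out EN f F Gb He Ho De Do) = μ := by
  unfold T2map
  rw [map_pw hIn hOut hEN hdisj hdec (a := fun x => He (f x)) (b := fun x => F (De x))
    (c := fun x => Ho (Gb (Do x))) (hHem.comp hfm) (hFm.comp hDem) (hHom.comp (hGbm.comp hDom))]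
  have a1 : (μ.restrict In).map (fun x => He (f x)) = (μ.restrict Out).restrict EN := by
    have : (μ.restrict In).map (fun x => He (f x)) = ((μ.restrict In).map f).map He :=
      (Measure.map_map hHem hfm).symm
    rw [this, hf, Measure.map_smul, hHe, inv_two_smul_two_smul]
  have a2 : ((μ.restrict Out).restrict EN).map (fun x => F (De x)) = μ.restrict In := by
    have : ((μ.restrict Out).restrict EN).map (fun x => F (De x))
        = (((μ.restrict Out).restrict EN).map De).map F := (Measure.map_map hFm hDem).symm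
    rw [this, map_leftInverse_half hHem hDem hHe hDe, Measure.map_smul, hF, inv_two_smul_two_smul]
  have a3 : ((μ.restrict Out).restrict ENᶜ).map (fun x => Ho (Gb (Do x)))
      = (μ.restrict Out).restrict ENᶜ := by
    have : ((μ.restrict Out).restrict ENᶜ).map (fun x => Ho (Gb (Do x)))
        = ((((μ.restrict Out).restrict ENᶜ).map Do).map Gb).map Ho := by
      rw [Measure.map_map hGbm hDom, Measure.map_map hHom (hGbm.comp hDom)]
      rfl
    rw [this, map_leftInverse_half hHom hDom hHo hDo, Measure.map_smul, hGb, Measure.map_smul, hHo,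
      inv_two_smul_two_smul]
  rw [a1, a2, a3]
  conv_rhs => rw [hdec, ← Measure.restrict_add_restrict_compl (μ := μ.restrict Out) hEN]
  abel

theorem map_T3map (hIn : MeasurableSet In) (hOut : MeasurableSet Out) (hEN : MeasurableSet EN)
    (hdisj : Disjoint In Out) (hdec : μ = μ.restrict In + μ.restrict Out)
    (hfm : Measurable f) (hFbm : Measurable Fb) (hGm : Measurable G) (hHem : Measurable He)
    (hHom : Measurable Ho) (hDem : Measurable De) (hDom : Measurable Do)
    (hf : (μ.restrict In).map f = (2⁻¹ : ℝ≥0∞) • μ.restrict Out)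
    (hFb : (μ.restrict Out).map Fb = (2 : ℝ≥0∞) • μ.restrict In)
    (hG : (μ.restrict Out).map G = μ.restrict Out)
    (hHe : (μ.restrict Out).map He = (2 : ℝ≥0∞) • (μ.restrict Out).restrict EN)
    (hHo : (μ.restrict Out).map Ho = (2 : ℝ≥0∞) • (μ.restrict Out).restrict ENᶜ)
    (hDe : ∀ᵐ x ∂(μ.restrict Out), De (He x) = x)
    (hDo : ∀ᵐ x ∂(μ.restrict Out), Do (Ho x) = x) :
    μ.map (T3map In Out EN f Fb G He Ho De Do) = μ := by
  unfold T3map
  rw [map_pw hIn hOut hEN hdisj hdec (a := fun x => Ho (G (f x))) (b := fun x => He (G (De x)))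
    (c := fun x => Fb (Do x)) (hHom.comp (hGm.comp hfm)) (hHem.comp (hGm.comp hDem))
    (hFbm.comp hDom)]
  have a1 : (μ.restrict In).map (fun x => Ho (G (f x))) = (μ.restrict Out).restrict ENᶜ := by
    have : (μ.restrict In).map (fun x => Ho (G (f x))) = (((μ.restrict In).map f).map G).map Ho := by
      rw [Measure.map_map hGm hfm, Measure.map_map hHom (hGm.comp hfm)]
      rfl
    rw [this, hf, Measure.map_smul, hG, Measure.map_smul, hHo, inv_two_smul_two_smul]
  have a2 : ((μ.restrict Out).restrict EN).map (fun x => He (G (De x)))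
      = (μ.restrict Out).restrict EN := by
    have : ((μ.restrict Out).restrict EN).map (fun x => He (G (De x)))
        = ((((μ.restrict Out).restrict EN).map De).map G).map He := by
      rw [Measure.map_map hGm hDem, Measure.map_map hHem (hGm.comp hDem)]
      rfl
    rw [this, map_leftInverse_half hHem hDem hHe hDe, Measure.map_smul, hG, Measure.map_smul, hHe,
      inv_two_smul_two_smul]
  have a3 : ((μ.restrict Out).restrict ENᶜ).map (fun x => Fb (Do x)) = μ.restrict In := by
    have : ((μ.restrict Out).restrict ENᶜ).map (fun x => Fb (Do x))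
        = (((μ.restrict Out).restrict ENᶜ).map Do).map Fb := (Measure.map_map hFbm hDom).symm
    rw [this, map_leftInverse_half hHom hDom hHo hDo, Measure.map_smul, hFb, inv_two_smul_two_smul]
  rw [a1, a2, a3]
  conv_rhs => rw [hdec, ← Measure.restrict_add_restrict_compl (μ := μ.restrict Out) hEN]
  abel

end

end Crest.Agent.OT3
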