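import Crest.Agent.Lib_OT3.Common

/-!
# S0175: basic lemmas (coordinates, `act`, norms, elementary facts on the parameter functions)
-/

set_option autoImplicit false
open MeasureTheory Set
open scoped ENNReal Real

namespace Crest.Agent.OT3

variable {n : ℕ}

/-! ### coordinates -/

@[simp] lemma mk_zero (p q : ℝ) (w : Fin n → ℝ) : (mk p q w) 0 = p := rfl
@[simp] lemma mk_one (p q : ℝ) (w : Fin n → ℝ) : (mk p q w) 1 = q := rfl
@[simp] lemma mk_succ (p q : ℝ) (w : Fin n → ℝ) (i : Fin n) : (mk p q w) i.succ.succ = w i := rfl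

@[simp] lemma act_zero (u v c : ℝ) (x : E n) : (act u v c x) 0 = u * x 0 - v * x 1 := rfl
@[simp] lemma act_one' (u v c : ℝ) (x : E n) : (act u v c x) 1 = v * x 0 + u * x 1 := rfl
@[simp] lemma act_succ (u v c : ℝ) (x : E n) (i : Fin n) :
    (act u v c x) i.succ.succ = c * x i.succ.succ := rfl

lemma ext_iff' {x y : E n} :
    x = y ↔ x 0 = y 0 ∧ x 1 = y 1 ∧ ∀ i : Fin n, x i.succ.succ = y i.succ.succ := by
  constructor
  · rintro rfl; exact ⟨rfl, rfl, fun _ => rfl⟩
  · rintro ⟨h0, h1, h2⟩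
    ext j
    refine Fin.cases h0 (fun j => ?_) j
    refine Fin.cases h1 (fun j => ?_) j
    exact h2 j

lemma sum_coord (g : Fin (n + 2) → ℝ) :
    ∑ j, g j = g 0 + g 1 + ∑ i : Fin n, g i.succ.succ := by
  rw [Fin.sum_univ_succ, Fin.sum_univ_succ]
  simp [add_assoc]

lemma norm_sq (x : E n) : ‖x‖ ^ 2 = tP x + tau x := by
  rw [EuclideanSpace.norm_sq_eq, sum_coord]
  simp [tP, tau]

lemma norm_sub_sq' (x y : E n) : ‖x - y‖ ^ 2 =
    (x 0 - y 0) ^ 2 + (x 1 - y 1) ^ 2 + ∑ i : Fin n, (x i.succ.succ - y i.succ.succ) ^ 2 := by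
  rw [EuclideanSpace.norm_sq_eq, sum_coord]
  simp

lemma tP_nonneg (x : E n) : 0 ≤ tP x := by unfold tP; positivity
lemma tau_nonneg (x : E n) : 0 ≤ tau x := by unfold tau; positivity

lemma tP_act (u v c : ℝ) (x : E n) : tP (act u v c x) = (u ^ 2 + v ^ 2) * tP x := by
  simp only [tP, act_zero, act_one']; ring

lemma tau_act (u v c : ℝ) (x : E n) : tau (act u v c x) = c ^ 2 * tau x := by
  simp only [tau, act_succ, mul_pow, Finset.mul_sum]

lemma act_act (u v c u' v' c' : ℝ) (x : E n) :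
    act u v c (act u' v' c' x) = act (u * u' - v * v') (u * v' + v * u') (c * c') x := by
  rw [ext_iff']
  refine ⟨?_, ?_, fun i => ?_⟩ <;> simp only [act_zero, act_one', act_succ] <;> ring

@[simp] lemma act_id (x : E n) : act 1 0 1 x = x := by
  rw [ext_iff']
  refine ⟨?_, ?_, fun i => ?_⟩ <;> simp

lemma norm_act_sub_act_sq (u v c u' v' c' : ℝ) (x : E n) :
    ‖act u v c x - act u' v' c' x‖ ^ 2
      = ((u - u') ^ 2 + (v - v') ^ 2) * tP x + (c - c') ^ 2 * tau x := by
  rw [norm_sub_sq']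
  simp only [act_zero, act_one', act_succ, tP, tau, Finset.mul_sum]
  have : ∀ i : Fin n, (c * x i.succ.succ - c' * x i.succ.succ) ^ 2
      = (c - c') ^ 2 * x i.succ.succ ^ 2 := fun i => by ring
  simp only [this]
  ring

lemma norm_act_sub_self_sq (u v c : ℝ) (x : E n) :
    ‖act u v c x - x‖ ^ 2 = ((u - 1) ^ 2 + v ^ 2) * tP x + (c - 1) ^ 2 * tau x := by
  have := norm_act_sub_act_sq u v c 1 0 1 x
  simpa using this

lemma tP_rot (θ : ℝ) (x : E n) : tP (rot θ x) = tP x := by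
  rw [rot, tP_act, Real.cos_sq_add_sin_sq, one_mul]

lemma tau_rot (θ : ℝ) (x : E n) : tau (rot θ x) = tau x := by
  rw [rot, tau_act]; simp

/-! ### parameters -/

section par
variable {s : ℝ}

lemma one_lt_sg (hs : 0 < s) : 1 < sg s := by unfold sg; linarith
lemma sg_pos (hs : 0 < s) : 0 < sg s := by unfold sg; linarith
lemma B0_pos (hs : 0 < s) : 0 < B0 s := by unfold B0; linarith
lemma kap_sub_B0 (s : ℝ) : kap s - B0 s = s * (4 : ℝ) ^ (-(sg s)) := by unfold kap B0; ring
lemma B0_lt_kap (hs : 0 < s) : B0 s < kap s := by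
  have : 0 < s * (4 : ℝ) ^ (-(sg s)) := by positivity
  have := kap_sub_B0 s
  linarith
lemma kap_pos (hs : 0 < s) : 0 < kap s := (B0_pos hs).trans (B0_lt_kap hs)
lemma kap_lt_kap' (hs : 0 < s) : kap s < kap' s := by
  have := kap_pos hs
  unfold kap'; linarith

lemma aF_pos (hs : 0 < s) {B : ℝ} (hB : 0 < B) : 0 < aF s B := by
  unfold aF; positivity
lemma bF_pos (hs : 0 < s) {B : ℝ} (hB : B < kap s) : 0 < bF s B := by
  unfold bF
  have : 0 < kap s - B := by linarith
  positivity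

lemma slope_a (hs : 0 < s) {B : ℝ} (hB : 0 < B) : s / 2 * aF s B ^ (-(sg s)) = B := by
  unfold aF
  have hσ := sg_pos hs
  rw [← Real.rpow_mul (by positivity), show 1 / sg s * -(sg s) = -1 by field_simp,
    Real.rpow_neg_one]
  field_simp

lemma slope_b (hs : 0 < s) {B : ℝ} (hB : B < kap s) :
    s / 2 * (4 * bF s B) ^ (-(sg s)) = (kap s - B) / 2 := by
  unfold bF
  have hσ := sg_pos hs
  have h1 : 0 < kap s - B := by linarith
  rw [show 4 * ((s / (kap s - B)) ^ (1 / sg s) / 4) = (s / (kap s - B)) ^ (1 / sg s) by ring,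
    ← Real.rpow_mul (by positivity), show 1 / sg s * -(sg s) = -1 by field_simp,
    Real.rpow_neg_one]
  field_simp

end par

end Crest.Agent.OT3
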