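import Mathlib
import Crest.Prelude.Def_MultiMarginal

/-!
# S0175 (three-marginal inverse-power transport without Monge minimiser): common definitions

`E n = ℝ^{n+2}`; `P` = the first two coordinates, `⊥` = the other `n`.
All maps are of the form `y ↦ act u v c y` (complex multiplication by `u + i v` on `P`,
scaling by `c` on `⊥`) with coefficients depending only on the invariants `tP y`, `tau y`.
See `BLUEPRINT.md` in this directory.
-/

set_option autoImplicit false
open MeasureTheory Set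
open scoped ENNReal Real

namespace Crest.Agent.OT3

noncomputable section

/-! ### one–dimensional parameter functions -/

/-- `σ = 1 + s/2`. -/
def sg (s : ℝ) : ℝ := 1 + s / 2
/-- base slope (configuration with `x = 0`, `a = b = 1`). -/
def B0 (s : ℝ) : ℝ := s / 2
/-- `κ` : coefficient of the outer potential in the plane `P`. -/
def kap (s : ℝ) : ℝ := s / 2 * (1 + 2 * (4 : ℝ) ^ (-(sg s)))
/-- `κ' = 2 κ` : coefficient of the outer potential in the `⊥` directions. -/
def kap' (s : ℝ) : ℝ := 2 * kap s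
/-- `a(B) = |x-y|^2 = |x-z|^2`, defined by `(s/2) a^{-σ} = B`. -/
def aF (s B : ℝ) : ℝ := (s / (2 * B)) ^ (1 / sg s)
/-- `b(B) = |y-z|^2/4`, defined by `(s/2) (4b)^{-σ} = (κ - B)/2`. -/
def bF (s B : ℝ) : ℝ := (s / (kap s - B)) ^ (1 / sg s) / 4
/-- `w = a - b = |X|^2`. -/
def wF (s B : ℝ) : ℝ := aF s B - bF s B
/-- `Q(B) = B^2 w + κ^2 b = |K y|^2` on the configurations with parameter `B`. -/
def Qf (s B : ℝ) : ℝ := B ^ 2 * wF s B + kap s ^ 2 * bF s B
/-- derivative of `Qf`. -/
def Qd (s B : ℝ) : ℝ := (kap s * bF s B + (2 * sg s - 1) * B * wF s B) / sg s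
/-- constant term of the lower bound. -/
def C0 (s B : ℝ) : ℝ := 2 * sg s * aF s B ^ (-(s / 2)) + sg s * (4 * bF s B) ^ (-(s / 2))
/-- the lower bound `Φ(B; t, τ)` for `c(x,y,z) + <y,Ky> + <z,Kz>`, `t = |x_P|^2`, `τ = |x_⊥|^2`. -/
def Phi (s B t τ : ℝ) : ℝ :=
  C0 s B - 2 * B * (kap s * t / (kap s - B) + kap' s * τ / (kap' s - B))
/-- consistency function: `Efun s B t τ = 0` iff `B` is the parameter of `x`. Increasing in `B`. -/
def Efun (s B t τ : ℝ) : ℝ :=
  (kap s / (kap s - B)) ^ 2 * t + (kap' s / (kap' s - B)) ^ 2 * τ - wF s B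
/-- derivative of `wF` -/
def wd (s B : ℝ) : ℝ := -(aF s B / (sg s * B)) - bF s B / (sg s * (kap s - B))
/-- `⊥`-scaling factor: `x_⊥ = - cF y_⊥`. -/
def cF (s B : ℝ) : ℝ := (kap' s - B) / B

/-! ### the space -/

/-- `ℝ^{n+2}`. -/
abbrev E (n : ℕ) := EuclideanSpace ℝ (Fin (n + 2))

variable {n : ℕ}

/-- the point with coordinates `(p, q, w)`. -/
def mk (p q : ℝ) (w : Fin n → ℝ) : E n := WithLp.toLp 2 (Fin.cons p (Fin.cons q w))
/-- `⊥` part. -/
def perp (x : E n) : Fin n → ℝ := fun i => x i.succ.succ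
/-- `|x_P|^2`. -/
def tP (x : E n) : ℝ := x 0 ^ 2 + x 1 ^ 2
/-- `|x_⊥|^2`. -/
def tau (x : E n) : ℝ := ∑ i : Fin n, x i.succ.succ ^ 2
/-- complex multiplication by `u + i v` on `P`, scaling by `c` on `⊥`. -/
def act (u v c : ℝ) (x : E n) : E n :=
  mk (u * x 0 - v * x 1) (v * x 0 + u * x 1) (fun i => c * x i.succ.succ)
/-- rotation by the angle `θ` in `P`. -/
def rot (θ : ℝ) (x : E n) : E n := act (Real.cos θ) (Real.sin θ) 1 x
/-- polar-type parametrisation. -/
def pol (θ T : ℝ) (η : Fin n → ℝ) : E n := mk (√T * Real.cos θ) (√T * Real.sin θ) η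
/-- `<y, K y>`. -/
def NK (s : ℝ) (y : E n) : ℝ := kap s * tP y + kap' s * tau y
/-- `|K y|^2`. -/
def qK (s : ℝ) (y : E n) : ℝ := kap s ^ 2 * tP y + kap' s ^ 2 * tau y
/-- real-valued cost (meaningful for pairwise distinct points). -/
def costR (s : ℝ) (x y z : E n) : ℝ := ‖x - y‖ ^ (-s) + ‖x - z‖ ^ (-s) + ‖y - z‖ ^ (-s)

/-! ### constants -/

/-- All constants of the construction, with the inequalities they have to satisfy. -/
structure Par where
  s : ℝ
  hs : 0 < s
  Blo : ℝ
  t1 : ℝ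
  t2 : ℝ
  tau2 : ℝ
  hBlo : 0 < Blo
  hBlo' : Blo < B0 s
  ht1 : 0 < t1
  ht12 : t1 < t2
  htau2 : 0 < tau2
  /-- the closed inner box lies in the domain `Udom` of `fmap` -/
  h_lo : Efun s Blo t2 tau2 < 0
  /-- the inner region is tiny: two inner points are very expensive -/
  h_small : 6 * sg s < (2 * √(t2 + tau2)) ^ (-s)
  /-- inner and outer regions are disjoint -/
  h_disj : t2 < bF s Blo

variable (P : Par)

/-- inverse function of `Qf` on `[Blo, B0]` (monotone, hence measurable). -/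
def Binv (q : ℝ) : ℝ := sSup {B | B ∈ Icc P.Blo (B0 P.s) ∧ Qf P.s B ≤ q}
/-- parameter of an outer point. -/
def By (y : E n) : ℝ := Binv P (qK P.s y)
/-- parameter of an inner point. -/
def Bx (x : E n) : ℝ := sSup {B | B ∈ Icc P.Blo (B0 P.s) ∧ Efun P.s B (tP x) (tau x) ≤ 0}

/-- open domain of `fmap`. -/
def Udom : Set (E n) := {x | 0 < tP x ∧ Efun P.s P.Blo (tP x) (tau x) < 0}
/-- open domain of `Fmap`; `fmap : Udom → Vdom` and `Fmap : Vdom → Udom` are inverse bijections. -/
def Vdom : Set (E n) := {y | qK P.s y ∈ Ioo (Qf P.s P.Blo) (Qf P.s (B0 P.s)) ∧ bF P.s (By P y) < tP y}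
/-- inner region (= positivity set of the inner density); its closure lies in `Udom`. -/
def In : Set (E n) := {x | P.t1 < tP x ∧ tP x < P.t2 ∧ tau x < P.tau2}

/-! ### the maps -/

def uF (s B T : ℝ) : ℝ := -((kap s - B) / B) * (T - bF s B) / T
def vF (s B T : ℝ) : ℝ := -((kap s - B) / B) * √(bF s B * (T - bF s B)) / T
def uG (s B T : ℝ) : ℝ := (T - 2 * bF s B) / T
def vG (s B T : ℝ) : ℝ := 2 * √(bF s B * (T - bF s B)) / T

/-- `Out → In`: the inner partner `w` of `y` when `y = f w`. -/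
def Fmap (y : E n) : E n :=
  act (uF P.s (By P y) (tP y)) (vF P.s (By P y) (tP y)) (-(cF P.s (By P y))) y
/-- mirror image of `Fmap`: the inner partner `w` of `y` when `y = g w`. -/
def Fbar (y : E n) : E n :=
  act (uF P.s (By P y) (tP y)) (-(vF P.s (By P y) (tP y))) (-(cF P.s (By P y))) y
/-- `Out → Out`: the outer partner of `y` in the configuration `(Fmap y, y, Gmap y)`. -/
def Gmap (y : E n) : E n := act (uG P.s (By P y) (tP y)) (vG P.s (By P y) (tP y)) 1 y
/-- mirror image of `Gmap`. -/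
def Gbar (y : E n) : E n := act (uG P.s (By P y) (tP y)) (-(vG P.s (By P y) (tP y))) 1 y
/-- `In → Out`, inverse of `Fmap`. -/
def fmap (x : E n) : E n :=
  act (-(Bx P x / (kap P.s - Bx P x))) (√(bF P.s (Bx P x)) / √(tP x))
    (-(Bx P x / (kap' P.s - Bx P x))) x

/-- `In → Out`, inverse of `Fbar` (mirror image of `fmap`). -/
def gmap (x : E n) : E n :=
  act (-(Bx P x / (kap P.s - Bx P x))) (-(√(bF P.s (Bx P x)) / √(tP x)))
    (-(Bx P x / (kap' P.s - Bx P x))) x
/-- outer region `= fmap '' In = gmap '' In`. -/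
def Out : Set (E n) := {y | y ∈ Vdom P ∧ Fmap P y ∈ In P}

/-! ### the density -/

def chi1 (t : ℝ) : ℝ := Real.smoothTransition (t - P.t1) * Real.smoothTransition (P.t2 - t)
def chi2 (τ : ℝ) : ℝ := Real.smoothTransition (P.tau2 - τ)
/-- square root of the unnormalised inner density: smooth, `≥ 0`, positive exactly on `In`. -/
def eta (x : E n) : ℝ := chi1 P (tP x) * chi2 P (tau x)
open Classical in
/-- density of the push-forward of `η² dx` under the inverse of `F : V → U`. -/
def pushDens (η : E n → ℝ) (F : E n → E n) (V : Set (E n)) (y : E n) : ℝ :=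
  if y ∈ V then η (F y) ^ 2 * |(fderiv ℝ F y).det| else 0
/-- normalisation: `∫ rho = 1`. -/
def cN (n : ℕ) : ℝ := (3 * ∫ x : E n, eta P x ^ 2)⁻¹
/-- the density. -/
def rho (x : E n) : ℝ := cN P n * (eta P x ^ 2 + 2 * pushDens (eta P) (Fmap P) (Vdom P) x)

/-- the marginal. -/
def mu : Measure (E n) := Crest.AnalysisR.OT.measOfDensity (rho P (n := n))

/-! ### potentials (`u = pp - vv`) -/

open Classical in
def pp (x : E n) : ℝ≥0∞ := if x ∈ In P then ENNReal.ofReal (Phi P.s (Bx P x) (tP x) (tau x)) else 0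
open Classical in
def vv (y : E n) : ℝ≥0∞ := if y ∈ Out P then ENNReal.ofReal (NK P.s y) else 0

end

end Crest.Agent.OT3
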