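import Crest.Agent.Lib_OT3.Basic

/-!
# S0175: algebra of the configurations (parametric version: the parameter `B` is explicit)
-/

set_option autoImplicit false
set_option linter.unusedSectionVars false
open MeasureTheory Set
open scoped ENNReal Real

namespace Crest.Agent.OT3

noncomputable section

variable {n : ℕ}

/-- parametric versions of the maps -/
def FB (s B : ℝ) (y : E n) : E n := act (uF s B (tP y)) (vF s B (tP y)) (-(cF s B)) y
def FbB (s B : ℝ) (y : E n) : E n := act (uF s B (tP y)) (-(vF s B (tP y))) (-(cF s B)) y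
def GB (s B : ℝ) (y : E n) : E n := act (uG s B (tP y)) (vG s B (tP y)) 1 y
def GbB (s B : ℝ) (y : E n) : E n := act (uG s B (tP y)) (-(vG s B (tP y))) 1 y
def fB (s B : ℝ) (x : E n) : E n :=
  act (-(B / (kap s - B))) (√(bF s B) / √(tP x)) (-(B / (kap' s - B))) x
def gB (s B : ℝ) (x : E n) : E n :=
  act (-(B / (kap s - B))) (-(√(bF s B) / √(tP x))) (-(B / (kap' s - B))) x

lemma Fmap_eq (P : Par) (y : E n) : Fmap P y = FB P.s (By P y) y := rfl
lemma Fbar_eq (P : Par) (y : E n) : Fbar P y = FbB P.s (By P y) y := rfl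
lemma Gmap_eq (P : Par) (y : E n) : Gmap P y = GB P.s (By P y) y := rfl
lemma Gbar_eq (P : Par) (y : E n) : Gbar P y = GbB P.s (By P y) y := rfl
lemma fmap_eq (P : Par) (x : E n) : fmap P x = fB P.s (Bx P x) x := rfl
lemma gmap_eq (P : Par) (x : E n) : gmap P x = gB P.s (Bx P x) x := rfl

lemma act_congr {u v c u' v' c' : ℝ} (x : E n) (hu : u = u') (hv : v = v') (hc : c = c') :
    act u v c x = act u' v' c' x := by rw [hu, hv, hc]

/-- the coefficients in terms of `β = √b`, `γ = √(T-b)`. -/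
lemma coef_aux {s B T : ℝ} (hb : 0 < bF s B) (hT : bF s B < T) :
    ∃ β γ : ℝ, 0 < β ∧ 0 < γ ∧ bF s B = β ^ 2 ∧ T = β ^ 2 + γ ^ 2 ∧ √(bF s B) = β ∧
      √(bF s B * (T - bF s B)) = β * γ ∧ √(T - bF s B) = γ := by
  refine ⟨√(bF s B), √(T - bF s B), Real.sqrt_pos.mpr hb, Real.sqrt_pos.mpr (by linarith),
    (Real.sq_sqrt hb.le).symm, ?_, rfl, Real.sqrt_mul hb.le _, rfl⟩
  rw [Real.sq_sqrt hb.le, Real.sq_sqrt (by linarith)]; ring

section outer
variable {s B : ℝ} (hs : 0 < s) (hB0 : 0 < B) (hB : B < kap s) {y : E n} (hT : bF s B < tP y)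
include hs hB0 hB hT

lemma tP_FB : tP (FB s B y) = ((kap s - B) / B) ^ 2 * (tP y - bF s B) := by
  obtain ⟨β, γ, hβ, hγ, hb, hTe, -, hr, -⟩ := coef_aux (bF_pos hs hB) hT
  rw [FB, tP_act, uF, vF, hr, hb, hTe]
  field_simp
  ring

lemma tP_FbB : tP (FbB s B y) = ((kap s - B) / B) ^ 2 * (tP y - bF s B) := by
  rw [← tP_FB hs hB0 hB hT, FbB, FB, tP_act, tP_act]; ring

omit hs hB0 hB hT in
lemma tau_FB : tau (FB s B y) = cF s B ^ 2 * tau y := by
  rw [FB, tau_act]; ring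

omit hs hB0 hB hT in
lemma tau_FbB : tau (FbB s B y) = cF s B ^ 2 * tau y := by
  rw [FbB, tau_act]; ring

lemma tP_FB_pos : 0 < tP (FB s B y) := by
  rw [tP_FB hs hB0 hB hT]
  have : 0 < kap s - B := by linarith
  have : 0 < tP y - bF s B := by linarith
  positivity

lemma tP_GB : tP (GB s B y) = tP y := by
  obtain ⟨β, γ, hβ, hγ, hb, hTe, -, hr, -⟩ := coef_aux (bF_pos hs hB) hT
  rw [GB, tP_act, uG, vG, hr, hb]
  rw [hTe]
  field_simp
  ring

lemma tP_GbB : tP (GbB s B y) = tP y := by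
  rw [← tP_GB hs hB0 hB hT, GbB, GB, tP_act, tP_act]; ring

omit hs hB0 hB hT in
lemma tau_GB : tau (GB s B y) = tau y := by
  rw [GB, tau_act]; ring

omit hs hB0 hB hT in
lemma tau_GbB : tau (GbB s B y) = tau y := by
  rw [GbB, tau_act]; ring

lemma GbB_GB : GbB s B (GB s B y) = y := by
  obtain ⟨β, γ, hβ, hγ, hb, hTe, -, hr, -⟩ := coef_aux (bF_pos hs hB) hT
  rw [GbB, tP_GB hs hB0 hB hT, GB, act_act]
  conv_rhs => rw [← act_id y]
  apply act_congr
  · rw [uG, vG, hr, hb, hTe]; field_simp; ring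
  · rw [uG, vG]; ring
  · ring

lemma GB_GbB : GB s B (GbB s B y) = y := by
  obtain ⟨β, γ, hβ, hγ, hb, hTe, -, hr, -⟩ := coef_aux (bF_pos hs hB) hT
  rw [GB, tP_GbB hs hB0 hB hT, GbB, act_act]
  conv_rhs => rw [← act_id y]
  apply act_congr
  · rw [uG, vG, hr, hb, hTe]; field_simp; ring
  · rw [uG, vG]; ring
  · ring

lemma FbB_GB : FbB s B (GB s B y) = FB s B y := by
  obtain ⟨β, γ, hβ, hγ, hb, hTe, -, hr, -⟩ := coef_aux (bF_pos hs hB) hT
  rw [FbB, tP_GB hs hB0 hB hT, GB, act_act, FB]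
  apply act_congr
  · rw [uF, vF, uG, vG, hr, hb, hTe]; field_simp; ring
  · rw [uF, vF, uG, vG, hr, hb, hTe]; field_simp; ring
  · ring

lemma FB_GbB : FB s B (GbB s B y) = FbB s B y := by
  obtain ⟨β, γ, hβ, hγ, hb, hTe, -, hr, -⟩ := coef_aux (bF_pos hs hB) hT
  rw [FB, tP_GbB hs hB0 hB hT, GbB, act_act, FbB]
  apply act_congr
  · rw [uF, vF, uG, vG, hr, hb, hTe]; field_simp; ring
  · rw [uF, vF, uG, vG, hr, hb, hTe]; field_simp; ring
  · ring

lemma fB_FB : fB s B (FB s B y) = y := by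
  obtain ⟨β, γ, hβ, hγ, hb, hTe, hsb, hr, hsg⟩ := coef_aux (bF_pos hs hB) hT
  have h1 : 0 < kap s - B := by linarith
  have h2 : 0 < kap' s - B := by have := kap_lt_kap' hs; linarith
  have hsq : √(tP (FB s B y)) = (kap s - B) / B * γ := by
    rw [tP_FB hs hB0 hB hT, Real.sqrt_mul (by positivity), Real.sqrt_sq (by positivity), hsg]
  rw [fB, hsq, hsb, FB, act_act]
  conv_rhs => rw [← act_id y]
  apply act_congr
  · rw [uF, vF, hr, hb, hTe]; field_simp; ring
  · rw [uF, vF, hr, hb, hTe]; field_simp; ring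
  · rw [cF]; field_simp

lemma gB_FbB : gB s B (FbB s B y) = y := by
  obtain ⟨β, γ, hβ, hγ, hb, hTe, hsb, hr, hsg⟩ := coef_aux (bF_pos hs hB) hT
  have h1 : 0 < kap s - B := by linarith
  have h2 : 0 < kap' s - B := by have := kap_lt_kap' hs; linarith
  have hsq : √(tP (FbB s B y)) = (kap s - B) / B * γ := by
    rw [tP_FbB hs hB0 hB hT, Real.sqrt_mul (by positivity), Real.sqrt_sq (by positivity), hsg]
  rw [gB, hsq, hsb, FbB, act_act]
  conv_rhs => rw [← act_id y]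
  apply act_congr
  · rw [uF, vF, hr, hb, hTe]; field_simp; ring
  · rw [uF, vF, hr, hb, hTe]; field_simp; ring
  · rw [cF]; field_simp

/-- consistency relation. -/
lemma Efun_FB (hQ : Qf s B = qK s y) : Efun s B (tP (FB s B y)) (tau (FB s B y)) = 0 := by
  have h1 : 0 < kap s - B := by linarith
  have h2 : 0 < kap' s - B := by have := kap_lt_kap' hs; linarith
  rw [tP_FB hs hB0 hB hT, tau_FB, Efun, cF]
  rw [Qf, qK] at hQ
  have : wF s B = (kap s ^ 2 * (tP y - bF s B) + kap' s ^ 2 * tau y) / B ^ 2 := by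
    field_simp; linarith
  rw [this]
  field_simp
  ring

lemma dist_FB_self (hQ : Qf s B = qK s y) : ‖FB s B y - y‖ ^ 2 = aF s B := by
  obtain ⟨β, γ, hβ, hγ, hb, hTe, -, hr, -⟩ := coef_aux (bF_pos hs hB) hT
  rw [Qf, qK, wF] at hQ
  have ha : aF s B = (kap s ^ 2 * (tP y - bF s B) + kap' s ^ 2 * tau y) / B ^ 2 + bF s B := by
    field_simp; linarith
  rw [ha, FB, norm_act_sub_self_sq, uF, vF, cF, hr, hb, hTe]
  field_simp
  ring

lemma dist_FB_GB (hQ : Qf s B = qK s y) : ‖FB s B y - GB s B y‖ ^ 2 = aF s B := by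
  obtain ⟨β, γ, hβ, hγ, hb, hTe, -, hr, -⟩ := coef_aux (bF_pos hs hB) hT
  rw [Qf, qK, wF] at hQ
  have ha : aF s B = (kap s ^ 2 * (tP y - bF s B) + kap' s ^ 2 * tau y) / B ^ 2 + bF s B := by
    field_simp; linarith
  rw [ha, FB, GB, norm_act_sub_act_sq, uF, vF, uG, vG, cF, hr, hb, hTe]
  field_simp
  ring

lemma dist_self_GB : ‖y - GB s B y‖ ^ 2 = 4 * bF s B := by
  obtain ⟨β, γ, hβ, hγ, hb, hTe, -, hr, -⟩ := coef_aux (bF_pos hs hB) hT
  rw [← norm_neg, neg_sub, GB, norm_act_sub_self_sq, uG, vG, hr, hb, hTe]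
  field_simp
  ring

lemma mid0 : (y 0 + (GB s B y) 0) / 2 = -(B / (kap s - B)) * (FB s B y) 0 := by
  obtain ⟨β, γ, hβ, hγ, hb, hTe, -, hr, -⟩ := coef_aux (bF_pos hs hB) hT
  have h1 : 0 < kap s - B := by linarith
  simp only [GB, FB, act_zero]
  rw [uF, vF, uG, vG, hr, hb, hTe]
  field_simp
  ring

lemma mid1 : (y 1 + (GB s B y) 1) / 2 = -(B / (kap s - B)) * (FB s B y) 1 := by
  obtain ⟨β, γ, hβ, hγ, hb, hTe, -, hr, -⟩ := coef_aux (bF_pos hs hB) hT
  have h1 : 0 < kap s - B := by linarith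
  simp only [GB, FB, act_one']
  rw [uF, vF, uG, vG, hr, hb, hTe]
  field_simp
  ring

lemma midp (i : Fin n) : (y i.succ.succ + (GB s B y) i.succ.succ) / 2
    = -(B / (kap' s - B)) * (FB s B y) i.succ.succ := by
  have h2 : 0 < kap' s - B := by have := kap_lt_kap' hs; linarith
  simp only [GB, FB, act_succ, cF]
  field_simp
  ring

end outer

section inner
variable {s B : ℝ} (hs : 0 < s) (hB0 : 0 < B) (hB : B < kap s) {x : E n} (ht : 0 < tP x)
include hs hB0 hB ht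

lemma tP_fB : tP (fB s B x) = (B / (kap s - B)) ^ 2 * tP x + bF s B := by
  have hb := bF_pos hs hB
  rw [fB, tP_act, div_pow, Real.sq_sqrt hb.le, Real.sq_sqrt ht.le]
  field_simp

lemma tP_gB : tP (gB s B x) = (B / (kap s - B)) ^ 2 * tP x + bF s B := by
  rw [← tP_fB hs hB0 hB ht, gB, fB, tP_act, tP_act]; ring

omit hs hB0 hB ht in
lemma tau_fB : tau (fB s B x) = (B / (kap' s - B)) ^ 2 * tau x := by
  rw [fB, tau_act]; ring

omit hs hB0 hB ht in
lemma tau_gB : tau (gB s B x) = (B / (kap' s - B)) ^ 2 * tau x := by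
  rw [gB, tau_act]; ring

lemma bF_lt_tP_fB : bF s B < tP (fB s B x) := by
  rw [tP_fB hs hB0 hB ht]
  have h1 : 0 < kap s - B := by linarith
  have : 0 < (B / (kap s - B)) ^ 2 * tP x := by positivity
  linarith

lemma bF_lt_tP_gB : bF s B < tP (gB s B x) := by
  rw [tP_gB hs hB0 hB ht, ← tP_fB hs hB0 hB ht]; exact bF_lt_tP_fB hs hB0 hB ht

lemma qK_fB (hE : Efun s B (tP x) (tau x) = 0) : qK s (fB s B x) = Qf s B := by
  have h1 : 0 < kap s - B := by linarith
  have h2 : 0 < kap' s - B := by have := kap_lt_kap' hs; linarith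
  rw [qK, tP_fB hs hB0 hB ht, tau_fB, Qf]
  rw [Efun] at hE
  have : wF s B = (kap s / (kap s - B)) ^ 2 * tP x + (kap' s / (kap' s - B)) ^ 2 * tau x := by
    linarith
  rw [this]
  field_simp
  ring

lemma qK_gB (hE : Efun s B (tP x) (tau x) = 0) : qK s (gB s B x) = Qf s B := by
  rw [← qK_fB hs hB0 hB ht hE, qK, qK, tP_gB hs hB0 hB ht, tP_fB hs hB0 hB ht, tau_gB, tau_fB]

lemma sqrt_aux : √(bF s B * (tP (fB s B x) - bF s B)) = √(bF s B) * (B / (kap s - B) * √(tP x)) := by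
  have h1 : 0 < kap s - B := by linarith
  have hb := bF_pos hs hB
  rw [tP_fB hs hB0 hB ht, add_sub_cancel_right, Real.sqrt_mul hb.le, Real.sqrt_mul (by positivity),
    Real.sqrt_sq (by positivity)]

lemma FB_fB : FB s B (fB s B x) = x := by
  have h1 : 0 < kap s - B := by linarith
  have h2 : 0 < kap' s - B := by have := kap_lt_kap' hs; linarith
  have hb := bF_pos hs hB
  have hβ : 0 < √(bF s B) := Real.sqrt_pos.mpr hb
  have hρ : 0 < √(tP x) := Real.sqrt_pos.mpr ht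
  have e1 : bF s B = √(bF s B) ^ 2 := (Real.sq_sqrt hb.le).symm
  have e2 : tP x = √(tP x) ^ 2 := (Real.sq_sqrt ht.le).symm
  rw [FB, uF, vF, sqrt_aux hs hB0 hB ht, tP_fB hs hB0 hB ht, fB, act_act]
  conv_rhs => rw [← act_id x]
  set β := √(bF s B)
  set ρ := √(tP x)
  rw [e1, e2]
  apply act_congr
  · field_simp; ring
  · field_simp; ring
  · rw [cF]; field_simp

lemma GB_fB : GB s B (fB s B x) = gB s B x := by
  have h1 : 0 < kap s - B := by linarith
  have hb := bF_pos hs hB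
  have hβ : 0 < √(bF s B) := Real.sqrt_pos.mpr hb
  have hρ : 0 < √(tP x) := Real.sqrt_pos.mpr ht
  have e1 : bF s B = √(bF s B) ^ 2 := (Real.sq_sqrt hb.le).symm
  have e2 : tP x = √(tP x) ^ 2 := (Real.sq_sqrt ht.le).symm
  rw [GB, uG, vG, sqrt_aux hs hB0 hB ht, tP_fB hs hB0 hB ht, fB, act_act, gB]
  set β := √(bF s B)
  set ρ := √(tP x)
  rw [e1, e2]
  apply act_congr
  · field_simp; ring
  · field_simp; ring
  · ring

lemma FbB_gB : FbB s B (gB s B x) = x := by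
  rw [← GB_fB hs hB0 hB ht, FbB_GB hs hB0 hB (bF_lt_tP_fB hs hB0 hB ht), FB_fB hs hB0 hB ht]

end inner

end

end Crest.Agent.OT3
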