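import Mathlib

/-!
# Smoothness of the determinant on `E →L[ℝ] E` (finite-dimensional `E`)
-/

set_option autoImplicit false
open scoped ContDiff

namespace Crest.Agent.OT3

/-- the determinant is a smooth function on the space of continuous linear endomorphisms of a
finite-dimensional real normed space. -/
theorem contDiff_clm_det {F : Type*} [NormedAddCommGroup F] [NormedSpace ℝ F]
    [FiniteDimensional ℝ F] : ContDiff ℝ ∞ (fun A : F →L[ℝ] F => A.det) := by
  classical
  let b := Module.finBasis ℝ F
  have h : (fun A : F →L[ℝ] F => A.det) = fun A : F →L[ℝ] F =>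
      (LinearMap.toMatrix b b (A : F →ₗ[ℝ] F)).det := by
    ext A
    rw [LinearMap.det_toMatrix]
  rw [h]
  simp only [Matrix.det_apply]
  refine ContDiff.sum fun σ _ => ?_
  refine ContDiff.const_smul _ ?_
  refine contDiff_prod fun i _ => ?_
  simp only [LinearMap.toMatrix_apply]
  -- `A ↦ b.repr (A (b i)) (σ i)` is continuous linear
  have hL : (fun A : F →L[ℝ] F => (b.repr ((A : F →ₗ[ℝ] F) (b i))) (σ i)) =
      fun A : F →L[ℝ] F =>
        (LinearMap.toContinuousLinearMap (b.coord (σ i))) (ContinuousLinearMap.apply ℝ F (b i) A) := by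
    ext A; simp
  rw [hL]
  exact (ContinuousLinearMap.contDiff _).comp (ContinuousLinearMap.contDiff _)

end Crest.Agent.OT3
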