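import Mathlib
import Crest.Agent.Lib_OT3.Common
import Crest.Agent.Lib_OT3.DetSmooth

/-!
# S0175: the push-forward density `pushDens`

`f : U → V`, `F : V → U` mutually inverse smooth maps between open sets, `η ≥ 0` smooth with compact
support in `U`.  Then `(η² dx).map f = pushDens η F V dy`, and `pushDens η F V` and its square root
are smooth with compact support.
-/

set_option autoImplicit false
open MeasureTheory Set Filter Topology
open scoped ENNReal ContDiff

namespace Crest.Agent.OT3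

variable {n : ℕ}

/-- the data. -/
structure DiffeoData (U V : Set (E n)) (f F : E n → E n) (η : E n → ℝ) : Prop where
  hU : IsOpen U
  hV : IsOpen V
  hf : ContDiffOn ℝ ∞ f U
  hF : ContDiffOn ℝ ∞ F V
  fU : MapsTo f U V
  FV : MapsTo F V U
  Ff : ∀ x ∈ U, F (f x) = x
  fF : ∀ y ∈ V, f (F y) = y
  fm : Measurable f
  hη : ContDiff ℝ ∞ η
  η0 : ∀ x, 0 ≤ η x
  ηc : HasCompactSupport η
  ηU : tsupport η ⊆ U

namespace DiffeoData

variable {U V : Set (E n)} {f F : E n → E n} {η : E n → ℝ} (D : DiffeoData U V f F η)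
include D

lemma contDiffAt_F {y : E n} (hy : y ∈ V) : ContDiffAt ℝ ∞ F y := D.hF.contDiffAt (D.hV.mem_nhds hy)

lemma contDiffAt_f {x : E n} (hx : x ∈ U) : ContDiffAt ℝ ∞ f x := D.hf.contDiffAt (D.hU.mem_nhds hx)

lemma hasFDerivAt_F {y : E n} (hy : y ∈ V) : HasFDerivAt F (fderiv ℝ F y) y :=
  ((D.contDiffAt_F hy).differentiableAt (by simp)).hasFDerivAt

lemma hasFDerivAt_f {x : E n} (hx : x ∈ U) : HasFDerivAt f (fderiv ℝ f x) x :=
  ((D.contDiffAt_f hx).differentiableAt (by simp)).hasFDerivAt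

lemma det_ne_zero {y : E n} (hy : y ∈ V) : (fderiv ℝ F y).det ≠ 0 := by
  have h1 := D.hasFDerivAt_F hy
  have h2 := D.hasFDerivAt_f (D.FV hy)
  have h3 : HasFDerivAt (f ∘ F) ((fderiv ℝ f (F y)).comp (fderiv ℝ F y)) y := h2.comp y h1
  have h4 : (f ∘ F) =ᶠ[𝓝 y] id := by
    filter_upwards [D.hV.mem_nhds hy] with z hz using D.fF z hz
  have h5 : HasFDerivAt (f ∘ F) (ContinuousLinearMap.id ℝ (E n)) y :=
    (hasFDerivAt_id y).congr_of_eventuallyEq h4
  have h6 := h3.unique h5
  have h7 : ((fderiv ℝ f (F y)).comp (fderiv ℝ F y)).det = 1 := by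
    rw [h6]; simp [ContinuousLinearMap.det]
  intro h0
  have h8 : ((fderiv ℝ f (F y)).comp (fderiv ℝ F y)).det
      = (fderiv ℝ f (F y)).det * (fderiv ℝ F y).det := by
    simp only [ContinuousLinearMap.det]
    exact LinearMap.det_comp _ _
  rw [h8, h0, mul_zero] at h7
  exact zero_ne_one h7

lemma injOn_F : InjOn F V := by
  intro y hy y' hy' h
  rw [← D.fF y hy, h, D.fF y' hy']

lemma image_F : F '' V = U := by
  ext x
  constructor
  · rintro ⟨y, hy, rfl⟩; exact D.FV hy
  · intro hx; exact ⟨f x, D.fU hx, D.Ff x hx⟩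

lemma eta_eq_zero {x : E n} (hx : x ∉ U) : η x = 0 :=
  image_eq_zero_of_notMem_tsupport fun h => hx (D.ηU h)

omit D in
lemma pushDens_of_mem {y : E n} (hy : y ∈ V) :
    pushDens η F V y = η (F y) ^ 2 * |(fderiv ℝ F y).det| := by
  unfold pushDens; rw [if_pos hy]

omit D in
lemma pushDens_of_not_mem {y : E n} (hy : y ∉ V) : pushDens η F V y = 0 := by
  unfold pushDens; rw [if_neg hy]

/-- **change of variables**. -/
theorem map_f : (volume.withDensity fun x => ENNReal.ofReal (η x ^ 2)).map f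
    = volume.withDensity fun y => ENNReal.ofReal (pushDens η F V y) := by
  ext A hA
  rw [Measure.map_apply D.fm hA, withDensity_apply _ (D.fm hA), withDensity_apply _ hA]
  have hcv := lintegral_image_eq_lintegral_abs_det_fderiv_mul volume D.hV.measurableSet
     (fun y hy => (D.hasFDerivAt_F hy).hasFDerivWithinAt) D.injOn_F
     (fun x => (f ⁻¹' A).indicator (fun x => ENNReal.ofReal (η x ^ 2)) x)
  rw [D.image_F] at hcv
  have e1 : ∫⁻ x in f ⁻¹' A, ENNReal.ofReal (η x ^ 2)
      = ∫⁻ x in U, (f ⁻¹' A).indicator (fun x => ENNReal.ofReal (η x ^ 2)) x := by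
    rw [← lintegral_indicator (D.fm hA), ← lintegral_indicator D.hU.measurableSet]
    congr 1
    ext x
    by_cases hx : x ∈ U
    · rw [indicator_of_mem hx]
    · rw [indicator_of_notMem hx]
      by_cases hx' : x ∈ f ⁻¹' A
      · rw [indicator_of_mem hx', D.eta_eq_zero hx]; simp
      · rw [indicator_of_notMem hx']
  rw [e1, hcv, ← lintegral_indicator hA, ← lintegral_indicator D.hV.measurableSet]
  congr 1
  ext y
  by_cases hy : y ∈ V
  · rw [indicator_of_mem hy]
    by_cases hyA : y ∈ A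
    · have : F y ∈ f ⁻¹' A := by rw [mem_preimage, D.fF y hy]; exact hyA
      rw [indicator_of_mem this, indicator_of_mem hyA, pushDens_of_mem hy,
        ← ENNReal.ofReal_mul (abs_nonneg _), mul_comm]
    · have : F y ∉ f ⁻¹' A := by rw [mem_preimage, D.fF y hy]; exact hyA
      rw [indicator_of_notMem this, indicator_of_notMem hyA, mul_zero]
  · rw [indicator_of_notMem hy]
    by_cases hyA : y ∈ A
    · rw [indicator_of_mem hyA, pushDens_of_not_mem hy]; simp
    · rw [indicator_of_notMem hyA]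

omit D in
theorem pushDens_nonneg (y : E n) : 0 ≤ pushDens η F V y := by
  unfold pushDens
  split_ifs
  · positivity
  · exact le_rfl

theorem pushDens_pos_iff (y : E n) : 0 < pushDens η F V y ↔ y ∈ V ∧ 0 < η (F y) := by
  by_cases hy : y ∈ V
  · rw [pushDens_of_mem hy]
    have h1 : 0 < |(fderiv ℝ F y).det| := abs_pos.mpr (D.det_ne_zero hy)
    constructor
    · intro h
      refine ⟨hy, lt_of_le_of_ne (D.η0 _) ?_⟩
      intro h0
      rw [← h0] at h
      simp at h
    · rintro ⟨-, h⟩; positivity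
  · rw [pushDens_of_not_mem hy]
    simp [hy]

/-- the compact set carrying `pushDens`. -/
lemma isCompact_image : IsCompact (f '' tsupport η) :=
  D.ηc.isCompact.image_of_continuousOn (D.hf.continuousOn.mono D.ηU)

lemma image_subset : f '' tsupport η ⊆ V := by
  rintro _ ⟨x, hx, rfl⟩; exact D.fU (D.ηU hx)

lemma eta_F_eq_zero {y : E n} (hy : y ∈ V) (hy' : y ∉ f '' tsupport η) : η (F y) = 0 := by
  apply image_eq_zero_of_notMem_tsupport
  intro h
  exact hy' ⟨F y, h, D.fF y hy⟩

lemma pushDens_eq_zero {y : E n} (hy' : y ∉ f '' tsupport η) : pushDens η F V y = 0 := by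
  by_cases hy : y ∈ V
  · rw [pushDens_of_mem hy, D.eta_F_eq_zero hy hy']; simp
  · exact pushDens_of_not_mem hy

theorem hasCompactSupport_pushDens : HasCompactSupport (pushDens η F V) :=
  HasCompactSupport.intro D.isCompact_image fun _ hy => D.pushDens_eq_zero hy

lemma contDiffAt_det {y : E n} (hy : y ∈ V) :
    ContDiffAt ℝ ∞ (fun z => (fderiv ℝ F z).det) y := by
  have h1 : ContDiffOn ℝ ∞ (fderiv ℝ F) V := D.hF.fderiv_of_isOpen D.hV (by simp)
  exact (contDiff_clm_det.contDiffAt).comp y (h1.contDiffAt (D.hV.mem_nhds hy))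

lemma contDiffAt_abs_det {y : E n} (hy : y ∈ V) :
    ContDiffAt ℝ ∞ (fun z => |(fderiv ℝ F z).det|) y :=
  (D.contDiffAt_det hy).abs (D.det_ne_zero hy)

lemma contDiffAt_eta_F {y : E n} (hy : y ∈ V) : ContDiffAt ℝ ∞ (fun z => η (F z)) y :=
  D.hη.contDiffAt.comp y (D.contDiffAt_F hy)

theorem contDiff_pushDens : ContDiff ℝ ∞ (pushDens η F V) := by
  rw [contDiff_iff_contDiffAt]
  intro y
  by_cases hy : y ∈ V
  · have h : ContDiffAt ℝ ∞ (fun z => η (F z) ^ 2 * |(fderiv ℝ F z).det|) y :=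
      ((D.contDiffAt_eta_F hy).pow 2).mul (D.contDiffAt_abs_det hy)
    refine h.congr_of_eventuallyEq ?_
    filter_upwards [D.hV.mem_nhds hy] with z hz using pushDens_of_mem hz
  · have hy' : y ∈ (f '' tsupport η)ᶜ := fun h => hy (D.image_subset h)
    have h : ContDiffAt ℝ ∞ (fun _ : E n => (0 : ℝ)) y := contDiffAt_const
    refine h.congr_of_eventuallyEq ?_
    filter_upwards [D.isCompact_image.isClosed.isOpen_compl.mem_nhds hy'] with z hz
      using D.pushDens_eq_zero hz

theorem contDiff_sqrt_pushDens : ContDiff ℝ ∞ (fun y => √(pushDens η F V y)) := by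
  rw [contDiff_iff_contDiffAt]
  intro y
  by_cases hy : y ∈ V
  · have h : ContDiffAt ℝ ∞ (fun z => η (F z) * √|(fderiv ℝ F z).det|) y :=
      (D.contDiffAt_eta_F hy).mul
        ((D.contDiffAt_abs_det hy).sqrt (abs_pos.mpr (D.det_ne_zero hy)).ne')
    refine h.congr_of_eventuallyEq ?_
    filter_upwards [D.hV.mem_nhds hy] with z hz
    rw [pushDens_of_mem hz, Real.sqrt_mul (by positivity), Real.sqrt_sq (D.η0 _)]
  · have hy' : y ∈ (f '' tsupport η)ᶜ := fun h => hy (D.image_subset h)
    have h : ContDiffAt ℝ ∞ (fun _ : E n => (0 : ℝ)) y := contDiffAt_const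
    refine h.congr_of_eventuallyEq ?_
    filter_upwards [D.isCompact_image.isClosed.isOpen_compl.mem_nhds hy'] with z hz
    rw [D.pushDens_eq_zero hz, Real.sqrt_zero]

end DiffeoData

end Crest.Agent.OT3
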