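import Mathlib
import Crest.Agent.Lib_OT3.Common
import Crest.Agent.Lib_OT3.Basic

/-!
# S0175, module Ineq: the pointwise inequality (tangent lines + completing the square)

Part 1 (namespace `Gen`): general diagonal weights `κ : Fin d → ℝ` with `B < k ≤ κ i`.
Part 2: specialisation to the definitions of `Common.lean` (interface of helper6's blueprint).
-/

set_option autoImplicit false

namespace Crest.Agent.OT3.Gen

open scoped BigOperators

/-- Bernoulli for negative exponents. -/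
theorem one_sub_mul_le_rpow_neg {σ u : ℝ} (hσ : 0 < σ) (hu : 0 < u) :
    1 - σ * (u - 1) ≤ u ^ (-σ) := by
  have h1 : u ^ (-σ) = Real.exp (-σ * Real.log u) := by
    rw [Real.rpow_def_of_pos hu]; ring_nf
  have h2 : -σ * Real.log u + 1 ≤ Real.exp (-σ * Real.log u) := Real.add_one_le_exp _
  have h3 : Real.log u ≤ u - 1 := Real.log_le_sub_one_of_pos hu
  rw [h1]; nlinarith

theorem one_sub_mul_lt_rpow_neg {σ u : ℝ} (hσ : 0 < σ) (hu : 0 < u) (hne : u ≠ 1) :
    1 - σ * (u - 1) < u ^ (-σ) := by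
  have h1 : u ^ (-σ) = Real.exp (-σ * Real.log u) := by
    rw [Real.rpow_def_of_pos hu]; ring_nf
  have hlog : Real.log u ≠ 0 := by
    intro h
    rcases Real.log_eq_zero.mp h with h | h | h
    · linarith
    · exact hne h
    · linarith
  have h2 : -σ * Real.log u + 1 < Real.exp (-σ * Real.log u) :=
    Real.add_one_lt_exp (mul_ne_zero (by linarith) hlog)
  have h3 : Real.log u ≤ u - 1 := Real.log_le_sub_one_of_pos hu
  rw [h1]; nlinarith

theorem rpow_neg_split {σ a t : ℝ} (ha : 0 < a) (ht : 0 < t) :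
    t ^ (-σ) = a ^ (-σ) * (t / a) ^ (-σ) := by
  rw [Real.div_rpow ht.le ha.le]
  have : a ^ (-σ) ≠ 0 := (Real.rpow_pos_of_pos ha _).ne'
  field_simp

theorem rpow_neg_sub_one {σ a : ℝ} (ha : 0 < a) : a ^ (-σ - 1) = a ^ (-σ) / a := by
  rw [Real.rpow_sub ha, Real.rpow_one]

/-- tangent line inequality for `t ↦ t^(-σ)` at `a`. -/
theorem rpow_neg_tangent {σ a t : ℝ} (hσ : 0 < σ) (ha : 0 < a) (ht : 0 < t) :
    a ^ (-σ) - σ * a ^ (-σ - 1) * (t - a) ≤ t ^ (-σ) := by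
  have h := one_sub_mul_le_rpow_neg hσ (div_pos ht ha)
  have hp : 0 < a ^ (-σ) := Real.rpow_pos_of_pos ha _
  rw [rpow_neg_split (σ := σ) ha ht, rpow_neg_sub_one ha]
  have : a ^ (-σ) - σ * (a ^ (-σ) / a) * (t - a) = a ^ (-σ) * (1 - σ * (t / a - 1)) := by
    field_simp
  rw [this]
  exact mul_le_mul_of_nonneg_left h hp.le

theorem rpow_neg_tangent_lt {σ a t : ℝ} (hσ : 0 < σ) (ha : 0 < a) (ht : 0 < t) (hne : t ≠ a) :
    a ^ (-σ) - σ * a ^ (-σ - 1) * (t - a) < t ^ (-σ) := by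
  have hne' : t / a ≠ 1 := by
    intro h; apply hne; field_simp at h; exact h
  have h := one_sub_mul_lt_rpow_neg hσ (div_pos ht ha) hne'
  have hp : 0 < a ^ (-σ) := Real.rpow_pos_of_pos ha _
  rw [rpow_neg_split (σ := σ) ha ht, rpow_neg_sub_one ha]
  have : a ^ (-σ) - σ * (a ^ (-σ) / a) * (t - a) = a ^ (-σ) * (1 - σ * (t / a - 1)) := by
    field_simp
  rw [this]
  exact mul_lt_mul_of_pos_left h hp

/-- one coordinate: completing the square. -/
theorem coord_identity {κ B β k x y z : ℝ} (hk : k = B + 2 * β) (hκ : κ - B ≠ 0) :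
    κ * (y ^ 2 + z ^ 2) - B * ((x - y) ^ 2 + (x - z) ^ 2) - β * (y - z) ^ 2
      = 2 * (κ - B) * ((y + z) / 2 + B / (κ - B) * x) ^ 2 + (κ - k) * (y - z) ^ 2 / 2
        - 2 * B * (κ / (κ - B) * x ^ 2) := by
  subst hk
  field_simp
  ring

/-- the ambient space -/
abbrev EE (d : ℕ) := EuclideanSpace ℝ (Fin d)

/-- the quadratic form `⟨y, K y⟩` with diagonal weights `κ`. -/
def qK {d : ℕ} (κ : Fin d → ℝ) (y : EE d) : ℝ := ∑ i, κ i * y i ^ 2

/-- the lower bound `Φ(B, x)`. -/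
noncomputable def Phi {d : ℕ} (σ B a1 a2 : ℝ) (κ : Fin d → ℝ) (x : EE d) : ℝ :=
  (1 + σ) * (2 * a1 ^ (-σ) + a2 ^ (-σ)) - 2 * B * ∑ i, κ i / (κ i - B) * x i ^ 2

theorem normsq_sub {d : ℕ} (x y : EE d) : ‖x - y‖ ^ 2 = ∑ i, (x i - y i) ^ 2 := by
  rw [EuclideanSpace.norm_sq_eq]
  simp

/-- the quadratic part as a sum of squares. -/
theorem quad_identity {d : ℕ} {B β k : ℝ} (κ : Fin d → ℝ) (hk : k = B + 2 * β)
    (hκ : ∀ i, κ i - B ≠ 0) (x y z : EE d) :
    qK κ y + qK κ z - B * (‖x - y‖ ^ 2 + ‖x - z‖ ^ 2) - β * ‖y - z‖ ^ 2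
      = (∑ i, (2 * (κ i - B) * ((y i + z i) / 2 + B / (κ i - B) * x i) ^ 2
          + (κ i - k) * (y i - z i) ^ 2 / 2))
        - 2 * B * ∑ i, κ i / (κ i - B) * x i ^ 2 := by
  simp only [qK, normsq_sub, Finset.mul_sum, ← Finset.sum_add_distrib, ← Finset.sum_sub_distrib]
  refine Finset.sum_congr rfl fun i _ => ?_
  have := coord_identity (x := x i) (y := y i) (z := z i) hk (hκ i)
  linarith

/-- the tangent gap -/
noncomputable def tgap (σ a t : ℝ) : ℝ := t ^ (-σ) - (a ^ (-σ) - σ * a ^ (-σ - 1) * (t - a))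

theorem tgap_nonneg {σ a t : ℝ} (hσ : 0 < σ) (ha : 0 < a) (ht : 0 < t) : 0 ≤ tgap σ a t := by
  have := rpow_neg_tangent hσ ha ht
  unfold tgap; linarith

theorem tgap_eq_zero_iff {σ a t : ℝ} (hσ : 0 < σ) (ha : 0 < a) (ht : 0 < t) :
    tgap σ a t = 0 ↔ t = a := by
  constructor
  · intro h
    by_contra hne
    have := rpow_neg_tangent_lt hσ ha ht hne
    unfold tgap at h; linarith
  · rintro rfl; simp [tgap]

/-- the three-body sum in terms of squared distances -/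
noncomputable def S3 {d : ℕ} (σ : ℝ) (x y z : EE d) : ℝ :=
  (‖x - y‖ ^ 2) ^ (-σ) + (‖x - z‖ ^ 2) ^ (-σ) + (‖y - z‖ ^ 2) ^ (-σ)

/-- the sum of squares left after completing the square -/
noncomputable def sqsum {d : ℕ} (B k : ℝ) (κ : Fin d → ℝ) (x y z : EE d) : ℝ :=
  ∑ i, (2 * (κ i - B) * ((y i + z i) / 2 + B / (κ i - B) * x i) ^ 2
          + (κ i - k) * (y i - z i) ^ 2 / 2)

/-- **gap identity**. -/
theorem gap_identity {d : ℕ} {σ B k a1 a2 : ℝ} (ha1 : 0 < a1) (ha2 : 0 < a2)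
    (h1 : σ * a1 ^ (-σ - 1) = B) (h2 : σ * a2 ^ (-σ - 1) = (k - B) / 2)
    (κ : Fin d → ℝ) (hκ : ∀ i, κ i - B ≠ 0) (x y z : EE d) :
    S3 σ x y z + qK κ y + qK κ z - Phi σ B a1 a2 κ x
      = tgap σ a1 (‖x - y‖ ^ 2) + tgap σ a1 (‖x - z‖ ^ 2) + tgap σ a2 (‖y - z‖ ^ 2)
        + sqsum B k κ x y z := by
  have hq := quad_identity (B := B) (β := (k - B) / 2) (k := k) κ (by ring) hκ x y z
  have e1 : B * a1 = σ * a1 ^ (-σ) := by
    rw [← h1, rpow_neg_sub_one ha1]; field_simp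
  have e2 : (k - B) / 2 * a2 = σ * a2 ^ (-σ) := by
    rw [← h2, rpow_neg_sub_one ha2]; field_simp
  unfold S3 Phi tgap sqsum
  rw [h1, h2]
  linarith

theorem sqsum_nonneg {d : ℕ} {B k : ℝ} (hBk : B < k) (κ : Fin d → ℝ) (hκ : ∀ i, k ≤ κ i)
    (x y z : EE d) : 0 ≤ sqsum B k κ x y z := by
  unfold sqsum
  refine Finset.sum_nonneg fun i _ => ?_
  have h1 : 0 ≤ κ i - B := by linarith [hκ i]
  have h2 : 0 ≤ κ i - k := by linarith [hκ i]
  positivity

theorem sqsum_eq_zero_iff {d : ℕ} {B k : ℝ} (hBk : B < k) (κ : Fin d → ℝ) (hκ : ∀ i, k ≤ κ i)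
    (x y z : EE d) : sqsum B k κ x y z = 0 ↔
      ∀ i, (y i + z i) / 2 = -(B / (κ i - B) * x i) ∧ (κ i - k) * (y i - z i) ^ 2 = 0 := by
  unfold sqsum
  rw [Finset.sum_eq_zero_iff_of_nonneg]
  · refine forall_congr' fun i => ?_
    have h1 : 0 < κ i - B := by linarith [hκ i]
    have h2 : 0 ≤ κ i - k := by linarith [hκ i]
    simp only [Finset.mem_univ, true_imp_iff]
    constructor
    · intro h
      have ha : 0 ≤ 2 * (κ i - B) * ((y i + z i) / 2 + B / (κ i - B) * x i) ^ 2 := by positivity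
      have hb : 0 ≤ (κ i - k) * (y i - z i) ^ 2 / 2 := by positivity
      have ha0 : 2 * (κ i - B) * ((y i + z i) / 2 + B / (κ i - B) * x i) ^ 2 = 0 := by linarith
      have hb0 : (κ i - k) * (y i - z i) ^ 2 / 2 = 0 := by linarith
      refine ⟨?_, by linarith⟩
      have : ((y i + z i) / 2 + B / (κ i - B) * x i) ^ 2 = 0 := by
        rcases mul_eq_zero.mp ha0 with h | h
        · exfalso; linarith
        · exact h
      have := pow_eq_zero_iff (two_ne_zero) |>.mp this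
      linarith
    · rintro ⟨ha, hb⟩
      rw [ha, hb]; ring
  · intro i _
    have h1 : 0 ≤ κ i - B := by linarith [hκ i]
    have h2 : 0 ≤ κ i - k := by linarith [hκ i]
    positivity

/-- **main inequality**. -/
theorem main_ineq {d : ℕ} {σ B k a1 a2 : ℝ} (hσ : 0 < σ) (hBk : B < k)
    (ha1 : 0 < a1) (ha2 : 0 < a2)
    (h1 : σ * a1 ^ (-σ - 1) = B) (h2 : σ * a2 ^ (-σ - 1) = (k - B) / 2)
    (κ : Fin d → ℝ) (hκ : ∀ i, k ≤ κ i) (x y z : EE d) (hxy : x ≠ y) (hxz : x ≠ z) (hyz : y ≠ z) :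
    Phi σ B a1 a2 κ x ≤ S3 σ x y z + qK κ y + qK κ z := by
  have hg := gap_identity ha1 ha2 h1 h2 κ (fun i => by linarith [hκ i]) x y z
  have p1 : 0 < ‖x - y‖ ^ 2 := by have := norm_pos_iff.mpr (sub_ne_zero.mpr hxy); positivity
  have p2 : 0 < ‖x - z‖ ^ 2 := by have := norm_pos_iff.mpr (sub_ne_zero.mpr hxz); positivity
  have p3 : 0 < ‖y - z‖ ^ 2 := by have := norm_pos_iff.mpr (sub_ne_zero.mpr hyz); positivity
  have := tgap_nonneg hσ ha1 p1
  have := tgap_nonneg hσ ha1 p2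
  have := tgap_nonneg hσ ha2 p3
  have := sqsum_nonneg hBk κ hκ x y z
  linarith

/-- **equality case**. -/
theorem main_eq_iff {d : ℕ} {σ B k a1 a2 : ℝ} (hσ : 0 < σ) (hBk : B < k)
    (ha1 : 0 < a1) (ha2 : 0 < a2)
    (h1 : σ * a1 ^ (-σ - 1) = B) (h2 : σ * a2 ^ (-σ - 1) = (k - B) / 2)
    (κ : Fin d → ℝ) (hκ : ∀ i, k ≤ κ i) (x y z : EE d) (hxy : x ≠ y) (hxz : x ≠ z) (hyz : y ≠ z) :
    S3 σ x y z + qK κ y + qK κ z ≤ Phi σ B a1 a2 κ x ↔
      ‖x - y‖ ^ 2 = a1 ∧ ‖x - z‖ ^ 2 = a1 ∧ ‖y - z‖ ^ 2 = a2 ∧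
      ∀ i, (y i + z i) / 2 = -(B / (κ i - B) * x i) ∧ (κ i - k) * (y i - z i) ^ 2 = 0 := by
  have hg := gap_identity ha1 ha2 h1 h2 κ (fun i => by linarith [hκ i]) x y z
  have p1 : 0 < ‖x - y‖ ^ 2 := by have := norm_pos_iff.mpr (sub_ne_zero.mpr hxy); positivity
  have p2 : 0 < ‖x - z‖ ^ 2 := by have := norm_pos_iff.mpr (sub_ne_zero.mpr hxz); positivity
  have p3 : 0 < ‖y - z‖ ^ 2 := by have := norm_pos_iff.mpr (sub_ne_zero.mpr hyz); positivity
  have t1 := tgap_nonneg hσ ha1 p1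
  have t2 := tgap_nonneg hσ ha1 p2
  have t3 := tgap_nonneg hσ ha2 p3
  have t4 := sqsum_nonneg hBk κ hκ x y z
  rw [← tgap_eq_zero_iff hσ ha1 p1, ← tgap_eq_zero_iff hσ ha1 p2, ← tgap_eq_zero_iff hσ ha2 p3,
    ← sqsum_eq_zero_iff hBk κ hκ x y z]
  constructor
  · intro h
    refine ⟨by linarith, by linarith, by linarith, by linarith⟩
  · rintro ⟨e1, e2, e3, e4⟩
    linarith

end Crest.Agent.OT3.Gen

namespace Crest.Agent.OT3

open MeasureTheory Set
open scoped ENNReal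
open Crest.AnalysisR.OT

variable {n : ℕ} {s : ℝ}

/-- tangent line of `a ↦ a^(-s/2)` at `a0`. -/
theorem tangent_line (hs : 0 < s) {a a0 : ℝ} (ha : 0 < a) (ha0 : 0 < a0) :
    sg s * a0 ^ (-(s / 2)) - s / 2 * a0 ^ (-(sg s)) * a ≤ a ^ (-(s / 2)) := by
  have h := Gen.rpow_neg_tangent (σ := s / 2) (by positivity) ha0 ha
  have e : -(s / 2) - 1 = -(sg s) := by unfold sg; ring
  rw [e] at h
  have e2 : a0 ^ (-(sg s)) * a0 = a0 ^ (-(s / 2)) := by
    rw [← e, Gen.rpow_neg_sub_one ha0]; field_simp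
  have : sg s * a0 ^ (-(s / 2)) - s / 2 * a0 ^ (-(sg s)) * a
      = a0 ^ (-(s / 2)) - s / 2 * a0 ^ (-(sg s)) * (a - a0) := by
    rw [← e2]; unfold sg; ring
  rw [this]; exact h

theorem tangent_line_eq (hs : 0 < s) {a a0 : ℝ} (ha : 0 < a) (ha0 : 0 < a0)
    (h : a ^ (-(s / 2)) ≤ sg s * a0 ^ (-(s / 2)) - s / 2 * a0 ^ (-(sg s)) * a) : a = a0 := by
  by_contra hne
  have h' := Gen.rpow_neg_tangent_lt (σ := s / 2) (by positivity) ha0 ha hne
  have e : -(s / 2) - 1 = -(sg s) := by unfold sg; ring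
  rw [e] at h'
  have e2 : a0 ^ (-(sg s)) * a0 = a0 ^ (-(s / 2)) := by
    rw [← e, Gen.rpow_neg_sub_one ha0]; field_simp
  have : sg s * a0 ^ (-(s / 2)) - s / 2 * a0 ^ (-(sg s)) * a
      = a0 ^ (-(s / 2)) - s / 2 * a0 ^ (-(sg s)) * (a - a0) := by
    rw [← e2]; unfold sg; ring
  rw [this] at h
  linarith

/-- the diagonal weights of `K`. -/
noncomputable def kw (n : ℕ) (s : ℝ) : Fin (n + 2) → ℝ :=
  Fin.cons (kap s) (Fin.cons (kap s) (fun _ => kap' s))

@[simp] lemma kw_zero : kw n s 0 = kap s := rfl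
@[simp] lemma kw_one : kw n s 1 = kap s := rfl
@[simp] lemma kw_succ (i : Fin n) : kw n s i.succ.succ = kap' s := rfl

lemma kap_le_kw (hs : 0 < s) (j : Fin (n + 2)) : kap s ≤ kw n s j := by
  refine Fin.cases ?_ (fun j => Fin.cases ?_ (fun i => ?_) j) j
  · exact le_refl _
  · exact le_refl _
  · exact (kap_lt_kap' hs).le

lemma gen_qK (y : E n) : Gen.qK (kw n s) y = NK s y := by
  unfold Gen.qK NK tP tau
  rw [sum_coord]
  simp only [kw_zero, kw_one, kw_succ, Finset.mul_sum]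
  ring

lemma gen_Phi (B : ℝ) (x : E n) :
    Gen.Phi (s / 2) B (aF s B) (4 * bF s B) (kw n s) x = Phi s B (tP x) (tau x) := by
  unfold Gen.Phi Phi C0 tP tau
  rw [sum_coord]
  simp only [kw_zero, kw_one, kw_succ]
  have : ∑ i : Fin n, kap' s / (kap' s - B) * x i.succ.succ ^ 2
      = kap' s * (∑ i : Fin n, x i.succ.succ ^ 2) / (kap' s - B) := by
    rw [Finset.mul_sum, Finset.sum_div]
    refine Finset.sum_congr rfl fun i _ => by ring
  rw [this]
  unfold sg
  ring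

lemma normsq_rpow (v : E n) : (‖v‖ ^ 2) ^ (-(s / 2)) = ‖v‖ ^ (-s) := by
  rw [← Real.rpow_natCast, ← Real.rpow_mul (norm_nonneg v)]
  congr 1
  push_cast; ring

lemma gen_S3 (x y z : E n) : Gen.S3 (s / 2) x y z = costR s x y z := by
  unfold Gen.S3 costR
  rw [normsq_rpow, normsq_rpow, normsq_rpow]

lemma slope_a' (hs : 0 < s) {B : ℝ} (hB : 0 < B) :
    s / 2 * aF s B ^ (-(s / 2) - 1) = B := by
  have e : -(s / 2) - 1 = -(sg s) := by unfold sg; ring
  rw [e]; exact slope_a hs hB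

lemma slope_b' (hs : 0 < s) {B : ℝ} (hB : B < kap s) :
    s / 2 * (4 * bF s B) ^ (-(s / 2) - 1) = (kap s - B) / 2 := by
  have e : -(s / 2) - 1 = -(sg s) := by unfold sg; ring
  rw [e]; exact slope_b hs hB

/-- **main inequality** (blueprint §1). -/
theorem main_ineq (hs : 0 < s) {B : ℝ} (hB : 0 < B) (hBk : B < kap s) (x y z : E n)
    (hxy : x ≠ y) (hxz : x ≠ z) (hyz : y ≠ z) :
    Phi s B (tP x) (tau x) ≤ costR s x y z + NK s y + NK s z := by
  have h := Gen.main_ineq (σ := s / 2) (by positivity) hBk (aF_pos hs hB)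
    (by have := bF_pos hs hBk; positivity) (slope_a' hs hB) (slope_b' hs hBk)
    (kw n s) (kap_le_kw hs) x y z hxy hxz hyz
  rwa [gen_Phi, gen_S3, gen_qK, gen_qK] at h

/-- the list of equality conditions. -/
def EqCond (s B : ℝ) (x y z : E n) : Prop :=
  ‖x - y‖ ^ 2 = aF s B ∧ ‖x - z‖ ^ 2 = aF s B ∧ ‖y - z‖ ^ 2 = 4 * bF s B ∧
    (∀ i : Fin n, y i.succ.succ = z i.succ.succ) ∧
    (y 0 + z 0) / 2 = -(B / (kap s - B)) * x 0 ∧
    (y 1 + z 1) / 2 = -(B / (kap s - B)) * x 1 ∧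
    ∀ i : Fin n, (y i.succ.succ + z i.succ.succ) / 2 = -(B / (kap' s - B)) * x i.succ.succ

lemma gen_cond_iff (hs : 0 < s) (B : ℝ) (x y z : E n) :
    (∀ j : Fin (n + 2), (y j + z j) / 2 = -(B / (kw n s j - B) * x j) ∧
        (kw n s j - kap s) * (y j - z j) ^ 2 = 0) ↔
      ((∀ i : Fin n, y i.succ.succ = z i.succ.succ) ∧
      (y 0 + z 0) / 2 = -(B / (kap s - B)) * x 0 ∧
      (y 1 + z 1) / 2 = -(B / (kap s - B)) * x 1 ∧
      ∀ i : Fin n, (y i.succ.succ + z i.succ.succ) / 2 = -(B / (kap' s - B)) * x i.succ.succ) := by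
  have hk : kap' s - kap s ≠ 0 := by have := kap_lt_kap' hs; linarith
  constructor
  · intro h
    refine ⟨fun i => ?_, ?_, ?_, fun i => ?_⟩
    · have := (h i.succ.succ).2
      simp only [kw_succ] at this
      rcases mul_eq_zero.mp this with h' | h'
      · exact absurd h' hk
      · have := pow_eq_zero_iff (two_ne_zero) |>.mp h'
        linarith
    · have := (h 0).1; simp only [kw_zero] at this; linarith
    · have := (h 1).1; simp only [kw_one] at this; linarith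
    · have := (h i.succ.succ).1; simp only [kw_succ] at this; linarith
  · rintro ⟨h1, h2, h3, h4⟩ j
    refine Fin.cases ?_ (fun j => Fin.cases ?_ (fun i => ?_) j) j
    · refine ⟨by simp only [kw_zero]; linarith, by simp⟩
    · refine ⟨?_, ?_⟩
      · have : kw n s (Fin.succ 0) = kap s := rfl
        rw [this]; have := h3; simp only [Fin.succ_zero_eq_one]; linarith
      · have : kw n s (Fin.succ 0) = kap s := rfl
        rw [this]; simp
    · refine ⟨by simp only [kw_succ]; linarith [h4 i], by rw [h1 i]; simp⟩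

/-- equality (or `≤`) forces the configuration. -/
theorem main_eq (hs : 0 < s) {B : ℝ} (hB : 0 < B) (hBk : B < kap s) (x y z : E n)
    (hxy : x ≠ y) (hxz : x ≠ z) (hyz : y ≠ z)
    (h : costR s x y z + NK s y + NK s z ≤ Phi s B (tP x) (tau x)) : EqCond s B x y z := by
  have h' := (Gen.main_eq_iff (σ := s / 2) (by positivity) hBk (aF_pos hs hB)
    (by have := bF_pos hs hBk; positivity) (slope_a' hs hB) (slope_b' hs hBk)
    (kw n s) (kap_le_kw hs) x y z hxy hxz hyz).mp (by rwa [gen_Phi, gen_S3, gen_qK, gen_qK])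
  obtain ⟨e1, e2, e3, e4⟩ := h'
  exact ⟨e1, e2, e3, (gen_cond_iff hs B x y z).mp e4⟩

/-- converse: the configuration gives equality. -/
theorem main_eq_of (hs : 0 < s) {B : ℝ} (hB : 0 < B) (hBk : B < kap s) (x y z : E n)
    (h : EqCond s B x y z) :
    costR s x y z + NK s y + NK s z = Phi s B (tP x) (tau x) := by
  obtain ⟨e1, e2, e3, e4⟩ := h
  have pa := aF_pos hs hB
  have pb := bF_pos hs hBk
  have hxy : x ≠ y := by
    rintro rfl; simp at e1; linarith
  have hxz : x ≠ z := by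
    rintro rfl; simp at e2; linarith
  have hyz : y ≠ z := by
    rintro rfl; simp at e3; linarith
  have h' := (Gen.main_eq_iff (σ := s / 2) (by positivity) hBk pa
    (by positivity) (slope_a' hs hB) (slope_b' hs hBk)
    (kw n s) (kap_le_kw hs) x y z hxy hxz hyz).mpr ⟨e1, e2, e3, (gen_cond_iff hs B x y z).mpr e4⟩
  rw [gen_Phi, gen_S3, gen_qK, gen_qK] at h'
  exact le_antisymm h' (main_ineq hs hB hBk x y z hxy hxz hyz)

/-! ### the `ℝ≥0∞`-valued cost -/

lemma pairCost_of_ne (s : ℝ) {x y : E n} (h : x ≠ y) :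
    pairCost s x y = ENNReal.ofReal (‖x - y‖ ^ (-s)) := by
  unfold pairCost
  rw [ENNReal.ofReal_rpow_of_pos (norm_pos_iff.mpr (sub_ne_zero.mpr h))]

lemma pairCost_self (hs : 0 < s) (x : E n) : pairCost s x x = ⊤ := by
  unfold pairCost
  simp [ENNReal.zero_rpow_of_neg (neg_lt_zero.mpr hs)]

lemma pairCost_comm (s : ℝ) (x y : E n) : pairCost s x y = pairCost s y x := by
  unfold pairCost; rw [norm_sub_rev]

theorem tripleCost_eq_ofReal (s : ℝ) {x y z : E n} (hxy : x ≠ y) (hxz : x ≠ z) (hyz : y ≠ z) :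
    tripleCost s (x, y, z) = ENNReal.ofReal (costR s x y z) := by
  unfold tripleCost costR
  simp only
  rw [pairCost_of_ne s hxy, pairCost_of_ne s hxz, pairCost_of_ne s hyz,
    ENNReal.ofReal_add (by positivity) (by positivity), ENNReal.ofReal_add (by positivity) (by positivity)]

theorem tripleCost_eq_top (hs : 0 < s) {x y z : E n} (h : x = y ∨ x = z ∨ y = z) :
    tripleCost s (x, y, z) = ⊤ := by
  unfold tripleCost
  simp only
  rcases h with rfl | rfl | rfl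
  · rw [pairCost_self hs]; simp
  · rw [pairCost_self hs]; simp
  · rw [pairCost_self hs]; simp

theorem measurable_tripleCost (s : ℝ) :
    Measurable (tripleCost s : E n × E n × E n → ℝ≥0∞) := by
  unfold tripleCost pairCost
  fun_prop

theorem tripleCost_cyc (s : ℝ) (x y z : E n) : tripleCost s (x, y, z) = tripleCost s (y, z, x) := by
  unfold tripleCost
  simp only
  rw [pairCost_comm s y x, pairCost_comm s z x]
  ring

theorem tripleCost_swap (s : ℝ) (x y z : E n) : tripleCost s (x, y, z) = tripleCost s (x, z, y) := by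
  unfold tripleCost
  simp only
  rw [pairCost_comm s z y]
  ring

end Crest.Agent.OT3
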