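import Crest.Agent.Lib_OT3.Basic

/-!
# S0175: regularity of the maps (`fmap`, `Fmap`, ...), of the domains and of the bump `eta`

The facts on `Bx`, `By` proved in `OneDim.lean` enter as explicit hypotheses.
-/

set_option autoImplicit false
open MeasureTheory Set
open scoped ENNReal Real ContDiff

namespace Crest.Agent.OT3

variable {n : ℕ}

/-! ### coordinates, `tP`, `tau`, `act` -/

lemma contDiff_coord (i : Fin (n + 2)) : ContDiff ℝ ∞ (fun x : E n => x i) :=
  contDiff_euclidean.1 contDiff_id i

lemma contDiff_tP : ContDiff ℝ ∞ (tP : E n → ℝ) := by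
  unfold tP
  exact ((contDiff_coord 0).pow 2).add ((contDiff_coord 1).pow 2)

lemma contDiff_tau : ContDiff ℝ ∞ (tau : E n → ℝ) := by
  unfold tau
  exact ContDiff.sum fun i _ => (contDiff_coord _).pow 2

lemma continuous_tP : Continuous (tP : E n → ℝ) := contDiff_tP.continuous
lemma continuous_tau : Continuous (tau : E n → ℝ) := contDiff_tau.continuous
lemma measurable_tP : Measurable (tP : E n → ℝ) := continuous_tP.measurable
lemma measurable_tau : Measurable (tau : E n → ℝ) := continuous_tau.measurable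
lemma measurable_coord (i : Fin (n + 2)) : Measurable (fun x : E n => x i) :=
  (contDiff_coord i).continuous.measurable

lemma contDiff_qK (s : ℝ) : ContDiff ℝ ∞ (qK s : E n → ℝ) := by
  unfold qK
  exact (contDiff_const.mul contDiff_tP).add (contDiff_const.mul contDiff_tau)

lemma continuous_qK (s : ℝ) : Continuous (qK s : E n → ℝ) := (contDiff_qK s).continuous

lemma contDiffOn_act {S : Set (E n)} {u v c : E n → ℝ} (hu : ContDiffOn ℝ ∞ u S)
    (hv : ContDiffOn ℝ ∞ v S) (hc : ContDiffOn ℝ ∞ c S) :
    ContDiffOn ℝ ∞ (fun x => act (u x) (v x) (c x) x) S := by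
  rw [contDiffOn_euclidean]
  intro i
  refine Fin.cases ?_ (fun j => Fin.cases ?_ (fun k => ?_) j) i
  · exact (hu.mul (contDiff_coord 0).contDiffOn).sub (hv.mul (contDiff_coord 1).contDiffOn)
  · exact (hv.mul (contDiff_coord 0).contDiffOn).add (hu.mul (contDiff_coord 1).contDiffOn)
  · exact hc.mul (contDiff_coord k.succ.succ).contDiffOn

lemma measurable_act {u v c : E n → ℝ} (hu : Measurable u) (hv : Measurable v)
    (hc : Measurable c) : Measurable (fun x => act (u x) (v x) (c x) x) := by
  unfold act mk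
  apply (WithLp.measurable_toLp 2 _).comp
  rw [measurable_pi_iff]
  intro i
  refine Fin.cases ?_ (fun j => Fin.cases ?_ (fun k => ?_) j) i
  · exact (hu.mul (measurable_coord 0)).sub (hv.mul (measurable_coord 1))
  · exact (hv.mul (measurable_coord 0)).add (hu.mul (measurable_coord 1))
  · exact hc.mul (measurable_coord k.succ.succ)

/-! ### the parameter function `bF` -/

lemma contDiffAt_bF {s B : ℝ} (hs : 0 < s) (hB : B < kap s) : ContDiffAt ℝ ∞ (bF s) B := by
  unfold bF
  have h1 : kap s - B ≠ 0 := by linarith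
  have h2 : s / (kap s - B) ≠ 0 := div_ne_zero hs.ne' h1
  apply ContDiffAt.div_const
  have h3 : ContDiffAt ℝ ∞ (fun x : ℝ => s / (kap s - x)) B :=
    contDiffAt_const.div (contDiffAt_const.sub contDiffAt_id) h1
  exact h3.rpow_const_of_ne h2

lemma measurable_bF (s : ℝ) : Measurable (bF s) := by
  unfold bF
  fun_prop

variable (P : Par)

/-! ### the domains -/

lemma continuous_Efun_comp (s B : ℝ) : Continuous (fun x : E n => Efun s B (tP x) (tau x)) := by
  unfold Efun
  exact ((continuous_const.mul continuous_tP).add (continuous_const.mul continuous_tau)).sub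
    continuous_const

lemma isOpen_Udom : IsOpen (Udom P : Set (E n)) := by
  unfold Udom
  exact (isOpen_lt continuous_const continuous_tP).inter
    (isOpen_lt (continuous_Efun_comp _ _) continuous_const)

/-- the open set on which `By` is regular -/
def V0 : Set (E n) := {y | qK P.s y ∈ Ioo (Qf P.s P.Blo) (Qf P.s (B0 P.s))}

lemma isOpen_V0 : IsOpen (V0 P : Set (E n)) := isOpen_Ioo.preimage (continuous_qK _)

lemma Vdom_subset_V0 : (Vdom P : Set (E n)) ⊆ V0 P := fun _ hy => hy.1

lemma contDiffOn_bF_comp {S : Set (E n)} {b : E n → ℝ} (hb : ContDiffOn ℝ ∞ b S)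
    (hlt : ∀ y ∈ S, b y < kap P.s) : ContDiffOn ℝ ∞ (fun y => bF P.s (b y)) S := fun y hy =>
  (contDiffAt_bF P.hs (hlt y hy)).comp_contDiffWithinAt y (hb y hy)

lemma isOpen_Vdom (hsm : ContDiffOn ℝ ∞ (By P : E n → ℝ) (V0 P))
    (hspec : ∀ y ∈ (V0 P : Set (E n)), By P y ∈ Ioo P.Blo (B0 P.s)) :
    IsOpen (Vdom P : Set (E n)) := by
  have hlt : ∀ y ∈ (V0 P : Set (E n)), By P y < kap P.s := fun y hy =>
    (hspec y hy).2.trans (B0_lt_kap P.hs)
  have hc : ContinuousOn (fun y : E n => tP y - bF P.s (By P y)) (V0 P) :=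
    continuous_tP.continuousOn.sub (contDiffOn_bF_comp P hsm hlt).continuousOn
  have := hc.isOpen_inter_preimage (isOpen_V0 P) (isOpen_Ioi (a := (0 : ℝ)))
  convert this using 1
  ext y
  simp only [Vdom, V0, mem_ofPred_eq, mem_inter_iff, mem_preimage, mem_Ioi, sub_pos]

/-! ### smoothness of the maps -/

lemma contDiffOn_fmap (hsm : ContDiffOn ℝ ∞ (Bx P : E n → ℝ) (Udom P))
    (hspec : ∀ x ∈ (Udom P : Set (E n)), Bx P x ∈ Ioo P.Blo (B0 P.s)) :
    ContDiffOn ℝ ∞ (fmap P : E n → E n) (Udom P) := by
  have hk := B0_lt_kap P.hs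
  have hk' := kap_lt_kap' P.hs
  have hlt : ∀ x ∈ (Udom P : Set (E n)), Bx P x < kap P.s := fun x hx => (hspec x hx).2.trans hk
  unfold fmap
  apply contDiffOn_act
  · refine (hsm.div (contDiffOn_const.sub hsm) fun x hx => ?_).neg
    have := hlt x hx
    linarith
  · refine ContDiffOn.div ((contDiffOn_bF_comp P hsm hlt).sqrt fun x hx => ?_)
      (contDiff_tP.contDiffOn.sqrt fun x hx => ?_) fun x hx => ?_
    · exact (bF_pos P.hs (hlt x hx)).ne'
    · exact hx.1.ne'
    · exact (Real.sqrt_pos.2 hx.1).ne'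
  · refine (hsm.div (contDiffOn_const.sub hsm) fun x hx => ?_).neg
    have := hlt x hx
    linarith

lemma contDiffOn_Fmap (hsm : ContDiffOn ℝ ∞ (By P : E n → ℝ) (V0 P))
    (hspec : ∀ y ∈ (V0 P : Set (E n)), By P y ∈ Ioo P.Blo (B0 P.s)) :
    ContDiffOn ℝ ∞ (Fmap P : E n → E n) (Vdom P) := by
  have hk := B0_lt_kap P.hs
  have hsm' : ContDiffOn ℝ ∞ (By P : E n → ℝ) (Vdom P) := hsm.mono (Vdom_subset_V0 P)
  have hsp : ∀ y ∈ (Vdom P : Set (E n)), By P y ∈ Ioo P.Blo (B0 P.s) := fun y hy =>
    hspec y (Vdom_subset_V0 P hy)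
  have hlt : ∀ y ∈ (Vdom P : Set (E n)), By P y < kap P.s := fun y hy => (hsp y hy).2.trans hk
  have hne : ∀ y ∈ (Vdom P : Set (E n)), By P y ≠ 0 := fun y hy =>
    (P.hBlo.trans (hsp y hy).1).ne'
  have hb := contDiffOn_bF_comp P hsm' hlt
  have hbpos : ∀ y ∈ (Vdom P : Set (E n)), 0 < bF P.s (By P y) := fun y hy =>
    bF_pos P.hs (hlt y hy)
  have hT : ∀ y ∈ (Vdom P : Set (E n)), tP y ≠ 0 := fun y hy => ((hbpos y hy).trans hy.2).ne'
  have hTs : ContDiffOn ℝ ∞ (tP : E n → ℝ) (Vdom P) := contDiff_tP.contDiffOn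
  have hq : ContDiffOn ℝ ∞ (fun y : E n => -((kap P.s - By P y) / By P y)) (Vdom P) :=
    ((contDiffOn_const.sub hsm').div hsm' hne).neg
  unfold Fmap uF vF cF
  apply contDiffOn_act
  · exact (hq.mul (hTs.sub hb)).div hTs hT
  · refine (hq.mul ((hb.mul (hTs.sub hb)).sqrt fun y hy => ?_)).div hTs hT
    have h1 := hbpos y hy
    have h2 : 0 < tP y - bF P.s (By P y) := sub_pos.2 hy.2
    exact (mul_pos h1 h2).ne'
  · exact ((contDiffOn_const.sub hsm').div hsm' hne).neg

/-! ### measurability of the maps -/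

section meas
variable (hBx : Measurable (Bx P : E n → ℝ)) (hBy : Measurable (By P : E n → ℝ))
include hBx

lemma measurable_fmap : Measurable (fmap P : E n → E n) := by
  have h1 := measurable_tP (n := n)
  have h2 : Measurable fun x : E n => bF P.s (Bx P x) := (measurable_bF _).comp hBx
  unfold fmap
  apply measurable_act <;> fun_prop

lemma measurable_gmap : Measurable (gmap P : E n → E n) := by
  have h1 := measurable_tP (n := n)
  have h2 : Measurable fun x : E n => bF P.s (Bx P x) := (measurable_bF _).comp hBx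
  unfold gmap
  apply measurable_act <;> fun_prop

omit hBx
include hBy

lemma measurable_Fmap : Measurable (Fmap P : E n → E n) := by
  have h1 := measurable_tP (n := n)
  have h2 : Measurable fun x : E n => bF P.s (By P x) := (measurable_bF _).comp hBy
  unfold Fmap uF vF cF
  apply measurable_act <;> fun_prop

lemma measurable_Fbar : Measurable (Fbar P : E n → E n) := by
  have h1 := measurable_tP (n := n)
  have h2 : Measurable fun x : E n => bF P.s (By P x) := (measurable_bF _).comp hBy
  unfold Fbar uF vF cF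
  apply measurable_act <;> fun_prop

lemma measurable_Gmap : Measurable (Gmap P : E n → E n) := by
  have h1 := measurable_tP (n := n)
  have h2 : Measurable fun x : E n => bF P.s (By P x) := (measurable_bF _).comp hBy
  unfold Gmap uG vG
  apply measurable_act <;> fun_prop

lemma measurable_Gbar : Measurable (Gbar P : E n → E n) := by
  have h1 := measurable_tP (n := n)
  have h2 : Measurable fun x : E n => bF P.s (By P x) := (measurable_bF _).comp hBy
  unfold Gbar uG vG
  apply measurable_act <;> fun_prop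

end meas

/-! ### the bump function `eta` -/

lemma contDiff_eta : ContDiff ℝ ∞ (eta P : E n → ℝ) := by
  have hst : ContDiff ℝ ∞ Real.smoothTransition := Real.smoothTransition.contDiff
  unfold eta chi1 chi2
  exact ((hst.comp (contDiff_tP.sub contDiff_const)).mul
    (hst.comp (contDiff_const.sub contDiff_tP))).mul (hst.comp (contDiff_const.sub contDiff_tau))

lemma eta_nonneg (x : E n) : 0 ≤ eta P x := by
  unfold eta chi1 chi2
  exact mul_nonneg (mul_nonneg (Real.smoothTransition.nonneg _) (Real.smoothTransition.nonneg _))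
    (Real.smoothTransition.nonneg _)

lemma eta_pos_iff (x : E n) : 0 < eta P x ↔ x ∈ In P := by
  unfold eta chi1 chi2 In
  constructor
  · intro h
    refine ⟨?_, ?_, ?_⟩
    · by_contra hc
      rw [Real.smoothTransition.zero_of_nonpos (x := tP x - P.t1) (by linarith)] at h
      simp at h
    · by_contra hc
      rw [Real.smoothTransition.zero_of_nonpos (x := P.t2 - tP x) (by linarith)] at h
      simp at h
    · by_contra hc
      rw [Real.smoothTransition.zero_of_nonpos (x := P.tau2 - tau x) (by linarith)] at h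
      simp at h
  · rintro ⟨h1, h2, h3⟩
    exact mul_pos (mul_pos (Real.smoothTransition.pos_of_pos (by linarith))
      (Real.smoothTransition.pos_of_pos (by linarith)))
      (Real.smoothTransition.pos_of_pos (by linarith))

lemma eta_eq_zero {x : E n} (hx : x ∉ In P) : eta P x = 0 :=
  le_antisymm (not_lt.1 fun h => hx ((eta_pos_iff P x).1 h)) (eta_nonneg P x)

lemma support_eta : Function.support (eta P : E n → ℝ) = In P := by
  ext x
  rw [Function.mem_support, ← eta_pos_iff]
  exact ⟨fun h => lt_of_le_of_ne (eta_nonneg P x) (Ne.symm h), fun h => h.ne'⟩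

/-- the closed inner box -/
def InC : Set (E n) := {x | P.t1 ≤ tP x ∧ tP x ≤ P.t2 ∧ tau x ≤ P.tau2}

lemma isClosed_InC : IsClosed (InC P : Set (E n)) := by
  unfold InC
  exact (isClosed_le continuous_const continuous_tP).inter
    ((isClosed_le continuous_tP continuous_const).inter (isClosed_le continuous_tau continuous_const))

lemma In_subset_InC : (In P : Set (E n)) ⊆ InC P := fun _ hx => ⟨hx.1.le, hx.2.1.le, hx.2.2.le⟩

lemma isOpen_In : IsOpen (In P : Set (E n)) := by
  unfold In
  exact (isOpen_lt continuous_const continuous_tP).inter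
    ((isOpen_lt continuous_tP continuous_const).inter (isOpen_lt continuous_tau continuous_const))

lemma measurableSet_In : MeasurableSet (In P : Set (E n)) := (isOpen_In P).measurableSet

lemma tsupport_eta_subset_InC : tsupport (eta P : E n → ℝ) ⊆ InC P := by
  unfold tsupport
  rw [support_eta]
  exact closure_minimal (In_subset_InC P) (isClosed_InC P)

lemma InC_subset_Udom : (InC P : Set (E n)) ⊆ Udom P := by
  intro x hx
  refine ⟨P.ht1.trans_le hx.1, lt_of_le_of_lt ?_ P.h_lo⟩
  unfold Efun
  have h1 := mul_le_mul_of_nonneg_left hx.2.1 (sq_nonneg (kap P.s / (kap P.s - P.Blo)))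
  have h2 := mul_le_mul_of_nonneg_left hx.2.2 (sq_nonneg (kap' P.s / (kap' P.s - P.Blo)))
  linarith

lemma In_subset_Udom : (In P : Set (E n)) ⊆ Udom P := (In_subset_InC P).trans (InC_subset_Udom P)

lemma tsupport_eta_subset : tsupport (eta P : E n → ℝ) ⊆ Udom P :=
  (tsupport_eta_subset_InC P).trans (InC_subset_Udom P)

lemma InC_subset_closedBall :
    (InC P : Set (E n)) ⊆ Metric.closedBall 0 (√(P.t2 + P.tau2)) := by
  intro x hx
  rw [mem_closedBall_zero_iff]
  apply Real.le_sqrt_of_sq_le
  rw [norm_sq]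
  linarith [hx.2.1, hx.2.2]

lemma hasCompactSupport_eta : HasCompactSupport (eta P : E n → ℝ) :=
  (isCompact_closedBall (0 : E n) _).of_isClosed_subset (isClosed_tsupport _)
    ((tsupport_eta_subset_InC P).trans (InC_subset_closedBall P))

end Crest.Agent.OT3
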