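import Crest.Agent.Lib_OT3.Basic

/-!
# S0175: one-dimensional facts, part A (no calculus): monotonicity of `aF`, `bF`, `wF`, `Efun`,
values at `B0`, `C0_le`, existence of the constants.
-/

set_option autoImplicit false
open Set

namespace Crest.Agent.OT3

variable {s : ℝ}

theorem aF_strictAntiOn (hs : 0 < s) : StrictAntiOn (aF s) (Set.Ioi 0) := by
  intro B hB B' hB' h
  have hB : 0 < B := hB
  have hB' : 0 < B' := hB'
  have hσ := sg_pos hs
  unfold aF
  apply Real.rpow_lt_rpow (by positivity) _ (by positivity)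
  apply div_lt_div_of_pos_left hs (by positivity) (by linarith)

theorem bF_strictMonoOn (hs : 0 < s) : StrictMonoOn (bF s) (Set.Iio (kap s)) := by
  intro B hB B' hB' h
  have hB : B < kap s := hB
  have hB' : B' < kap s := hB'
  have hσ := sg_pos hs
  unfold bF
  have h1 : 0 < kap s - B := by linarith
  have h2 : 0 < kap s - B' := by linarith
  apply div_lt_div_of_pos_right _ (by norm_num)
  apply Real.rpow_lt_rpow (by positivity) _ (by positivity)
  apply div_lt_div_of_pos_left hs h2 (by linarith)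

theorem aF_B0 (hs : 0 < s) : aF s (B0 s) = 1 := by
  unfold aF B0
  rw [show s / (2 * (s / 2)) = 1 by field_simp, Real.one_rpow]

theorem bF_B0 (hs : 0 < s) : bF s (B0 s) = 1 := by
  unfold bF
  have hσ := sg_pos hs
  rw [kap_sub_B0, show s / (s * (4 : ℝ) ^ (-(sg s))) = ((4 : ℝ) ^ (-(sg s)))⁻¹ by field_simp,
    ← Real.rpow_neg (by norm_num), neg_neg, ← Real.rpow_mul (by norm_num),
    show sg s * (1 / sg s) = 1 by field_simp, Real.rpow_one]
  norm_num

theorem wF_B0 (hs : 0 < s) : wF s (B0 s) = 0 := by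
  unfold wF; rw [aF_B0 hs, bF_B0 hs]; ring

theorem wF_strictAntiOn (hs : 0 < s) : StrictAntiOn (wF s) (Set.Ioo 0 (kap s)) := by
  intro B hB B' hB' h
  have h1 := aF_strictAntiOn hs (show B ∈ Ioi 0 from hB.1) (show B' ∈ Ioi 0 from hB'.1) h
  have h2 := bF_strictMonoOn hs (show B ∈ Iio (kap s) from hB.2) (show B' ∈ Iio (kap s) from hB'.2) h
  unfold wF; linarith

theorem wF_pos (hs : 0 < s) {B : ℝ} (hB : 0 < B) (hB' : B < B0 s) : 0 < wF s B := by
  have := wF_strictAntiOn hs (⟨hB, hB'.trans (B0_lt_kap hs)⟩ : B ∈ Ioo 0 (kap s))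
    (⟨B0_pos hs, B0_lt_kap hs⟩ : B0 s ∈ Ioo 0 (kap s)) hB'
  rwa [wF_B0 hs] at this

theorem wF_nonneg (hs : 0 < s) {B : ℝ} (hB : 0 < B) (hB' : B ≤ B0 s) : 0 ≤ wF s B := by
  rcases hB'.lt_or_eq with h | h
  · exact (wF_pos hs hB h).le
  · rw [h, wF_B0 hs]

lemma ratio_sq_mono {k B B' : ℝ} (hB : 0 ≤ B) (h : B ≤ B') (hB' : B' < k) :
    (k / (k - B)) ^ 2 ≤ (k / (k - B')) ^ 2 := by
  have h1 : 0 < k - B' := by linarith
  have h2 : 0 < k - B := by linarith
  have hk : 0 < k := by linarith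
  apply pow_le_pow_left₀ (by positivity)
  apply div_le_div_of_nonneg_left hk.le h1 (by linarith)

theorem Efun_strictMonoOn (hs : 0 < s) {t τ : ℝ} (ht : 0 ≤ t) (hτ : 0 ≤ τ) :
    StrictMonoOn (fun B => Efun s B t τ) (Set.Ioo 0 (kap s)) := by
  intro B hB B' hB' h
  have h1 := wF_strictAntiOn hs hB hB' h
  have h2 := ratio_sq_mono hB.1.le h.le hB'.2
  have h3 := ratio_sq_mono hB.1.le h.le (hB'.2.trans (kap_lt_kap' hs))
  have h4 := mul_le_mul_of_nonneg_right h2 ht
  have h5 := mul_le_mul_of_nonneg_right h3 hτ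
  simp only [Efun]
  linarith

lemma four_rpow_neg_sg_lt (hs : 0 < s) : (4 : ℝ) ^ (-(sg s)) < 1 / 4 := by
  have h1 : (4 : ℝ) ^ (-(sg s)) < (4 : ℝ) ^ (-(1 : ℝ)) :=
    Real.rpow_lt_rpow_of_exponent_lt (by norm_num) (by have := one_lt_sg hs; linarith)
  rw [Real.rpow_neg_one] at h1
  linarith

lemma kap_lt_s (hs : 0 < s) : kap s < s := by
  have := four_rpow_neg_sg_lt hs
  unfold kap
  nlinarith

theorem one_le_aF (hs : 0 < s) {B : ℝ} (hB : 0 < B) (hB' : B ≤ B0 s) : 1 ≤ aF s B := by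
  unfold aF
  apply Real.one_le_rpow
  · rw [le_div_iff₀ (by positivity)]
    unfold B0 at hB'; linarith
  · have := sg_pos hs; positivity

theorem one_le_four_bF (hs : 0 < s) {B : ℝ} (hB : 0 < B) (hB' : B < kap s) : 1 ≤ 4 * bF s B := by
  unfold bF
  rw [show 4 * ((s / (kap s - B)) ^ (1 / sg s) / 4) = (s / (kap s - B)) ^ (1 / sg s) by ring]
  apply Real.one_le_rpow
  · rw [le_div_iff₀ (by linarith)]
    have := kap_lt_s hs; linarith
  · have := sg_pos hs; positivity

theorem C0_le (hs : 0 < s) {B : ℝ} (hB : 0 < B) (hB' : B ≤ B0 s) : C0 s B ≤ 3 * sg s := by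
  have hσ := sg_pos hs
  have h1 : aF s B ^ (-(s / 2)) ≤ 1 :=
    Real.rpow_le_one_of_one_le_of_nonpos (one_le_aF hs hB hB') (by linarith)
  have h2 : (4 * bF s B) ^ (-(s / 2)) ≤ 1 :=
    Real.rpow_le_one_of_one_le_of_nonpos (one_le_four_bF hs hB (hB'.trans_lt (B0_lt_kap hs)))
      (by linarith)
  unfold C0
  nlinarith

theorem exists_par (hs : 0 < s) : ∃ P : Par, P.s = s := by
  have hσ := sg_pos hs
  have hB0 := B0_pos hs
  have hk := B0_lt_kap hs
  have hk' := kap_lt_kap' hs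
  set Blo := B0 s / 2 with hBlo
  have hBlo0 : 0 < Blo := by positivity
  have hBlo1 : Blo < B0 s := by rw [hBlo]; linarith
  have hw := wF_pos hs hBlo0 hBlo1
  have hb := bF_pos hs (hBlo1.trans hk)
  set c1 := (kap s / (kap s - Blo)) ^ 2 with hc1
  set c2 := (kap' s / (kap' s - Blo)) ^ 2 with hc2
  have hc1p : 0 < c1 := by
    have : 0 < kap s - Blo := by linarith
    have := kap_pos hs
    positivity
  have hc2p : 0 < c2 := by
    have : 0 < kap' s - Blo := by linarith
    have : 0 < kap' s := by linarith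
    positivity
  set r := (6 * sg s) ^ (-(1 / s)) with hr
  have hrp : 0 < r := by positivity
  set u := min (min (wF s Blo / (c1 + c2)) (bF s Blo)) (r ^ 2 / 8) / 2 with hu
  have hm : 0 < min (min (wF s Blo / (c1 + c2)) (bF s Blo)) (r ^ 2 / 8) :=
    lt_min (lt_min (by positivity) hb) (by positivity)
  have hu0 : 0 < u := by positivity
  have hu1 : u < wF s Blo / (c1 + c2) := by
    have : min (min (wF s Blo / (c1 + c2)) (bF s Blo)) (r ^ 2 / 8) ≤ wF s Blo / (c1 + c2) :=
      (min_le_left _ _).trans (min_le_left _ _)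
    rw [hu]; linarith
  have hu2 : u < bF s Blo := by
    have : min (min (wF s Blo / (c1 + c2)) (bF s Blo)) (r ^ 2 / 8) ≤ bF s Blo :=
      (min_le_left _ _).trans (min_le_right _ _)
    rw [hu]; linarith
  have hu3 : u < r ^ 2 / 8 := by
    have : min (min (wF s Blo / (c1 + c2)) (bF s Blo)) (r ^ 2 / 8) ≤ r ^ 2 / 8 := min_le_right _ _
    rw [hu]; linarith
  refine ⟨{ s := s, hs := hs, Blo := Blo, t1 := u / 2, t2 := u, tau2 := u, hBlo := hBlo0,
            hBlo' := hBlo1, ht1 := by positivity, ht12 := by linarith, htau2 := hu0,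
            h_lo := ?_, h_small := ?_, h_disj := hu2 }, rfl⟩
  · rw [lt_div_iff₀ (by positivity)] at hu1
    simp only [Efun]
    rw [← hc1, ← hc2]
    linarith
  · have hx : 2 * √(u + u) < r := by
      have h1 : √(u + u) < r / 2 := by
        rw [Real.sqrt_lt' (by positivity)]
        nlinarith
      linarith
    have hx0 : 0 < 2 * √(u + u) := by positivity
    have h1 : r ^ (-s) < (2 * √(u + u)) ^ (-s) :=
      Real.rpow_lt_rpow_of_neg hx0 hx (by linarith)
    have h2 : r ^ (-s) = 6 * sg s := by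
      rw [hr, ← Real.rpow_mul (by positivity), show -(1 / s) * -s = 1 by field_simp, Real.rpow_one]
    rwa [h2] at h1

end Crest.Agent.OT3
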