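
import Crest.Agent.Lib_OT3.MapsSmooth

/-!
# S0175: derivatives of the one-dimensional functions
-/

set_option autoImplicit false
open MeasureTheory Set Filter
open scoped ENNReal Real ContDiff Topology

namespace Crest.Agent.OT3

variable {n : ℕ}

lemma contDiffAt_aF {s B : ℝ} (hs : 0 < s) (hB : 0 < B) : ContDiffAt ℝ ∞ (aF s) B := by
  unfold aF
  apply ContDiffAt.rpow_const_of_ne
  · exact contDiffAt_const.div (contDiffAt_const.mul contDiffAt_id) (by positivity)
  · positivity

lemma hasDerivAt_aF {s B : ℝ} (hs : 0 < s) (hB : 0 < B) :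
    HasDerivAt (aF s) (-(aF s B / (sg s * B))) B := by
  have hσ := sg_pos hs
  have h1 : HasDerivAt (fun B : ℝ => s / (2 * B)) (-(s / (2 * B ^ 2))) B := by
    have := (hasDerivAt_const B s).div ((hasDerivAt_id' B).const_mul 2) (by positivity)
    refine this.congr_deriv ?_
    field_simp
    ring
  have h2 := h1.rpow_const (p := 1 / sg s) (Or.inl (by positivity))
  unfold aF
  refine h2.congr_deriv ?_
  rw [Real.rpow_sub_one (by positivity)]
  field_simp

lemma hasDerivAt_bF {s B : ℝ} (hs : 0 < s) (hB : B < kap s) :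
    HasDerivAt (bF s) (bF s B / (sg s * (kap s - B))) B := by
  have hσ := sg_pos hs
  have hk : 0 < kap s - B := sub_pos.2 hB
  have h1 : HasDerivAt (fun B : ℝ => s / (kap s - B)) (s / (kap s - B) ^ 2) B := by
    have := (hasDerivAt_const B s).div ((hasDerivAt_id' B).const_sub (kap s)) hk.ne'
    refine this.congr_deriv ?_
    field_simp
    ring
  have h2 := (h1.rpow_const (p := 1 / sg s) (Or.inl (by positivity))).div_const 4
  unfold bF
  refine h2.congr_deriv ?_
  rw [Real.rpow_sub_one (by positivity)]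
  field_simp

lemma hasDerivAt_wF {s B : ℝ} (hs : 0 < s) (hB : 0 < B) (hB' : B < kap s) :
    HasDerivAt (wF s) (wd s B) B := by
  unfold wF wd
  exact (hasDerivAt_aF hs hB).sub (hasDerivAt_bF hs hB')

lemma wd_neg {s B : ℝ} (hs : 0 < s) (hB : 0 < B) (hB' : B < kap s) : wd s B < 0 := by
  have hσ := sg_pos hs
  have hk : 0 < kap s - B := sub_pos.2 hB'
  have h1 := aF_pos hs hB
  have h2 := bF_pos hs hB'
  unfold wd
  have : 0 < aF s B / (sg s * B) := by positivity
  have : 0 < bF s B / (sg s * (kap s - B)) := by positivity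
  linarith

end Crest.Agent.OT3
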