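import Crest.Agent.Lib_OT3.OneDimA
import Crest.Agent.Lib_OT3.OneDimD

/-!
# S0175: one-dimensional facts, part B (calculus): derivatives of `aF bF wF Qf Efun`,
strict monotonicity of `Qf`, continuity, smoothness of `aF`.
-/

set_option autoImplicit false
open Set
open scoped ContDiff

namespace Crest.Agent.OT3

variable {s : ℝ}

theorem hasDerivAt_Qf (hs : 0 < s) {B : ℝ} (hB : 0 < B) (hB' : B < kap s) :
    HasDerivAt (Qf s) (Qd s B) B := by
  have hσ := sg_pos hs
  have hk : 0 < kap s - B := by linarith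
  have h1 := ((hasDerivAt_id' B).fun_pow 2).fun_mul (hasDerivAt_wF hs hB hB')
  have h2 := (hasDerivAt_bF hs hB').const_mul (kap s ^ 2)
  have h3 := h1.fun_add h2
  unfold Qf
  refine h3.congr_deriv ?_
  simp only [Qd, wd, wF]
  field_simp
  ring

theorem Qd_pos (hs : 0 < s) {B : ℝ} (hB : 0 < B) (hB' : B ≤ B0 s) : 0 < Qd s B := by
  have hσ := one_lt_sg hs
  have hk := kap_pos hs
  have hb := bF_pos hs (hB'.trans_lt (B0_lt_kap hs))
  have hw := wF_nonneg hs hB hB'
  unfold Qd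
  have h1 : 0 ≤ (2 * sg s - 1) * B * wF s B := by
    have : 0 < 2 * sg s - 1 := by linarith
    positivity
  have h2 : 0 < kap s * bF s B := by positivity
  have : 0 < sg s := by linarith
  positivity

theorem continuousOn_Qf (hs : 0 < s) : ContinuousOn (Qf s) (Ioo 0 (kap s)) := fun _ hB =>
  (hasDerivAt_Qf hs hB.1 hB.2).continuousAt.continuousWithinAt

theorem Qf_strictMonoOn (hs : 0 < s) : StrictMonoOn (Qf s) (Set.Ioc 0 (B0 s)) := by
  apply strictMonoOn_of_deriv_pos (convex_Ioc _ _)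
  · exact (continuousOn_Qf hs).mono fun B hB => ⟨hB.1, hB.2.trans_lt (B0_lt_kap hs)⟩
  · intro B hB
    rw [interior_Ioc] at hB
    rw [(hasDerivAt_Qf hs hB.1 (hB.2.trans (B0_lt_kap hs))).deriv]
    exact Qd_pos hs hB.1 hB.2.le

/-- derivative of `Efun` in `B`. -/
noncomputable def Ed (s B t τ : ℝ) : ℝ :=
  2 * kap s ^ 2 / (kap s - B) ^ 3 * t + 2 * kap' s ^ 2 / (kap' s - B) ^ 3 * τ - wd s B

lemma hasDerivAt_ratio_sq {k B : ℝ} (hB : B < k) :
    HasDerivAt (fun x : ℝ => (k / (k - x)) ^ 2) (2 * k ^ 2 / (k - B) ^ 3) B := by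
  have hk : 0 < k - B := by linarith
  have h := ((hasDerivAt_const B k).fun_div ((hasDerivAt_id' B).const_sub k) hk.ne').fun_pow 2
  refine h.congr_deriv ?_
  have hk' : k - B ≠ 0 := hk.ne'
  simp only [Nat.cast_ofNat, Nat.add_one_sub_one, pow_one]
  generalize k - B = c at hk'
  field_simp
  ring

theorem hasDerivAt_Efun (hs : 0 < s) {B : ℝ} (hB : 0 < B) (hB' : B < kap s) (t τ : ℝ) :
    HasDerivAt (fun B => Efun s B t τ) (Ed s B t τ) B := by
  unfold Efun Ed
  exact (((hasDerivAt_ratio_sq hB').mul_const t).fun_add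
    ((hasDerivAt_ratio_sq (hB'.trans (kap_lt_kap' hs))).mul_const τ)).fun_sub
      (hasDerivAt_wF hs hB hB')

theorem Ed_pos (hs : 0 < s) {B : ℝ} (hB : 0 < B) (hB' : B < kap s) {t τ : ℝ} (ht : 0 ≤ t)
    (hτ : 0 ≤ τ) : 0 < Ed s B t τ := by
  have h1 : 0 < kap s - B := by linarith
  have h2 : 0 < kap' s - B := by have := kap_lt_kap' hs; linarith
  have h3 := wd_neg hs hB hB'
  unfold Ed
  have : 0 ≤ 2 * kap s ^ 2 / (kap s - B) ^ 3 * t := by positivity
  have : 0 ≤ 2 * kap' s ^ 2 / (kap' s - B) ^ 3 * τ := by positivity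
  linarith

theorem continuousOn_Efun (hs : 0 < s) (t τ : ℝ) :
    ContinuousOn (fun B => Efun s B t τ) (Ioo 0 (kap s)) := fun _ hB =>
  (hasDerivAt_Efun hs hB.1 hB.2 t τ).continuousAt.continuousWithinAt

end Crest.Agent.OT3
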