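import Crest.Agent.Lib_OT3.Basic
import Crest.Agent.Lib_OT3.OneDimA
import Crest.Agent.Lib_OT3.OneDimB

/-!
# S0175: the parameters `By`, `Bx`: existence, uniqueness, measurability (helper1)
(monotonicity / derivatives are in OneDimA, OneDimB, OneDimD; smoothness in OneDimC)
-/

set_option autoImplicit false
open MeasureTheory Set
open scoped ENNReal Real ContDiff Topology

namespace Crest.Agent.OT3

variable {n : ℕ}

/-! ### roots -/

theorem sSup_sublevel {g : ℝ → ℝ} {lo hi B c : ℝ} (hg : StrictMonoOn g (Icc lo hi))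
    (hB : B ∈ Icc lo hi) (h : g B = c) : sSup {B' | B' ∈ Icc lo hi ∧ g B' ≤ c} = B := by
  have : {B' | B' ∈ Icc lo hi ∧ g B' ≤ c} = Icc lo B := by
    ext B'
    constructor
    · rintro ⟨h1, h2⟩
      exact ⟨h1.1, (hg.le_iff_le h1 hB).1 (h ▸ h2)⟩
    · rintro ⟨h1, h2⟩
      have h3 : B' ∈ Icc lo hi := ⟨h1, h2.trans hB.2⟩
      exact ⟨h3, h ▸ (hg.le_iff_le h3 hB).2 h2⟩
  rw [this, csSup_Icc hB.1]

section roots
variable (P : Par)

theorem Icc_subset_Ioc : Icc P.Blo (B0 P.s) ⊆ Ioc 0 (B0 P.s) :=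
  fun _ hB => ⟨P.hBlo.trans_le hB.1, hB.2⟩

theorem Icc_subset_Ioo : Icc P.Blo (B0 P.s) ⊆ Ioo 0 (kap P.s) :=
  fun _ hB => ⟨P.hBlo.trans_le hB.1, hB.2.trans_lt (B0_lt_kap P.hs)⟩

theorem Binv_eq {B q : ℝ} (hB : B ∈ Icc P.Blo (B0 P.s)) (h : Qf P.s B = q) : Binv P q = B :=
  sSup_sublevel ((Qf_strictMonoOn P.hs).mono (Icc_subset_Ioc P)) hB h

theorem exists_Binv {q : ℝ} (hq : q ∈ Ioo (Qf P.s P.Blo) (Qf P.s (B0 P.s))) :
    ∃ B ∈ Ioo P.Blo (B0 P.s), Qf P.s B = q := by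
  have hc : ContinuousOn (Qf P.s) (Icc P.Blo (B0 P.s)) := fun B hB =>
    (hasDerivAt_Qf P.hs (Icc_subset_Ioo P hB).1 (Icc_subset_Ioo P hB).2).continuousAt.continuousWithinAt
  obtain ⟨B, hB, h⟩ := intermediate_value_Ioo P.hBlo'.le hc hq
  exact ⟨B, hB, h⟩

theorem Binv_spec {q : ℝ} (hq : q ∈ Ioo (Qf P.s P.Blo) (Qf P.s (B0 P.s))) :
    Binv P q ∈ Ioo P.Blo (B0 P.s) ∧ Qf P.s (Binv P q) = q := by
  obtain ⟨B, hB, h⟩ := exists_Binv P hq
  rw [Binv_eq P (Ioo_subset_Icc_self hB) h]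
  exact ⟨hB, h⟩

theorem By_spec {y : E n} (hy : qK P.s y ∈ Set.Ioo (Qf P.s P.Blo) (Qf P.s (B0 P.s))) :
    By P y ∈ Set.Ioo P.Blo (B0 P.s) ∧ Qf P.s (By P y) = qK P.s y := Binv_spec P hy

theorem By_unique {y : E n} {B : ℝ} (hB : B ∈ Set.Icc P.Blo (B0 P.s))
    (h : Qf P.s B = qK P.s y) : By P y = B := Binv_eq P hB h

theorem Bx_unique {x : E n} {B : ℝ} (hB : B ∈ Set.Icc P.Blo (B0 P.s))
    (h : Efun P.s B (tP x) (tau x) = 0) : Bx P x = B :=
  sSup_sublevel (g := fun B => Efun P.s B (tP x) (tau x))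
    ((Efun_strictMonoOn P.hs (tP_nonneg x) (tau_nonneg x)).mono (Icc_subset_Ioo P)) hB h

theorem Efun_B0_pos {t τ : ℝ} (ht : 0 < t) (hτ : 0 ≤ τ) : 0 < Efun P.s (B0 P.s) t τ := by
  have hk := kap_pos P.hs
  have hd : 0 < kap P.s - B0 P.s := by linarith [B0_lt_kap P.hs]
  unfold Efun
  rw [wF_B0 P.hs]
  have h1 : 0 < (kap P.s / (kap P.s - B0 P.s)) ^ 2 * t := by positivity
  have h2 : 0 ≤ (kap' P.s / (kap' P.s - B0 P.s)) ^ 2 * τ := by positivity
  linarith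

theorem Bx_spec {x : E n} (hx : x ∈ Udom P) :
    Bx P x ∈ Set.Ioo P.Blo (B0 P.s) ∧ Efun P.s (Bx P x) (tP x) (tau x) = 0 := by
  have hc : ContinuousOn (fun B => Efun P.s B (tP x) (tau x)) (Icc P.Blo (B0 P.s)) := fun B hB =>
    (hasDerivAt_Efun P.hs (Icc_subset_Ioo P hB).1 (Icc_subset_Ioo P hB).2 _ _).continuousAt.continuousWithinAt
  have h0 : (0 : ℝ) ∈ Ioo (Efun P.s P.Blo (tP x) (tau x)) (Efun P.s (B0 P.s) (tP x) (tau x)) :=
    ⟨hx.2, Efun_B0_pos P hx.1 (tau_nonneg x)⟩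
  obtain ⟨B, hB, h⟩ := intermediate_value_Ioo P.hBlo'.le hc h0
  rw [Bx_unique P (Ioo_subset_Icc_self hB) h]
  exact ⟨hB, h⟩

end roots

/-! ### measurability -/

theorem Binv_mono (P : Par) : Monotone (Binv P) := by
  intro q q' h
  unfold Binv
  by_cases hne : {B | B ∈ Icc P.Blo (B0 P.s) ∧ Qf P.s B ≤ q}.Nonempty
  · apply csSup_le_csSup ⟨B0 P.s, fun B hB => hB.1.2⟩ hne
    intro B hB
    exact ⟨hB.1, hB.2.trans h⟩
  · rw [not_nonempty_iff_eq_empty.1 hne, Real.sSup_empty]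
    apply Real.sSup_nonneg
    intro B hB
    exact P.hBlo.le.trans hB.1.1

theorem measurable_By (P : Par) : Measurable (By P (n := n)) :=
  (Binv_mono P).measurable.comp (continuous_qK P.s).measurable

/-- characterisation of the superlevel sets of the `sSup` of a closed initial segment -/
theorem le_sSup_sublevel_iff {g : ℝ → ℝ} {lo hi c : ℝ} (_hlo : 0 < lo)
    (hg : MonotoneOn g (Icc lo hi)) (hc : ContinuousOn g (Icc lo hi)) (hc0 : 0 < c) :
    c ≤ sSup {B | B ∈ Icc lo hi ∧ g B ≤ 0} ↔ (max c lo ≤ hi ∧ g (max c lo) ≤ 0) := by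
  have hbdd : BddAbove {B | B ∈ Icc lo hi ∧ g B ≤ 0} := ⟨hi, fun B hB => hB.1.2⟩
  constructor
  · intro h
    have hne : {B | B ∈ Icc lo hi ∧ g B ≤ 0}.Nonempty := by
      by_contra hne
      rw [not_nonempty_iff_eq_empty.1 hne, Real.sSup_empty] at h
      linarith
    have hcl : IsClosed {B | B ∈ Icc lo hi ∧ g B ≤ 0} :=
      hc.preimage_isClosed_of_isClosed isClosed_Icc isClosed_Iic
    have hmem := hcl.csSup_mem hne hbdd
    set Bs := sSup {B | B ∈ Icc lo hi ∧ g B ≤ 0} with hBs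
    have h1 : max c lo ≤ Bs := max_le h hmem.1.1
    refine ⟨h1.trans hmem.1.2, ?_⟩
    exact (hg ⟨le_max_right _ _, h1.trans hmem.1.2⟩ hmem.1 h1).trans hmem.2
  · rintro ⟨h1, h2⟩
    exact (le_max_left c lo).trans (le_csSup hbdd ⟨⟨le_max_right _ _, h1⟩, h2⟩)

theorem measurable_Bx (P : Par) : Measurable (Bx P (n := n)) := by
  apply measurable_of_Ici
  intro c
  by_cases hc0 : 0 < c
  · have key : ∀ x : E n, c ≤ Bx P x ↔ (max c P.Blo ≤ B0 P.s ∧
        Efun P.s (max c P.Blo) (tP x) (tau x) ≤ 0) := by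
      intro x
      exact le_sSup_sublevel_iff (g := fun B => Efun P.s B (tP x) (tau x)) P.hBlo
        (((Efun_strictMonoOn P.hs (tP_nonneg x) (tau_nonneg x)).mono (Icc_subset_Ioo P)).monotoneOn)
        ((continuousOn_Efun P.hs _ _).mono (Icc_subset_Ioo P)) hc0
    have : Bx P (n := n) ⁻¹' Ici c = {x | max c P.Blo ≤ B0 P.s ∧
        Efun P.s (max c P.Blo) (tP x) (tau x) ≤ 0} := by
      ext x; exact key x
    rw [this]
    by_cases h : max c P.Blo ≤ B0 P.s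
    · simp only [h, true_and]
      exact measurableSet_le (continuous_Efun_comp _ _).measurable measurable_const
    · simp only [h, false_and]
      exact MeasurableSet.empty
  · have : Bx P (n := n) ⁻¹' Ici c = univ := by
      ext x
      simp only [mem_preimage, mem_Ici, mem_univ, iff_true]
      refine (not_lt.1 hc0).trans ?_
      apply Real.sSup_nonneg
      intro B hB
      exact P.hBlo.le.trans hB.1.1
    rw [this]
    exact MeasurableSet.univ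

end Crest.Agent.OT3
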