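import Crest.Agent.Lib_OT3.Rigid
import Crest.Agent.Lib_OT3.Ineq
import Crest.Agent.Lib_OT3.OneDim
import Crest.Agent.Lib_OT3.MapsSmooth

/-!
# S0175: the concrete maps `Fmap Fbar Gmap Gbar fmap gmap` on `Udom Vdom In Out`
-/

set_option autoImplicit false
open MeasureTheory Set
open scoped ENNReal Real

namespace Crest.Agent.OT3

variable {n : ℕ} (P : Par)

/-! ### parameters of points of `Vdom`, `Udom` -/

lemma By_facts {y : E n} (hy : y ∈ Vdom P) :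
    0 < By P y ∧ By P y < kap P.s ∧ By P y ∈ Ioo P.Blo (B0 P.s) ∧ Qf P.s (By P y) = qK P.s y ∧
      bF P.s (By P y) < tP y := by
  obtain ⟨h1, h2⟩ := By_spec P hy.1
  exact ⟨P.hBlo.trans h1.1, h1.2.trans (B0_lt_kap P.hs), h1, h2, hy.2⟩

lemma Bx_facts {x : E n} (hx : x ∈ Udom P) :
    0 < Bx P x ∧ Bx P x < kap P.s ∧ Bx P x ∈ Ioo P.Blo (B0 P.s) ∧
      Efun P.s (Bx P x) (tP x) (tau x) = 0 ∧ 0 < tP x := by
  obtain ⟨h1, h2⟩ := Bx_spec P hx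
  exact ⟨P.hBlo.trans h1.1, h1.2.trans (B0_lt_kap P.hs), h1, h2, hx.1⟩

/-- a point with positive `tP` whose parameter equation has a solution in `(Blo,B0)` is in `Udom`. -/
lemma mem_Udom_of {x : E n} {B : ℝ} (ht : 0 < tP x) (hB : B ∈ Ioo P.Blo (B0 P.s))
    (hE : Efun P.s B (tP x) (tau x) = 0) : x ∈ Udom P := by
  refine ⟨ht, ?_⟩
  have := Efun_strictMonoOn P.hs ht.le (tau_nonneg x)
    (⟨P.hBlo, P.hBlo'.trans (B0_lt_kap P.hs)⟩ : P.Blo ∈ Ioo 0 (kap P.s))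
    (⟨P.hBlo.trans hB.1, hB.2.trans (B0_lt_kap P.hs)⟩ : B ∈ Ioo 0 (kap P.s)) hB.1
  simp only at this
  linarith

/-- a point whose parameter equation has a solution in `(Blo,B0)` with `b < tP` is in `Vdom`. -/
lemma mem_Vdom_of {y : E n} {B : ℝ} (hB : B ∈ Ioo P.Blo (B0 P.s)) (hQ : Qf P.s B = qK P.s y)
    (hT : bF P.s B < tP y) : y ∈ Vdom P ∧ By P y = B := by
  have hBy : By P y = B := By_unique P ⟨hB.1.le, hB.2.le⟩ hQ
  refine ⟨⟨?_, by rw [hBy]; exact hT⟩, hBy⟩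
  rw [← hQ]
  constructor
  · exact Qf_strictMonoOn P.hs ⟨P.hBlo, P.hBlo'.le⟩ ⟨P.hBlo.trans hB.1, hB.2.le⟩ hB.1
  · exact Qf_strictMonoOn P.hs ⟨P.hBlo.trans hB.1, hB.2.le⟩ ⟨B0_pos P.hs, le_rfl⟩ hB.2

/-! ### outer points -/

section outer
variable {y : E n} (hy : y ∈ Vdom P)
include hy

lemma Fmap_mem_Udom : Fmap P y ∈ Udom P := by
  obtain ⟨h0, hk, hI, hQ, hT⟩ := By_facts P hy
  exact mem_Udom_of P (tP_FB_pos P.hs h0 hk hT) hI (Efun_FB P.hs h0 hk hT hQ)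

lemma Bx_Fmap : Bx P (Fmap P y) = By P y := by
  obtain ⟨h0, hk, hI, hQ, hT⟩ := By_facts P hy
  exact Bx_unique P ⟨hI.1.le, hI.2.le⟩ (Efun_FB P.hs h0 hk hT hQ)

lemma fmap_Fmap : fmap P (Fmap P y) = y := by
  obtain ⟨h0, hk, hI, hQ, hT⟩ := By_facts P hy
  rw [fmap_eq, Bx_Fmap P hy, Fmap_eq]
  exact fB_FB P.hs h0 hk hT

lemma Gmap_mem_Vdom : Gmap P y ∈ Vdom P ∧ By P (Gmap P y) = By P y := by
  obtain ⟨h0, hk, hI, hQ, hT⟩ := By_facts P hy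
  apply mem_Vdom_of P hI
  · rw [hQ, qK, qK, Gmap_eq, tP_GB P.hs h0 hk hT, tau_GB]
  · rw [Gmap_eq, tP_GB P.hs h0 hk hT]; exact hT

lemma Gbar_mem_Vdom : Gbar P y ∈ Vdom P ∧ By P (Gbar P y) = By P y := by
  obtain ⟨h0, hk, hI, hQ, hT⟩ := By_facts P hy
  apply mem_Vdom_of P hI
  · rw [hQ, qK, qK, Gbar_eq, tP_GbB P.hs h0 hk hT, tau_GbB]
  · rw [Gbar_eq, tP_GbB P.hs h0 hk hT]; exact hT

lemma Fbar_Gmap : Fbar P (Gmap P y) = Fmap P y := by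
  obtain ⟨h0, hk, hI, hQ, hT⟩ := By_facts P hy
  rw [Fbar_eq, (Gmap_mem_Vdom P hy).2, Gmap_eq, Fmap_eq]
  exact FbB_GB P.hs h0 hk hT

lemma Fmap_Gbar : Fmap P (Gbar P y) = Fbar P y := by
  obtain ⟨h0, hk, hI, hQ, hT⟩ := By_facts P hy
  rw [Fmap_eq, (Gbar_mem_Vdom P hy).2, Gbar_eq, Fbar_eq]
  exact FB_GbB P.hs h0 hk hT

lemma Gbar_Gmap : Gbar P (Gmap P y) = y := by
  obtain ⟨h0, hk, hI, hQ, hT⟩ := By_facts P hy
  rw [Gbar_eq, (Gmap_mem_Vdom P hy).2, Gmap_eq]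
  exact GbB_GB P.hs h0 hk hT

lemma Gmap_Gbar : Gmap P (Gbar P y) = y := by
  obtain ⟨h0, hk, hI, hQ, hT⟩ := By_facts P hy
  rw [Gmap_eq, (Gbar_mem_Vdom P hy).2, Gbar_eq]
  exact GB_GbB P.hs h0 hk hT

lemma Fbar_mem_Udom : Fbar P y ∈ Udom P := by
  rw [← Fmap_Gbar P hy]
  exact Fmap_mem_Udom P (Gbar_mem_Vdom P hy).1

lemma eqCond_Fmap : EqCond P.s (By P y) (Fmap P y) y (Gmap P y) := by
  obtain ⟨h0, hk, hI, hQ, hT⟩ := By_facts P hy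
  refine ⟨dist_FB_self P.hs h0 hk hT hQ, dist_FB_GB P.hs h0 hk hT hQ, dist_self_GB P.hs h0 hk hT,
    fun i => ?_, mid0 P.hs h0 hk hT, mid1 P.hs h0 hk hT, midp P.hs h0 hk hT⟩
  simp [Gmap, act_succ]

lemma bF_Blo_lt_tP : bF P.s P.Blo < tP y := by
  obtain ⟨h0, hk, hI, hQ, hT⟩ := By_facts P hy
  exact (bF_strictMonoOn P.hs (P.hBlo'.trans (B0_lt_kap P.hs) : P.Blo ∈ Iio (kap P.s))
    (hk : By P y ∈ Iio (kap P.s)) hI.1).trans hT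

end outer

/-! ### inner points -/

section inner
variable {x : E n} (hx : x ∈ Udom P)
include hx

lemma fmap_mem_Vdom : fmap P x ∈ Vdom P ∧ By P (fmap P x) = Bx P x := by
  obtain ⟨h0, hk, hI, hE, ht⟩ := Bx_facts P hx
  exact mem_Vdom_of P hI (qK_fB P.hs h0 hk ht hE).symm (bF_lt_tP_fB P.hs h0 hk ht)

lemma gmap_mem_Vdom : gmap P x ∈ Vdom P ∧ By P (gmap P x) = Bx P x := by
  obtain ⟨h0, hk, hI, hE, ht⟩ := Bx_facts P hx
  exact mem_Vdom_of P hI (qK_gB P.hs h0 hk ht hE).symm (bF_lt_tP_gB P.hs h0 hk ht)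

lemma By_fmap : By P (fmap P x) = Bx P x := (fmap_mem_Vdom P hx).2

lemma Fmap_fmap : Fmap P (fmap P x) = x := by
  obtain ⟨h0, hk, hI, hE, ht⟩ := Bx_facts P hx
  rw [Fmap_eq, By_fmap P hx, fmap_eq]
  exact FB_fB P.hs h0 hk ht

lemma Gmap_fmap : Gmap P (fmap P x) = gmap P x := by
  obtain ⟨h0, hk, hI, hE, ht⟩ := Bx_facts P hx
  rw [Gmap_eq, By_fmap P hx, fmap_eq, gmap_eq]
  exact GB_fB P.hs h0 hk ht

lemma Fbar_gmap : Fbar P (gmap P x) = x := by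
  obtain ⟨h0, hk, hI, hE, ht⟩ := Bx_facts P hx
  rw [Fbar_eq, (gmap_mem_Vdom P hx).2, gmap_eq]
  exact FbB_gB P.hs h0 hk ht

lemma rigid_maps {y z : E n} (h : EqCond P.s (Bx P x) x y z) :
    (y = fmap P x ∧ z = gmap P x) ∨ (y = gmap P x ∧ z = fmap P x) := by
  obtain ⟨h0, hk, hI, hE, ht⟩ := Bx_facts P hx
  obtain ⟨e1, e2, e3, e4, e5, e6, e7⟩ := h
  exact rigid P.hs h0 hk ht (e1.trans e2.symm) e3 e4 e5 e6 e7

end inner

/-! ### `In` and `Out` -/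

lemma Efun_mono_tτ {s B t t' τ τ' : ℝ} (ht : t ≤ t') (hτ : τ ≤ τ') :
    Efun s B t τ ≤ Efun s B t' τ' := by
  unfold Efun
  have h1 : 0 ≤ (kap s / (kap s - B)) ^ 2 := by positivity
  have h2 : 0 ≤ (kap' s / (kap' s - B)) ^ 2 := by positivity
  nlinarith

/-- even the closed box lies in `Udom`. -/
lemma closedBox_subset_Udom {x : E n} (h1 : P.t1 ≤ tP x) (h2 : tP x ≤ P.t2) (h3 : tau x ≤ P.tau2) :
    x ∈ Udom P :=
  ⟨P.ht1.trans_le h1, (Efun_mono_tτ h2 h3).trans_lt P.h_lo⟩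

lemma Out_subset_Vdom : Out P ⊆ (Vdom P : Set (E n)) := fun _ hy => hy.1

lemma Fmap_mem_In {y : E n} (hy : y ∈ Out P) : Fmap P y ∈ In P := hy.2

lemma fmap_mem_Out {x : E n} (hx : x ∈ In P) : fmap P x ∈ Out P :=
  ⟨(fmap_mem_Vdom P (In_subset_Udom P hx)).1, by rw [Fmap_fmap P (In_subset_Udom P hx)]; exact hx⟩

lemma tP_Fbar {y : E n} : tP (Fbar P y) = tP (Fmap P y) := by
  rw [Fbar, Fmap, tP_act, tP_act]; ring

lemma tau_Fbar {y : E n} : tau (Fbar P y) = tau (Fmap P y) := by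
  rw [Fbar, Fmap, tau_act, tau_act]

lemma Fbar_mem_In {y : E n} (hy : y ∈ Out P) : Fbar P y ∈ In P := by
  have := hy.2
  unfold In at this ⊢
  simp only [mem_setOf_eq] at this ⊢
  rw [tP_Fbar, tau_Fbar]; exact this

lemma Gbar_mem_Out {y : E n} (hy : y ∈ Out P) : Gbar P y ∈ Out P :=
  ⟨(Gbar_mem_Vdom P hy.1).1, by rw [Fmap_Gbar P hy.1]; exact Fbar_mem_In P hy⟩

lemma Gmap_mem_Out {y : E n} (hy : y ∈ Out P) : Gmap P y ∈ Out P := by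
  refine ⟨(Gmap_mem_Vdom P hy.1).1, ?_⟩
  have h1 : Fbar P (Gmap P y) ∈ In P := by rw [Fbar_Gmap P hy.1]; exact hy.2
  unfold In at h1 ⊢
  simp only [mem_setOf_eq] at h1 ⊢
  rw [tP_Fbar, tau_Fbar] at h1; exact h1

lemma gmap_mem_Out {x : E n} (hx : x ∈ In P) : gmap P x ∈ Out P := by
  rw [← Gmap_fmap P (In_subset_Udom P hx)]
  exact Gmap_mem_Out P (fmap_mem_Out P hx)

lemma disjoint_In_Out : Disjoint (In P : Set (E n)) (Out P) := by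
  rw [Set.disjoint_left]
  intro x hx hx'
  have h1 := bF_Blo_lt_tP P hx'.1
  have h2 := hx.2.1
  have h3 := P.h_disj
  linarith

lemma injOn_Fmap : InjOn (Fmap P) (Out P : Set (E n)) := by
  intro y hy y' hy' h
  rw [← fmap_Fmap P hy.1, h, fmap_Fmap P hy'.1]

lemma injOn_Fbar : InjOn (Fbar P) (Out P : Set (E n)) := by
  intro y hy y' hy' h
  rw [← Fmap_Gbar P hy.1, ← Fmap_Gbar P hy'.1] at h
  have := injOn_Fmap P (Gbar_mem_Out P hy) (Gbar_mem_Out P hy') h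
  rw [← Gmap_Gbar P hy.1, this, Gmap_Gbar P hy'.1]

end Crest.Agent.OT3
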