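import Crest.Agent.Lib_OT3.H1Rot1D

/-!
# Circle actions, averaging, twist maps and angular cell maps (helper1, S0175 skeleton)
-/

set_option autoImplicit false
set_option linter.unusedSectionVars false
open MeasureTheory Set
open scoped ENNReal

namespace Crest.Agent.OT3.H1

/-- a measurable action of the circle `ℝ / 2π` -/
structure RotAction (E : Type*) [MeasurableSpace E] where
  R : ℝ → E → E
  meas : Measurable (fun p : ℝ × E => R p.1 p.2)
  zero : ∀ x, R 0 x = x
  add : ∀ s t x, R (s + t) x = R s (R t x)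
  period : ∀ x, R (2 * Real.pi) x = x

variable {E : Type*} [MeasurableSpace E] (A : RotAction E)

namespace RotAction

theorem meas_t (t : ℝ) : Measurable (A.R t) :=
  A.meas.comp (measurable_const.prodMk measurable_id)

theorem meas_x (x : E) : Measurable (fun t => A.R t x) :=
  A.meas.comp (measurable_id.prodMk measurable_const)

theorem meas_twist {δ : E → ℝ} (hδ : Measurable δ) : Measurable (fun x => A.R (δ x) x) :=
  A.meas.comp (hδ.prodMk measurable_id)

theorem periodic (x : E) : Function.Periodic (fun t => A.R t x) (2 * Real.pi) := by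
  intro t
  show A.R (t + 2 * Real.pi) x = A.R t x
  rw [A.add, A.period]

theorem neg_cancel (t : ℝ) (x : E) : A.R (-t) (A.R t x) = x := by
  rw [← A.add]; simp [A.zero]

theorem cancel_neg (t : ℝ) (x : E) : A.R t (A.R (-t) x) = x := by
  rw [← A.add]; simp [A.zero]

theorem add_int (t : ℝ) (n : ℤ) (x : E) : A.R (t + n * (2 * Real.pi)) x = A.R t x :=
  (A.periodic x).int_mul n t

end RotAction

/-- invariance of a measure -/
def RotInv (ν : Measure E) : Prop := ∀ t, ν.map (A.R t) = ν

variable {A}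

theorem two_pi_pos' : (0 : ℝ) < 2 * Real.pi := by positivity

/-- averaging over the action -/
theorem lintegral_avg {ν : Measure E} [SFinite ν] (hν : RotInv A ν) {G : E → ℝ≥0∞}
    (hG : Measurable G) :
    ∫⁻ x, (∫⁻ t in Ioc 0 (2 * Real.pi), G (A.R t x)) ∂ν = ENNReal.ofReal (2 * Real.pi) * ∫⁻ x, G x ∂ν := by
  have hm : Measurable (Function.uncurry fun (x : E) (t : ℝ) => G (A.R t x)) :=
    hG.comp (A.meas.comp (measurable_snd.prodMk measurable_fst))
  rw [lintegral_lintegral_swap hm.aemeasurable]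
  have : ∀ t : ℝ, ∫⁻ x, G (A.R t x) ∂ν = ∫⁻ x, G x ∂ν := by
    intro t
    rw [← lintegral_map hG (A.meas_t t), hν t]
  simp_rw [this]
  rw [setLIntegral_const, Real.volume_Ioc, sub_zero, mul_comm]

/-- **General rotation-type map.** -/
theorem map_rot_general {ν : Measure E} [SFinite ν] (hν : RotInv A ν) {X : Set E} (hX : ∀ᵐ x ∂ν, x ∈ X)
    {δ : E → ℝ} (hδ : Measurable δ) {H : Set E} (hH : MeasurableSet H) (cst : ℝ≥0∞) (hc : cst ≠ ∞)
    (h1D : ∀ x ∈ X, ∀ Γ : ℝ → ℝ≥0∞, Measurable Γ → Function.Periodic Γ (2 * Real.pi) →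
      ∫⁻ t in Ioc 0 (2 * Real.pi), {t | A.R t x ∈ H}.indicator (fun t => Γ (t + δ (A.R t x))) t
        = cst * ∫⁻ t in Ioc 0 (2 * Real.pi), Γ t) :
    (ν.restrict H).map (fun x => A.R (δ x) x) = cst • ν := by
  have hT : Measurable (fun x => A.R (δ x) x) := A.meas_twist hδ
  ext W hW
  rw [Measure.map_apply hT hW, Measure.smul_apply, smul_eq_mul]
  have h0 : ENNReal.ofReal (2 * Real.pi) ≠ 0 := by
    rw [Ne, ENNReal.ofReal_eq_zero, not_le]; exact two_pi_pos'
  rw [← ENNReal.mul_right_inj h0 ENNReal.ofReal_ne_top]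
  set G : E → ℝ≥0∞ := H.indicator (fun x => W.indicator 1 (A.R (δ x) x)) with hGdef
  have hGm : Measurable G := ((measurable_one.indicator hW).comp hT).indicator hH
  have e1 : (ν.restrict H) ((fun x => A.R (δ x) x) ⁻¹' W) = ∫⁻ x, G x ∂ν := by
    rw [hGdef, lintegral_indicator hH, ← lintegral_indicator_one (hT hW)]
    rfl
  have e2 : ν W = ∫⁻ x, W.indicator 1 x ∂ν := (lintegral_indicator_one hW).symm
  rw [e1, e2, ← lintegral_avg hν hGm, ← mul_assoc, mul_comm _ cst, mul_assoc,
    ← lintegral_avg hν (measurable_one.indicator hW), ← lintegral_const_mul' _ _ hc]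
  refine lintegral_congr_ae ?_
  filter_upwards [hX] with x hx
  have := h1D x hx (fun t => W.indicator 1 (A.R t x)) ((measurable_one.indicator hW).comp (A.meas_x x))
    (fun t => by
      have := A.periodic x t
      simp only at this
      show W.indicator 1 (A.R (t + 2 * Real.pi) x) = W.indicator 1 (A.R t x)
      rw [this])
  rw [← this]
  refine lintegral_congr fun t => ?_
  have e3 : A.R (t + δ (A.R t x)) x = A.R (δ (A.R t x)) (A.R t x) := by
    rw [add_comm t, A.add]
  by_cases h : A.R t x ∈ H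
  · rw [hGdef, indicator_of_mem h, indicator_of_mem (show t ∈ {t | A.R t x ∈ H} from h), e3]
  · rw [hGdef, indicator_of_notMem h, indicator_of_notMem (show t ∉ {t | A.R t x ∈ H} from h)]

/-- **Twist lemma.** -/
theorem map_twist {ν : Measure E} [SFinite ν] (hν : RotInv A ν) {X : Set E} (hX : ∀ᵐ x ∂ν, x ∈ X)
    {δ : E → ℝ} (hδ : Measurable δ) (hinv : ∀ x ∈ X, ∀ t, δ (A.R t x) = δ x) :
    ν.map (fun x => A.R (δ x) x) = ν := by
  have := map_rot_general hν hX hδ MeasurableSet.univ 1 ENNReal.one_ne_top (by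
    intro x hx Γ _ hper
    simp only [mem_univ, ofPred_true, indicator_univ, one_mul, hinv x hx]
    exact lintegral_period_shift two_pi_pos' hper _)
  simpa using this

end Crest.Agent.OT3.H1
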