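import Crest.Agent.Lib_OT3.RotInv
import Crest.Agent.Lib_OT3.Approx
import Crest.Agent.Lib_OT3.H1Rot

/-!
# S0175: measure-theoretic glue

Part 1 (abstract): `μ = C • (νI + 2 • νO)` with `νI` living on `In`, `νO = νI.map f = νI.map g` living
on `Out`; push-forwards of `μ|In`, `μ|Out` under the structural maps.
-/

set_option autoImplicit false
open MeasureTheory Set
open scoped ENNReal Real ContDiff

namespace Crest.Agent.OT3

section abstract

variable {α : Type*} [MeasurableSpace α]

/-- a measure preserving map leaving the density invariant preserves the measure with density. -/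
lemma map_withDensity_of_invariant {vol : Measure α} {T : α → α} (hT : MeasurePreserving T vol vol)
    {a : α → ℝ≥0∞} (ha : Measurable a) (hinv : ∀ x, a (T x) = a x) :
    (vol.withDensity a).map T = vol.withDensity a := by
  ext s hs
  rw [Measure.map_apply hT.measurable hs, withDensity_apply _ (hT.measurable hs),
    withDensity_apply _ hs, ← hT.setLIntegral_comp_preimage hs ha]
  simp only [hinv]

variable {μ νI νO : Measure α} {C : ℝ≥0∞} {In Out : Set α}

lemma restrict_self_of_compl_null {ν : Measure α} {S : Set α} (h : ν Sᶜ = 0) : ν.restrict S = ν :=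
  Measure.restrict_eq_self_of_ae_mem (by rw [ae_iff]; exact h)

lemma restrict_In_eq (hμ : μ = C • (νI + (2 : ℝ≥0∞) • νO)) (hI : νI Inᶜ = 0) (hO : νO Outᶜ = 0)
    (hdisj : Disjoint In Out) : μ.restrict In = C • νI := by
  have h0 : νO In = 0 := measure_mono_null (fun x hx hx' => (Set.disjoint_left.1 hdisj) hx hx') hO
  rw [hμ, Measure.restrict_smul, Measure.restrict_add, Measure.restrict_smul,
    restrict_self_of_compl_null hI, Measure.restrict_eq_zero.2 h0, smul_zero, add_zero]

lemma restrict_Out_eq (hμ : μ = C • (νI + (2 : ℝ≥0∞) • νO)) (hI : νI Inᶜ = 0) (hO : νO Outᶜ = 0)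
    (hdisj : Disjoint In Out) : μ.restrict Out = C • ((2 : ℝ≥0∞) • νO) := by
  have h0 : νI Out = 0 := measure_mono_null (fun x hx hx' => (Set.disjoint_left.1 hdisj) hx' hx) hI
  rw [hμ, Measure.restrict_smul, Measure.restrict_add, Measure.restrict_smul,
    restrict_self_of_compl_null hO, Measure.restrict_eq_zero.2 h0, zero_add]

lemma dec_of_struct (hμ : μ = C • (νI + (2 : ℝ≥0∞) • νO)) (hI : νI Inᶜ = 0) (hO : νO Outᶜ = 0)
    (hdisj : Disjoint In Out) : μ = μ.restrict In + μ.restrict Out := by
  rw [restrict_In_eq hμ hI hO hdisj, restrict_Out_eq hμ hI hO hdisj, ← smul_add]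
  exact hμ

lemma compl_null_of_struct (hμ : μ = C • (νI + (2 : ℝ≥0∞) • νO)) (hI : νI Inᶜ = 0)
    (hO : νO Outᶜ = 0) : μ (In ∪ Out)ᶜ = 0 := by
  have h1 : νI (In ∪ Out)ᶜ = 0 :=
    measure_mono_null (compl_subset_compl.2 subset_union_left) hI
  have h2 : νO (In ∪ Out)ᶜ = 0 :=
    measure_mono_null (compl_subset_compl.2 subset_union_right) hO
  rw [hμ, Measure.smul_apply, Measure.add_apply, Measure.smul_apply, h1, h2]
  simp

variable {f g F Fb G Gb : α → α}

lemma map_f_of_struct (hμI : μ.restrict In = C • νI) (hμO : μ.restrict Out = C • ((2 : ℝ≥0∞) • νO))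
    (hf : νI.map f = νO) : (μ.restrict In).map f = (2⁻¹ : ℝ≥0∞) • μ.restrict Out := by
  rw [hμI, hμO, Measure.map_smul, hf, smul_comm (2⁻¹ : ℝ≥0∞) C, inv_two_smul_two_smul]

/-- `Φ` is a left inverse (a.e.) of `φ`, `νI.map φ = νO`. -/
lemma map_leftInv_of_struct (hμI : μ.restrict In = C • νI)
    (hμO : μ.restrict Out = C • ((2 : ℝ≥0∞) • νO)) {φ Φ : α → α} (hφm : Measurable φ)
    (hΦm : Measurable Φ) (hφ : νI.map φ = νO) (hinv : ∀ᵐ x ∂νI, Φ (φ x) = x) :
    (μ.restrict Out).map Φ = (2 : ℝ≥0∞) • μ.restrict In := by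
  have h1 : νO.map Φ = νI := by
    rw [← hφ, Measure.map_map hΦm hφm]
    have : νI.map (Φ ∘ φ) = νI.map id := Measure.map_congr hinv
    rw [this, Measure.map_id]
  rw [hμI, hμO, Measure.map_smul, Measure.map_smul, h1, smul_comm]

/-- `Γ ∘ φ = ψ` a.e., `νI.map φ = νO = νI.map ψ`. -/
lemma map_twist_of_struct (hμO : μ.restrict Out = C • ((2 : ℝ≥0∞) • νO)) {φ ψ Γ : α → α}
    (hφm : Measurable φ) (hΓm : Measurable Γ) (hφ : νI.map φ = νO) (hψ : νI.map ψ = νO)
    (hrel : ∀ᵐ x ∂νI, Γ (φ x) = ψ x) : (μ.restrict Out).map Γ = μ.restrict Out := by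
  have h1 : νO.map Γ = νO := by
    conv_lhs => rw [← hφ]
    rw [Measure.map_map hΓm hφm]
    have : νI.map (Γ ∘ φ) = νI.map ψ := Measure.map_congr hrel
    rw [this, hψ]
  rw [hμO, Measure.map_smul, Measure.map_smul, h1]

/-- the mirror map has the same image measure. -/
lemma map_mirror {S : α → α} (hS : Measurable S) (hfm : Measurable f) (hf : νI.map f = νO)
    (hSI : νI.map S = νI) (hSO : νO.map S = νO) (hg : ∀ x, g x = S (f (S x))) :
    νI.map g = νO := by
  have : g = S ∘ f ∘ S := funext hg
  rw [this, ← Measure.map_map hS (hfm.comp hS), ← Measure.map_map hfm hS, hSI, hf, hSO]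

/-- equivariance transports invariance. -/
lemma map_equivariant {R : α → α} (hR : Measurable R) (hfm : Measurable f) (hf : νI.map f = νO)
    (hRI : νI.map R = νI) (hcomm : ∀ x, f (R x) = R (f x)) : νO.map R = νO := by
  conv_lhs => rw [← hf]
  rw [Measure.map_map hR hfm]
  have : R ∘ f = f ∘ R := funext fun x => (hcomm x).symm
  rw [this, ← Measure.map_map hfm hR, hRI, hf]

end abstract

/-! ### Part 2: the concrete measures -/

section concrete

variable {n : ℕ} (P : Par)

/-- the push-forward density -/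
noncomputable def pd (y : E n) : ℝ := pushDens (eta P) (Fmap P) (Vdom P) y
/-- unnormalised inner measure -/
noncomputable def nuI : Measure (E n) := volume.withDensity fun x => ENNReal.ofReal (eta P x ^ 2)
/-- unnormalised (half) outer measure -/
noncomputable def nuO : Measure (E n) := volume.withDensity fun y => ENNReal.ofReal (pd P y)

/-- what `Density.lean` delivers for `f = fmap`, `F = Fmap`, `η = eta`. -/
structure DensHyp (P : Par) (n : ℕ) : Prop where
  map_f : (nuI P : Measure (E n)).map (fmap P) = nuO P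
  smooth : ContDiff ℝ ∞ (pd P : E n → ℝ)
  cpt : HasCompactSupport (pd P : E n → ℝ)
  smooth_sqrt : ContDiff ℝ ∞ (fun y : E n => √(pd P y))
  nonneg : ∀ y : E n, 0 ≤ pd P y
  pos_iff : ∀ y : E n, 0 < pd P y ↔ y ∈ Vdom P ∧ 0 < eta P (Fmap P y)

variable {P}

lemma DensHyp.pos_iff_Out (h : DensHyp P n) (y : E n) : 0 < pd P y ↔ y ∈ Out P := by
  rw [h.pos_iff, eta_pos_iff]; rfl

lemma DensHyp.eq_zero (h : DensHyp P n) {y : E n} (hy : y ∉ Out P) : pd P y = 0 :=
  le_antisymm (not_lt.1 fun h' => hy ((h.pos_iff_Out y).1 h')) (h.nonneg y)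

lemma DensHyp.isOpen_Out (h : DensHyp P n) : IsOpen (Out P : Set (E n)) := by
  have : (Out P : Set (E n)) = {y | 0 < pd P y} := by
    ext y; exact (h.pos_iff_Out y).symm
  rw [this]
  exact isOpen_lt continuous_const h.smooth.continuous

lemma DensHyp.measurableSet_Out (h : DensHyp P n) : MeasurableSet (Out P : Set (E n)) :=
  h.isOpen_Out.measurableSet

variable (P)

lemma measurable_eta_sq : Measurable fun x : E n => ENNReal.ofReal (eta P x ^ 2) :=
  ((contDiff_eta P).continuous.pow 2).measurable.ennreal_ofReal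

lemma nuI_compl_In : (nuI P : Measure (E n)) (In P)ᶜ = 0 := by
  unfold nuI
  rw [withDensity_apply _ (measurableSet_In P).compl,
    setLIntegral_congr_fun (g := fun _ => 0) (measurableSet_In P).compl (fun x hx => by
      simp [eta_eq_zero P hx])]
  simp

lemma ae_nuI_mem_In : ∀ᵐ x ∂(nuI P : Measure (E n)), x ∈ In P := by
  rw [ae_iff]; exact nuI_compl_In P

variable {P}

lemma DensHyp.measurable_pd (h : DensHyp P n) : Measurable fun y : E n => ENNReal.ofReal (pd P y) :=
  h.smooth.continuous.measurable.ennreal_ofReal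

lemma DensHyp.nuO_compl_Out (h : DensHyp P n) : (nuO P : Measure (E n)) (Out P)ᶜ = 0 := by
  unfold nuO
  rw [withDensity_apply _ h.measurableSet_Out.compl,
    setLIntegral_congr_fun (g := fun _ => 0) h.measurableSet_Out.compl (fun x hx => by
      simp [h.eq_zero hx])]
  simp

variable (P)

/-! #### the normalisation -/

/-- `∫ η²` -/
noncomputable def Ieta (n : ℕ) : ℝ := ∫ x : E n, eta P x ^ 2

lemma hasCompactSupport_eta_sq : HasCompactSupport (fun x : E n => eta P x ^ 2) := by
  have h := (hasCompactSupport_eta P (n := n)).mul_left (f := eta P)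
  have e : (fun x : E n => eta P x ^ 2) = eta P * eta P := by
    ext x; simp [sq]
  rw [e]; exact h

lemma integrable_eta_sq : Integrable (fun x : E n => eta P x ^ 2) := by
  have hc : Continuous (fun x : E n => eta P x ^ 2) := (contDiff_eta P).continuous.pow 2
  exact hc.integrable_of_hasCompactSupport (hasCompactSupport_eta_sq P)

lemma In_nonempty : (In P : Set (E n)).Nonempty := by
  refine ⟨mk (√((P.t1 + P.t2) / 2)) 0 (fun _ => 0), ?_⟩
  have h0 : 0 ≤ (P.t1 + P.t2) / 2 := by have := P.ht1; have := P.ht12; linarith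
  have h1 : tP (mk (√((P.t1 + P.t2) / 2)) 0 (fun _ => 0) : E n) = (P.t1 + P.t2) / 2 := by
    simp only [tP, mk_zero, mk_one]
    rw [Real.sq_sqrt h0]; ring
  have h2 : tau (mk (√((P.t1 + P.t2) / 2)) 0 (fun _ => 0) : E n) = 0 := by
    simp [tau]
  refine ⟨?_, ?_, ?_⟩
  · rw [h1]; have := P.ht12; linarith
  · rw [h1]; have := P.ht12; linarith
  · rw [h2]; exact P.htau2

lemma Ieta_pos : 0 < Ieta P n := by
  unfold Ieta
  rw [integral_pos_iff_support_of_nonneg (fun x => by positivity) (integrable_eta_sq P)]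
  have : Function.support (fun x : E n => eta P x ^ 2) = In P := by
    rw [← support_eta P]
    ext x
    simp
  rw [this]
  exact (isOpen_In P).measure_pos volume (In_nonempty P)

lemma cN_eq : cN P n = (3 * Ieta P n)⁻¹ := rfl

lemma cN_pos : 0 < cN P n := by
  rw [cN_eq]
  have := Ieta_pos P (n := n)
  positivity

lemma nuI_univ : (nuI P : Measure (E n)) univ = ENNReal.ofReal (Ieta P n) := by
  unfold nuI Ieta
  rw [withDensity_apply _ MeasurableSet.univ, Measure.restrict_univ,
    ofReal_integral_eq_lintegral_ofReal (integrable_eta_sq P)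
      (Filter.Eventually.of_forall fun x => by positivity)]

instance : IsFiniteMeasure (nuI P : Measure (E n)) := ⟨by rw [nuI_univ]; exact ENNReal.ofReal_lt_top⟩

variable {P}

lemma DensHyp.nuO_univ (h : DensHyp P n) (hfm : Measurable (fmap P : E n → E n)) :
    (nuO P : Measure (E n)) univ = ENNReal.ofReal (Ieta P n) := by
  rw [← h.map_f, Measure.map_apply hfm MeasurableSet.univ, preimage_univ, nuI_univ]

lemma DensHyp.isFiniteMeasure_nuO (h : DensHyp P n) (hfm : Measurable (fmap P : E n → E n)) :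
    IsFiniteMeasure (nuO P : Measure (E n)) := ⟨by rw [h.nuO_univ hfm]; exact ENNReal.ofReal_lt_top⟩

lemma DensHyp.rho_nonneg (h : DensHyp P n) (x : E n) : 0 ≤ rho P x := by
  unfold rho
  have h1 := (cN_pos P (n := n)).le
  have h2 := h.nonneg x
  unfold pd at h2
  positivity

/-- the structure of `mu`. -/
lemma DensHyp.mu_eq (h : DensHyp P n) :
    (mu P : Measure (E n)) = ENNReal.ofReal (cN P n) • (nuI P + (2 : ℝ≥0∞) • nuO P) := by
  unfold mu Crest.AnalysisR.OT.measOfDensity nuI nuO
  rw [← withDensity_smul _ h.measurable_pd, ← withDensity_add_left (measurable_eta_sq P),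
    ← withDensity_smul _ ((measurable_eta_sq P).add (h.measurable_pd.const_smul _))]
  congr 1
  ext x
  have h1 := (cN_pos P (n := n)).le
  have h2 := h.nonneg x
  have h3 : (0 : ℝ) ≤ eta P x ^ 2 := by positivity
  simp only [Pi.smul_apply, Pi.add_apply, smul_eq_mul]
  rw [show rho P x = cN P n * (eta P x ^ 2 + 2 * pd P x) from rfl, ENNReal.ofReal_mul h1,
    ENNReal.ofReal_add h3 (by positivity), ENNReal.ofReal_mul (by norm_num)]
  simp

lemma DensHyp.mu_univ (h : DensHyp P n) (hfm : Measurable (fmap P : E n → E n)) :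
    (mu P : Measure (E n)) univ = 1 := by
  have hI := Ieta_pos P (n := n)
  rw [h.mu_eq, Measure.smul_apply, Measure.add_apply, Measure.smul_apply, nuI_univ, h.nuO_univ hfm,
    smul_eq_mul, smul_eq_mul, show (2 : ℝ≥0∞) = ENNReal.ofReal 2 by simp,
    ← ENNReal.ofReal_mul (by norm_num), ← ENNReal.ofReal_add hI.le (by positivity),
    ← ENNReal.ofReal_mul (cN_pos P).le, cN_eq]
  rw [show (3 * Ieta P n)⁻¹ * (Ieta P n + 2 * Ieta P n) = 1 by field_simp; ring]
  simp

lemma DensHyp.isProbabilityMeasure_mu (h : DensHyp P n) (hfm : Measurable (fmap P : E n → E n)) :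
    IsProbabilityMeasure (mu P : Measure (E n)) := ⟨h.mu_univ hfm⟩

lemma DensHyp.contDiff_rho (h : DensHyp P n) : ContDiff ℝ ∞ (rho P : E n → ℝ) := by
  unfold rho
  exact contDiff_const.mul (((contDiff_eta P).pow 2).add (contDiff_const.mul h.smooth))

lemma DensHyp.integral_rho (h : DensHyp P n) (hfm : Measurable (fmap P : E n → E n)) :
    ∫ x : E n, rho P x = 1 := by
  rw [integral_eq_lintegral_of_nonneg_ae (Filter.Eventually.of_forall h.rho_nonneg)
    h.contDiff_rho.continuous.aestronglyMeasurable]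
  have : ∫⁻ x : E n, ENNReal.ofReal (rho P x) = (mu P : Measure (E n)) univ := by
    unfold mu Crest.AnalysisR.OT.measOfDensity
    rw [withDensity_apply _ MeasurableSet.univ, Measure.restrict_univ]
  rw [this, h.mu_univ hfm]
  simp

lemma DensHyp.hasCompactSupport_rho (h : DensHyp P n) : HasCompactSupport (rho P : E n → ℝ) := by
  unfold rho
  apply HasCompactSupport.mul_left
  apply HasCompactSupport.add
  · exact hasCompactSupport_eta_sq P
  · exact h.cpt.mul_left

lemma DensHyp.sqrt_rho (h : DensHyp P n) (hdisj : Disjoint (In P : Set (E n)) (Out P)) (x : E n) :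
    √(rho P x) = √(cN P n) * (eta P x + √2 * √(pd P x)) := by
  have hc := (cN_pos P (n := n)).le
  rw [show rho P x = cN P n * (eta P x ^ 2 + 2 * pd P x) from rfl, Real.sqrt_mul hc]
  congr 1
  by_cases hx : x ∈ In P
  · have : x ∉ Out P := fun h' => (Set.disjoint_left.1 hdisj) hx h'
    rw [h.eq_zero this]
    simp [Real.sqrt_sq (eta_nonneg P x)]
  · rw [eta_eq_zero P hx]
    simp

lemma DensHyp.contDiff_sqrt_rho (h : DensHyp P n) (hdisj : Disjoint (In P : Set (E n)) (Out P)) :
    ContDiff ℝ ∞ (fun x : E n => √(rho P x)) := by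
  have : (fun x : E n => √(rho P x)) = fun x => √(cN P n) * (eta P x + √2 * √(pd P x)) :=
    funext (h.sqrt_rho hdisj)
  rw [this]
  exact contDiff_const.mul ((contDiff_eta P).add (contDiff_const.mul h.smooth_sqrt))

end concrete

/-! ### Part 3: symmetries and the push-forward identities -/

section sym

variable {n : ℕ} (P : Par)

/-- the rotations of the plane `P` as a `RotAction` (helper1's abstract framework). -/
noncomputable def rotAct (n : ℕ) : H1.RotAction (E n) where
  R := rot
  meas := measurable_rot_uncurry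
  zero := rot_zero'
  add := fun s t x => (rot_rot s t x).symm
  period := fun x => by unfold rot; simp

/-- the rotations preserve Lebesgue measure (from `Rot.lean`). -/
def RotPres (n : ℕ) : Prop := ∀ t, MeasurePreserving (rot t : E n → E n) volume volume

lemma rotPres (n : ℕ) : RotPres n := fun t => measurePreserving_rot t

lemma nuI_map_rot (hrot : RotPres n) (t : ℝ) : (nuI P : Measure (E n)).map (rot t) = nuI P :=
  map_withDensity_of_invariant (hrot t) (measurable_eta_sq P) fun x => by rw [eta_rot]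

variable {P}

lemma DensHyp.nuO_map_rot (h : DensHyp P n) (hrot : RotPres n) (t : ℝ) :
    (nuO P : Measure (E n)).map (rot t) = nuO P :=
  map_equivariant (measurable_rot t) (measurable_fmap P (measurable_Bx P)) h.map_f
    (nuI_map_rot P hrot t) (fmap_rot P t)

variable (P)

/-- a unit complex number acts as the rotation by its argument. -/
lemma act_eq_rot_arg {u v : ℝ} (h : u ^ 2 + v ^ 2 = 1) (x : E n) :
    act u v 1 x = rot (Complex.arg ⟨u, v⟩) x := by
  have hn : ‖(⟨u, v⟩ : ℂ)‖ = 1 := by
    rw [Complex.norm_eq_sqrt_sq_add_sq]; simp [h]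
  have hne : (⟨u, v⟩ : ℂ) ≠ 0 := by
    intro h0; rw [h0] at hn; simp at hn
  unfold rot
  rw [Complex.cos_arg hne, Complex.sin_arg, hn]
  simp

/-- rotation angle of `Gmap`. -/
noncomputable def angG (y : E n) : ℝ :=
  Complex.arg ⟨uG P.s (By P y) (tP y), vG P.s (By P y) (tP y)⟩

lemma measurable_angG : Measurable (angG P : E n → ℝ) := by
  have h1 := measurable_tP (n := n)
  have h0 := measurable_By P (n := n)
  have h2 : Measurable fun x : E n => bF P.s (By P x) := (measurable_bF _).comp h0
  have hu : Measurable fun y : E n => uG P.s (By P y) (tP y) := by unfold uG; fun_prop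
  have hv : Measurable fun y : E n => vG P.s (By P y) (tP y) := by unfold vG; fun_prop
  exact Complex.measurable_arg.comp
    (Complex.measurableEquivRealProd.symm.measurable.comp (hu.prodMk hv))

lemma angG_rot (t : ℝ) (y : E n) : angG P (rot t y) = angG P y := by
  unfold angG; rw [By_rot, tP_rot]

lemma Gmap_eq_rot {y : E n} (hy : y ∈ Vdom P) : Gmap P y = rot (angG P y) y := by
  obtain ⟨h0, hk, _, _, hT⟩ := By_facts P hy
  have hb := bF_pos P.hs hk
  exact act_eq_rot_arg (uG_sq_add_vG_sq hb.le hT.le (hb.trans hT).ne') y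

variable {P}

lemma DensHyp.ae_nuO_mem_Out (h : DensHyp P n) : ∀ᵐ y ∂(nuO P : Measure (E n)), y ∈ Out P := by
  rw [ae_iff]; exact h.nuO_compl_Out

lemma DensHyp.nuO_map_Gmap (h : DensHyp P n) (hrot : RotPres n) :
    (nuO P : Measure (E n)).map (Gmap P) = nuO P := by
  have := h.isFiniteMeasure_nuO (measurable_fmap P (measurable_Bx P))
  have hinv : H1.RotInv (rotAct n) (nuO P) := fun t => h.nuO_map_rot hrot t
  have key := H1.map_twist hinv h.ae_nuO_mem_Out (measurable_angG P)
    (fun x _ t => angG_rot P t x)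
  calc (nuO P : Measure (E n)).map (Gmap P)
      = (nuO P).map (fun x => rot (angG P x) x) :=
        Measure.map_congr (h.ae_nuO_mem_Out.mono fun x hx => Gmap_eq_rot P hx.1)
    _ = nuO P := key

lemma DensHyp.map_g (h : DensHyp P n) (hrot : RotPres n) :
    (nuI P : Measure (E n)).map (gmap P) = nuO P := by
  have hfm := measurable_fmap P (measurable_Bx P (n := n))
  have hGm := measurable_Gmap P (measurable_By P (n := n))
  have : (nuI P : Measure (E n)).map (gmap P) = (nuI P).map (Gmap P ∘ fmap P) :=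
    Measure.map_congr ((ae_nuI_mem_In P).mono fun x hx => (Gmap_fmap P (In_subset_Udom P hx)).symm)
  rw [this, ← Measure.map_map hGm hfm, h.map_f, h.nuO_map_Gmap hrot]

lemma DensHyp.mu_restrict_In (h : DensHyp P n) :
    (mu P : Measure (E n)).restrict (In P) = ENNReal.ofReal (cN P n) • nuI P :=
  restrict_In_eq h.mu_eq (nuI_compl_In P) h.nuO_compl_Out (disjoint_In_Out P)

lemma DensHyp.mu_restrict_Out (h : DensHyp P n) :
    (mu P : Measure (E n)).restrict (Out P) = ENNReal.ofReal (cN P n) • ((2 : ℝ≥0∞) • nuO P) :=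
  restrict_Out_eq h.mu_eq (nuI_compl_In P) h.nuO_compl_Out (disjoint_In_Out P)

lemma DensHyp.mu_dec (h : DensHyp P n) :
    (mu P : Measure (E n)) = (mu P).restrict (In P) + (mu P).restrict (Out P) :=
  dec_of_struct h.mu_eq (nuI_compl_In P) h.nuO_compl_Out (disjoint_In_Out P)

lemma DensHyp.mu_compl (h : DensHyp P n) : (mu P : Measure (E n)) (In P ∪ Out P)ᶜ = 0 :=
  compl_null_of_struct h.mu_eq (nuI_compl_In P) h.nuO_compl_Out

lemma DensHyp.mu_In_ne_zero (h : DensHyp P n) : (mu P : Measure (E n)) (In P) ≠ 0 := by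
  have : (mu P : Measure (E n)) (In P) = ((mu P : Measure (E n)).restrict (In P)) univ := by
    rw [Measure.restrict_apply MeasurableSet.univ, univ_inter]
  rw [this, h.mu_restrict_In, Measure.smul_apply, nuI_univ, smul_eq_mul]
  exact mul_ne_zero (ENNReal.ofReal_pos.2 (cN_pos P)).ne' (ENNReal.ofReal_pos.2 (Ieta_pos P)).ne'

lemma DensHyp.map_fmap (h : DensHyp P n) :
    ((mu P : Measure (E n)).restrict (In P)).map (fmap P) = (2⁻¹ : ℝ≥0∞) • (mu P).restrict (Out P) :=
  map_f_of_struct h.mu_restrict_In h.mu_restrict_Out h.map_f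

lemma DensHyp.map_gmap (h : DensHyp P n) (hrot : RotPres n) :
    ((mu P : Measure (E n)).restrict (In P)).map (gmap P) = (2⁻¹ : ℝ≥0∞) • (mu P).restrict (Out P) :=
  map_f_of_struct h.mu_restrict_In h.mu_restrict_Out (h.map_g hrot)

lemma DensHyp.map_Fmap (h : DensHyp P n) :
    ((mu P : Measure (E n)).restrict (Out P)).map (Fmap P) = (2 : ℝ≥0∞) • (mu P).restrict (In P) :=
  map_leftInv_of_struct h.mu_restrict_In h.mu_restrict_Out (measurable_fmap P (measurable_Bx P))
    (measurable_Fmap P (measurable_By P)) h.map_f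
    ((ae_nuI_mem_In P).mono fun _ hx => Fmap_fmap P (In_subset_Udom P hx))

lemma DensHyp.map_Fbar (h : DensHyp P n) (hrot : RotPres n) :
    ((mu P : Measure (E n)).restrict (Out P)).map (Fbar P) = (2 : ℝ≥0∞) • (mu P).restrict (In P) :=
  map_leftInv_of_struct h.mu_restrict_In h.mu_restrict_Out (measurable_gmap P (measurable_Bx P))
    (measurable_Fbar P (measurable_By P)) (h.map_g hrot)
    ((ae_nuI_mem_In P).mono fun _ hx => Fbar_gmap P (In_subset_Udom P hx))

lemma DensHyp.map_Gmap (h : DensHyp P n) (hrot : RotPres n) :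
    ((mu P : Measure (E n)).restrict (Out P)).map (Gmap P) = (mu P).restrict (Out P) := by
  rw [h.mu_restrict_Out, Measure.map_smul, Measure.map_smul, h.nuO_map_Gmap hrot]

lemma DensHyp.map_Gbar (h : DensHyp P n) (hrot : RotPres n) :
    ((mu P : Measure (E n)).restrict (Out P)).map (Gbar P) = (mu P).restrict (Out P) :=
  map_twist_of_struct h.mu_restrict_Out (measurable_gmap P (measurable_Bx P))
    (measurable_Gbar P (measurable_By P)) (h.map_g hrot) h.map_f
    ((ae_nuI_mem_In P).mono fun x hx => by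
      have hU := In_subset_Udom P hx
      rw [← Gmap_fmap P hU, Gbar_Gmap P (fmap_mem_Vdom P hU).1])

lemma DensHyp.mu_Out_map_rot (h : DensHyp P n) (hrot : RotPres n) (t : ℝ) :
    ((mu P : Measure (E n)).restrict (Out P)).map (rot t) = (mu P).restrict (Out P) := by
  rw [h.mu_restrict_Out, Measure.map_smul, Measure.map_smul, h.nuO_map_rot hrot]

variable (P)

lemma tP_pos_of_mem_Out {y : E n} (hy : y ∈ Out P) : 0 < tP y := by
  obtain ⟨_, hk, _, _, hT⟩ := By_facts P hy.1
  exact (bF_pos P.hs hk).trans hT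

lemma mu_Out_tP_zero : ((mu P : Measure (E n)).restrict (Out P)) {x | tP x = 0} = 0 := by
  have hms : MeasurableSet {x : E n | tP x = 0} := measurableSet_eq_fun measurable_tP measurable_const
  rw [Measure.restrict_apply hms]
  have : {x : E n | tP x = 0} ∩ Out P = ∅ := by
    ext x
    simp only [mem_inter_iff, mem_empty_iff_false, iff_false, not_and]
    intro h0 hx
    have := tP_pos_of_mem_Out P hx
    have h0' : tP x = 0 := h0
    linarith
  rw [this, measure_empty]

variable {P}

lemma DensHyp.integral_rho' (h : DensHyp P n) : ∫ x : E n, rho P x = 1 :=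
  h.integral_rho (measurable_fmap P (measurable_Bx P))

lemma DensHyp.prob (h : DensHyp P n) : IsProbabilityMeasure (mu P : Measure (E n)) :=
  h.isProbabilityMeasure_mu (measurable_fmap P (measurable_Bx P))

lemma DensHyp.contDiff_sqrt_rho' (h : DensHyp P n) : ContDiff ℝ ∞ (fun x : E n => √(rho P x)) :=
  h.contDiff_sqrt_rho (disjoint_In_Out P)

end sym

end Crest.Agent.OT3
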