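import Crest.Agent.Lib_OT3.Implicit
import Crest.Agent.Lib_OT3.OneDim
import Crest.Agent.Lib_OT3.OneDimB

/-!
# S0175: smoothness of the parameter functions `By`, `Bx`
-/

set_option autoImplicit false
open MeasureTheory Set Filter
open scoped ENNReal Real ContDiff Topology

namespace Crest.Agent.OT3

variable {n : ℕ}

lemma contDiffAt_wF {s B : ℝ} (hs : 0 < s) (hB : 0 < B) (hB' : B < kap s) :
    ContDiffAt ℝ ∞ (wF s) B := by
  unfold wF
  exact (contDiffAt_aF hs hB).sub (contDiffAt_bF hs hB')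

lemma contDiffAt_Qf {s B : ℝ} (hs : 0 < s) (hB : 0 < B) (hB' : B < kap s) :
    ContDiffAt ℝ ∞ (Qf s) B := by
  unfold Qf
  exact ((contDiffAt_id.pow 2).mul (contDiffAt_wF hs hB hB')).add
    (contDiffAt_const.mul (contDiffAt_bF hs hB'))

theorem By_contDiffOn (P : Par) : ContDiffOn ℝ ∞ (By P (n := n)) (V0 P) := by
  intro y0 hy0
  apply ContDiffAt.contDiffWithinAt
  obtain ⟨hm, hQ⟩ := By_spec P hy0
  have hB : 0 < By P y0 := P.hBlo.trans hm.1
  have hB' : By P y0 < kap P.s := hm.2.trans (B0_lt_kap P.hs)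
  refine contDiffAt_root (f := fun p : E n × ℝ => Qf P.s p.2 - qK P.s p.1) (lo := P.Blo)
    (hi := B0 P.s) (D := Qd P.s (By P y0)) ?_ ?_ (Qd_pos P.hs hB hm.2.le).ne' ?_ hm ?_
  · have h1 : ContDiffAt ℝ ∞ (fun p : E n × ℝ => Qf P.s p.2) (y0, By P y0) :=
      ContDiffAt.comp (y0, By P y0) (contDiffAt_Qf P.hs hB hB') contDiffAt_snd
    have h2 : ContDiffAt ℝ ∞ (fun p : E n × ℝ => qK P.s p.1) (y0, By P y0) :=
      ((contDiff_qK P.s).contDiffAt).comp (y0, By P y0) contDiffAt_fst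
    exact h1.sub h2
  · exact (hasDerivAt_Qf P.hs hB hB').sub_const (qK P.s y0)
  · simp [hQ]
  · refine Eventually.of_forall fun y B hBm h => ?_
    exact By_unique P ⟨hBm.1.le, hBm.2.le⟩ (by simpa [sub_eq_zero] using h)

theorem Bx_contDiffOn (P : Par) : ContDiffOn ℝ ∞ (Bx P (n := n)) (Udom P) := by
  intro x0 hx0
  apply ContDiffAt.contDiffWithinAt
  obtain ⟨hm, hE⟩ := Bx_spec P hx0
  have hB : 0 < Bx P x0 := P.hBlo.trans hm.1
  have hB' : Bx P x0 < kap P.s := hm.2.trans (B0_lt_kap P.hs)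
  have hB'' : Bx P x0 < kap' P.s := hB'.trans (kap_lt_kap' P.hs)
  refine contDiffAt_root (f := fun p : E n × ℝ => Efun P.s p.2 (tP p.1) (tau p.1)) (lo := P.Blo)
    (hi := B0 P.s) (D := Ed P.s (Bx P x0) (tP x0) (tau x0)) ?_ ?_
    (Ed_pos P.hs hB hB' (tP_nonneg _) (tau_nonneg _)).ne' hE hm ?_
  · unfold Efun
    have hs2 : ContDiffAt ℝ ∞ (fun p : E n × ℝ => p.2) (x0, Bx P x0) := contDiffAt_snd
    have ht : ContDiffAt ℝ ∞ (fun p : E n × ℝ => tP p.1) (x0, Bx P x0) :=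
      (contDiff_tP.contDiffAt).comp (x0, Bx P x0) contDiffAt_fst
    have hτ : ContDiffAt ℝ ∞ (fun p : E n × ℝ => tau p.1) (x0, Bx P x0) :=
      (contDiff_tau.contDiffAt).comp (x0, Bx P x0) contDiffAt_fst
    have hw : ContDiffAt ℝ ∞ (fun p : E n × ℝ => wF P.s p.2) (x0, Bx P x0) :=
      ContDiffAt.comp (x0, Bx P x0) (contDiffAt_wF P.hs hB hB') contDiffAt_snd
    have h1 : ContDiffAt ℝ ∞ (fun p : E n × ℝ => kap P.s / (kap P.s - p.2)) (x0, Bx P x0) :=
      contDiffAt_const.div (contDiffAt_const.sub hs2) (sub_pos.2 hB').ne'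
    have h2 : ContDiffAt ℝ ∞ (fun p : E n × ℝ => kap' P.s / (kap' P.s - p.2)) (x0, Bx P x0) :=
      contDiffAt_const.div (contDiffAt_const.sub hs2) (sub_pos.2 hB'').ne'
    exact (((h1.pow 2).mul ht).add ((h2.pow 2).mul hτ)).sub hw
  · exact hasDerivAt_Efun P.hs hB hB' (tP x0) (tau x0)
  · refine Eventually.of_forall fun x B hBm h => ?_
    exact Bx_unique P ⟨hBm.1.le, hBm.2.le⟩ h

end Crest.Agent.OT3
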