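import Crest.Agent.Lib_OT3.Density
import Crest.Agent.Lib_OT3.Maps
import Crest.Agent.Lib_OT3.OneDimC
import Crest.Agent.Lib_OT3.MeasFacts

/-!
# S0175: `Density.lean` applied to `fmap P : Udom P → Vdom P`, `Fmap P`, `eta P`
-/

set_option autoImplicit false
open MeasureTheory Set
open scoped ENNReal ContDiff

namespace Crest.Agent.OT3

variable {n : ℕ}

theorem diffeoData (P : Par) (n : ℕ) :
    DiffeoData (Udom P : Set (E n)) (Vdom P) (fmap P) (Fmap P) (eta P) where
  hU := isOpen_Udom P
  hV := isOpen_Vdom P (By_contDiffOn P) (fun _ hy => (By_spec P hy).1)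
  hf := contDiffOn_fmap P (Bx_contDiffOn P) (fun _ hx => (Bx_spec P hx).1)
  hF := contDiffOn_Fmap P (By_contDiffOn P) (fun _ hy => (By_spec P hy).1)
  fU := fun _ hx => (fmap_mem_Vdom P hx).1
  FV := fun _ hy => Fmap_mem_Udom P hy
  Ff := fun _ hx => Fmap_fmap P hx
  fF := fun _ hy => fmap_Fmap P hy
  fm := measurable_fmap P (measurable_Bx P)
  hη := contDiff_eta P
  η0 := eta_nonneg P
  ηc := hasCompactSupport_eta P
  ηU := tsupport_eta_subset P

theorem densHyp (P : Par) (n : ℕ) : DensHyp P n where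
  map_f := (diffeoData P n).map_f
  smooth := (diffeoData P n).contDiff_pushDens
  cpt := (diffeoData P n).hasCompactSupport_pushDens
  smooth_sqrt := (diffeoData P n).contDiff_sqrt_pushDens
  nonneg := DiffeoData.pushDens_nonneg
  pos_iff := (diffeoData P n).pushDens_pos_iff

end Crest.Agent.OT3
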