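import Mathlib
import Crest.Agent.Lib_OT3.Common
import Crest.Agent.Lib_OT3.Basic
import Crest.Agent.Lib_OT3.Ineq
import Crest.Agent.Lib_OT3.Maps
import Crest.Agent.Lib_OT3.Approx

/-!
# S0175, module Potential: the potentials `pp`, `vv` and the hypotheses `hineq`, `heq`, `hrig`
of `Abstract.abstract_main` for `c = tripleCost P.s`; closeness lemma for rotated configurations.

The facts coming from `OneDim.lean` / `Config.lean` are bundled in `ConfigFacts`.
-/

set_option autoImplicit false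

namespace Crest.Agent.OT3

open MeasureTheory Set
open scoped ENNReal
open Crest.AnalysisR.OT

variable {n : ℕ}

/-- what `Potential.lean` needs from `OneDim.lean` and `Config.lean`. -/
structure ConfigFacts (P : Par) (n : ℕ) : Prop where
  disj : Disjoint (In P : Set (E n)) (Out P)
  Bx_mem : ∀ x ∈ (In P : Set (E n)), 0 < Bx P x ∧ Bx P x ≤ B0 P.s
  G_out : ∀ y ∈ (Out P : Set (E n)), Gmap P y ∈ Out P
  eqc : ∀ y ∈ (Out P : Set (E n)), EqCond P.s (Bx P (Fmap P y)) (Fmap P y) y (Gmap P y)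
  rig : ∀ x ∈ (In P : Set (E n)), ∀ y z : E n, EqCond P.s (Bx P x) x y z →
    x = Fmap P y ∨ x = Fbar P y
  C0_le : ∀ B, 0 < B → B ≤ B0 P.s → C0 P.s B ≤ 3 * sg P.s

variable {P : Par}

lemma NK_nonneg (hs : 0 < P.s) (y : E n) : 0 ≤ NK P.s y := by
  unfold NK
  have := kap_pos hs
  have := (kap_pos hs).trans (kap_lt_kap' hs)
  have := tP_nonneg y
  have := tau_nonneg y
  positivity

lemma costR_nonneg (s : ℝ) (x y z : E n) : 0 ≤ costR s x y z := by
  unfold costR; positivity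

lemma costR_cyc (s : ℝ) (x y z : E n) : costR s x y z = costR s y z x := by
  unfold costR
  rw [norm_sub_rev y x, norm_sub_rev z x]; ring

lemma costR_swap (s : ℝ) (x y z : E n) : costR s x y z = costR s x z y := by
  unfold costR
  rw [norm_sub_rev z y]; ring

lemma pp_of_mem {x : E n} (h : x ∈ In P) :
    pp P x = ENNReal.ofReal (Phi P.s (Bx P x) (tP x) (tau x)) := by
  unfold pp; rw [if_pos h]

lemma pp_of_not_mem {x : E n} (h : x ∉ In P) : pp P x = 0 := by
  unfold pp; rw [if_neg h]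

lemma vv_of_mem {x : E n} (h : x ∈ Out P) : vv P x = ENNReal.ofReal (NK P.s x) := by
  unfold vv; rw [if_pos h]

lemma vv_of_not_mem {x : E n} (h : x ∉ Out P) : vv P x = 0 := by
  unfold vv; rw [if_neg h]

lemma Phi_le_C0 (hs : 0 < P.s) {B t τ : ℝ} (hB : 0 < B) (hBk : B < kap P.s) (ht : 0 ≤ t)
    (hτ : 0 ≤ τ) : Phi P.s B t τ ≤ C0 P.s B := by
  unfold Phi
  have h1 : 0 < kap P.s - B := by linarith
  have h2 : 0 < kap' P.s - B := by have := kap_lt_kap' hs; linarith
  have h3 := kap_pos hs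
  have h4 : 0 < kap' P.s := h3.trans (kap_lt_kap' hs)
  have : 0 ≤ 2 * B * (kap P.s * t / (kap P.s - B) + kap' P.s * τ / (kap' P.s - B)) := by positivity
  linarith

lemma pp_le (H : ConfigFacts P n) (x : E n) : pp P x ≤ ENNReal.ofReal (3 * sg P.s) := by
  by_cases h : x ∈ In P
  · rw [pp_of_mem h]
    apply ENNReal.ofReal_le_ofReal
    obtain ⟨h1, h2⟩ := H.Bx_mem x h
    exact (Phi_le_C0 P.hs h1 (h2.trans_lt (B0_lt_kap P.hs)) (tP_nonneg x) (tau_nonneg x)).trans
      (H.C0_le _ h1 h2)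
  · rw [pp_of_not_mem h]; exact zero_le

lemma norm_lt_of_mem_In {x : E n} (h : x ∈ In P) : ‖x‖ < √(P.t2 + P.tau2) := by
  obtain ⟨_, h2, h3⟩ := h
  apply Real.lt_sqrt_of_sq_lt
  rw [norm_sq]; linarith

/-- two inner points are expensive. -/
lemma pairCost_In {x y : E n} (hx : x ∈ In P) (hy : y ∈ In P) :
    ENNReal.ofReal (6 * sg P.s) < pairCost P.s x y := by
  by_cases hxy : x = y
  · subst hxy; rw [pairCost_self P.hs]; exact ENNReal.ofReal_lt_top
  · rw [pairCost_of_ne _ hxy]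
    have hpos : 0 < ‖x - y‖ := norm_pos_iff.mpr (sub_ne_zero.mpr hxy)
    have hle : ‖x - y‖ ≤ 2 * √(P.t2 + P.tau2) := by
      have := norm_sub_le x y
      have := norm_lt_of_mem_In hx
      have := norm_lt_of_mem_In hy
      linarith
    have h1 : (2 * √(P.t2 + P.tau2)) ^ (-P.s) ≤ ‖x - y‖ ^ (-P.s) :=
      Real.rpow_le_rpow_of_nonpos hpos hle (by have := P.hs; linarith)
    have h2 := P.h_small
    exact (ENNReal.ofReal_lt_ofReal_iff (by positivity)).mpr (lt_of_lt_of_le h2 h1)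

lemma sg_pos' : 0 < sg P.s := sg_pos P.hs

/-- two inner points in the first two slots: strict inequality. -/
lemma two_inner (H : ConfigFacts P n) {x y : E n} (hx : x ∈ In P) (hy : y ∈ In P) (z : E n) :
    pp P x + pp P y + pp P z < tripleCost P.s (x, y, z) := by
  have hσ : 0 < sg P.s := sg_pos'
  have e6 : ENNReal.ofReal (3 * sg P.s) + ENNReal.ofReal (3 * sg P.s) = ENNReal.ofReal (6 * sg P.s) := by
    rw [← ENNReal.ofReal_add (by positivity) (by positivity)]; congr 1; ring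
  have hxy := pairCost_In hx hy
  have h2 : pp P x + pp P y ≤ ENNReal.ofReal (6 * sg P.s) := by
    rw [← e6]; exact add_le_add (pp_le H x) (pp_le H y)
  unfold tripleCost
  simp only
  by_cases hz : z ∈ In P
  · have hxz := pairCost_In hx hz
    have h3 : pp P z ≤ ENNReal.ofReal (6 * sg P.s) :=
      (pp_le H z).trans (ENNReal.ofReal_le_ofReal (by linarith))
    calc pp P x + pp P y + pp P z ≤ ENNReal.ofReal (6 * sg P.s) + ENNReal.ofReal (6 * sg P.s) :=
          add_le_add h2 h3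
      _ < pairCost P.s x y + pairCost P.s x z := ENNReal.add_lt_add hxy hxz
      _ ≤ pairCost P.s x y + pairCost P.s x z + pairCost P.s y z := le_self_add
  · rw [pp_of_not_mem hz, add_zero]
    calc pp P x + pp P y ≤ ENNReal.ofReal (6 * sg P.s) := h2
      _ < pairCost P.s x y := hxy
      _ ≤ pairCost P.s x y + pairCost P.s x z + pairCost P.s y z := by
          rw [add_assoc]; exact le_self_add

/-- one inner point in the first slot. -/
lemma one_inner (H : ConfigFacts P n) {x : E n} (hx : x ∈ In P) (y z : E n) :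
    pp P x ≤ tripleCost P.s (x, y, z) + (ENNReal.ofReal (NK P.s y) + ENNReal.ofReal (NK P.s z)) := by
  by_cases hc : x = y ∨ x = z ∨ y = z
  · rw [tripleCost_eq_top P.hs hc]; simp
  · push Not at hc
    obtain ⟨hxy, hxz, hyz⟩ := hc
    obtain ⟨h1, h2⟩ := H.Bx_mem x hx
    have hm := main_ineq P.hs h1 (h2.trans_lt (B0_lt_kap P.hs)) x y z hxy hxz hyz
    rw [pp_of_mem hx, tripleCost_eq_ofReal _ hxy hxz hyz,
      ← ENNReal.ofReal_add (NK_nonneg P.hs y) (NK_nonneg P.hs z),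
      ← ENNReal.ofReal_add (costR_nonneg _ _ _ _) (add_nonneg (NK_nonneg P.hs y) (NK_nonneg P.hs z))]
    apply ENNReal.ofReal_le_ofReal
    linarith

lemma not_Out_of_In (H : ConfigFacts P n) {x : E n} (hx : x ∈ In P) : x ∉ Out P :=
  fun h => (Set.disjoint_left.mp H.disj) hx h

lemma not_In_of_Out (H : ConfigFacts P n) {x : E n} (hx : x ∈ Out P) : x ∉ In P :=
  fun h => (Set.disjoint_left.mp H.disj) h hx

/-- `hineq` of `abstract_main`. -/
theorem hineq (H : ConfigFacts P n) :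
    ∀ x ∈ (In P ∪ Out P : Set (E n)), ∀ y ∈ (In P ∪ Out P : Set (E n)),
      ∀ z ∈ (In P ∪ Out P : Set (E n)),
      pp P x + pp P y + pp P z ≤ tripleCost P.s (x, y, z) + (vv P x + vv P y + vv P z) := by
  intro x hx y hy z hz
  by_cases ix : x ∈ In P
  · by_cases iy : y ∈ In P
    · exact (two_inner H ix iy z).le.trans le_self_add
    · by_cases iz : z ∈ In P
      · have := two_inner H iz ix y
        rw [show tripleCost P.s (z, x, y) = tripleCost P.s (x, y, z) from
          (tripleCost_cyc P.s z x y)] at this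
        refine le_trans ?_ (this.le.trans le_self_add)
        apply le_of_eq; ring
      · have oy : y ∈ Out P := hy.resolve_left iy
        have oz : z ∈ Out P := hz.resolve_left iz
        rw [pp_of_not_mem iy, pp_of_not_mem iz, vv_of_not_mem (not_Out_of_In H ix), vv_of_mem oy,
          vv_of_mem oz]
        simpa using one_inner H ix y z
  · have ox : x ∈ Out P := hx.resolve_left ix
    by_cases iy : y ∈ In P
    · by_cases iz : z ∈ In P
      · have := two_inner H iy iz x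
        rw [show tripleCost P.s (y, z, x) = tripleCost P.s (x, y, z) from
          (tripleCost_cyc P.s x y z).symm] at this
        refine le_trans ?_ (this.le.trans le_self_add)
        apply le_of_eq; ring
      · have oz : z ∈ Out P := hz.resolve_left iz
        rw [pp_of_not_mem ix, pp_of_not_mem iz, vv_of_not_mem (not_Out_of_In H iy), vv_of_mem ox,
          vv_of_mem oz, tripleCost_cyc]
        have := one_inner H iy z x
        simp only [zero_add, add_zero]
        rwa [add_comm (ENNReal.ofReal (NK P.s x))]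
    · have oy : y ∈ Out P := hy.resolve_left iy
      by_cases iz : z ∈ In P
      · rw [pp_of_not_mem ix, pp_of_not_mem iy, vv_of_not_mem (not_Out_of_In H iz), vv_of_mem ox,
          vv_of_mem oy, tripleCost_cyc, tripleCost_cyc]
        simpa using one_inner H iz x y
      · rw [pp_of_not_mem ix, pp_of_not_mem iy, pp_of_not_mem iz]
        simp

/-! ### equality -/

lemma EqCond.ne {s B : ℝ} (hs : 0 < s) (hB : 0 < B) (hBk : B < kap s) {x y z : E n}
    (h : EqCond s B x y z) : x ≠ y ∧ x ≠ z ∧ y ≠ z := by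
  obtain ⟨e1, e2, e3, -⟩ := h
  have pa := aF_pos hs hB
  have pb := bF_pos hs hBk
  refine ⟨?_, ?_, ?_⟩
  · rintro rfl; simp at e1; linarith
  · rintro rfl; simp at e2; linarith
  · rintro rfl; simp at e3; linarith

lemma F_in {y : E n} (hy : y ∈ Out P) : Fmap P y ∈ In P := hy.2

/-- real form of `heq`. -/
lemma heq_real (H : ConfigFacts P n) {y : E n} (hy : y ∈ Out P) :
    costR P.s (Fmap P y) y (Gmap P y) + NK P.s y + NK P.s (Gmap P y)
      = Phi P.s (Bx P (Fmap P y)) (tP (Fmap P y)) (tau (Fmap P y)) := by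
  obtain ⟨h1, h2⟩ := H.Bx_mem _ (F_in hy)
  exact main_eq_of P.hs h1 (h2.trans_lt (B0_lt_kap P.hs)) _ _ _ (H.eqc y hy)

/-- `heq` of `abstract_main`. -/
theorem heq (H : ConfigFacts P n) : ∀ y ∈ (Out P : Set (E n)),
    tripleCost P.s (Fmap P y, y, Gmap P y) + (vv P (Fmap P y) + vv P y + vv P (Gmap P y))
      = pp P (Fmap P y) + pp P y + pp P (Gmap P y) := by
  intro y hy
  have hF := F_in hy
  have hG := H.G_out y hy
  obtain ⟨h1, h2⟩ := H.Bx_mem _ hF
  obtain ⟨n1, n2, n3⟩ := (H.eqc y hy).ne P.hs h1 (h2.trans_lt (B0_lt_kap P.hs))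
  rw [vv_of_not_mem (not_Out_of_In H hF), vv_of_mem hy, vv_of_mem hG, pp_of_mem hF,
    pp_of_not_mem (not_In_of_Out H hy), pp_of_not_mem (not_In_of_Out H hG),
    tripleCost_eq_ofReal _ n1 n2 n3, zero_add, add_zero, add_zero,
    ← ENNReal.ofReal_add (NK_nonneg P.hs _) (NK_nonneg P.hs _),
    ← ENNReal.ofReal_add (costR_nonneg _ _ _ _) (add_nonneg (NK_nonneg P.hs _) (NK_nonneg P.hs _)),
    ← heq_real H hy]
  congr 1; ring

lemma pp_ne_top (x : E n) : pp P x ≠ ⊤ := by
  unfold pp; split_ifs <;> simp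

/-- `hrig` of `abstract_main`. -/
theorem hrig (H : ConfigFacts P n) :
    ∀ x ∈ (In P ∪ Out P : Set (E n)), ∀ y ∈ (In P : Set (E n)), ∀ z ∈ (In P ∪ Out P : Set (E n)),
      tripleCost P.s (x, y, z) + (vv P x + vv P y + vv P z) = pp P x + pp P y + pp P z →
        x ∈ Out P ∧ (y = Fmap P x ∨ y = Fbar P x) := by
  intro x hx y iy z hz he
  by_cases ix : x ∈ In P
  · exfalso
    have := two_inner H ix iy z
    rw [← he] at this
    exact absurd this (not_lt.mpr le_self_add)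
  by_cases iz : z ∈ In P
  · exfalso
    have := two_inner H iy iz x
    rw [show tripleCost P.s (y, z, x) = tripleCost P.s (x, y, z) from
      (tripleCost_cyc P.s x y z).symm, show pp P y + pp P z + pp P x = pp P x + pp P y + pp P z by
      ring, ← he] at this
    exact absurd this (not_lt.mpr le_self_add)
  have ox : x ∈ Out P := hx.resolve_left ix
  have oz : z ∈ Out P := hz.resolve_left iz
  refine ⟨ox, ?_⟩
  rw [pp_of_not_mem ix, pp_of_not_mem iz, vv_of_not_mem (not_Out_of_In H iy), vv_of_mem ox,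
    vv_of_mem oz, zero_add, add_zero, add_zero] at he
  by_cases hc : x = y ∨ x = z ∨ y = z
  · exfalso
    rw [tripleCost_eq_top P.hs hc, top_add] at he
    exact pp_ne_top y he.symm
  push Not at hc
  obtain ⟨hxy, hxz, hyz⟩ := hc
  obtain ⟨h1, h2⟩ := H.Bx_mem y iy
  rw [pp_of_mem iy, tripleCost_eq_ofReal _ hxy hxz hyz,
    ← ENNReal.ofReal_add (NK_nonneg P.hs _) (NK_nonneg P.hs _),
    ← ENNReal.ofReal_add (costR_nonneg _ _ _ _) (add_nonneg (NK_nonneg P.hs _) (NK_nonneg P.hs _))]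
    at he
  have hpos : 0 < costR P.s x y z + (NK P.s x + NK P.s z) := by
    have : 0 < costR P.s x y z := by
      unfold costR
      have := norm_pos_iff.mpr (sub_ne_zero.mpr hxy)
      positivity
    have := NK_nonneg P.hs x
    have := NK_nonneg P.hs z
    linarith
  have hle : costR P.s x y z + (NK P.s x + NK P.s z) ≤ Phi P.s (Bx P y) (tP y) (tau y) := by
    rcases (ENNReal.ofReal_le_ofReal_iff').mp he.le with h | h
    · exact h
    · linarith
  have hcost : costR P.s y x z = costR P.s x y z := by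
    rw [costR_cyc P.s x y z, costR_swap]
  exact H.rig y iy x z (main_eq P.hs h1 (h2.trans_lt (B0_lt_kap P.hs)) y x z hxy.symm hyz hxz
    (by rw [hcost]; linarith))

/-! ### measurability and integrability -/

lemma measurable_Phi (s : ℝ) : Measurable (fun q : ℝ × ℝ × ℝ => Phi s q.1 q.2.1 q.2.2) := by
  unfold Phi C0 aF bF
  fun_prop

theorem measurable_pp (hBx : Measurable (Bx P : E n → ℝ)) : Measurable (pp P : E n → ℝ≥0∞) := by
  unfold pp
  refine Measurable.ite (measurableSet_In P) ?_ measurable_const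
  exact ((measurable_Phi P.s).comp
    (hBx.prodMk (measurable_tP.prodMk measurable_tau))).ennreal_ofReal

theorem measurable_vv (hOut : MeasurableSet (Out P : Set (E n))) :
    Measurable (vv P : E n → ℝ≥0∞) := by
  unfold vv
  refine Measurable.ite hOut ?_ measurable_const
  unfold NK
  exact ((measurable_tP.const_mul _).add (measurable_tau.const_mul _)).ennreal_ofReal

lemma NK_le_qK (hs : 0 < P.s) (y : E n) : kap P.s * NK P.s y ≤ qK P.s y := by
  unfold NK qK
  have h1 := kap_pos hs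
  have h2 := kap_lt_kap' hs
  have h3 := tau_nonneg y
  have : kap P.s * kap' P.s * tau y ≤ kap' P.s * kap' P.s * tau y := by
    apply mul_le_mul_of_nonneg_right _ h3
    apply mul_le_mul_of_nonneg_right h2.le (h1.trans h2).le
  nlinarith

lemma normsq_le_qK (hs : 0 < P.s) (y : E n) : kap P.s ^ 2 * ‖y‖ ^ 2 ≤ qK P.s y := by
  rw [norm_sq]
  unfold qK
  have h1 := kap_pos hs
  have h2 := kap_lt_kap' hs
  have h3 := tau_nonneg y
  have : kap P.s ^ 2 * tau y ≤ kap' P.s ^ 2 * tau y := by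
    apply mul_le_mul_of_nonneg_right _ h3
    exact pow_le_pow_left₀ h1.le h2.le 2
  nlinarith

lemma qK_lt_of_Out {y : E n} (hy : y ∈ Out P) : qK P.s y < Qf P.s (B0 P.s) := hy.1.1.2

lemma vv_le (y : E n) : vv P y ≤ ENNReal.ofReal (Qf P.s (B0 P.s) / kap P.s) := by
  by_cases h : y ∈ Out P
  · rw [vv_of_mem h]
    apply ENNReal.ofReal_le_ofReal
    rw [le_div_iff₀ (kap_pos P.hs)]
    have := NK_le_qK P.hs y
    have := qK_lt_of_Out h
    linarith
  · rw [vv_of_not_mem h]; exact zero_le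

theorem lintegral_pp_ne_top (H : ConfigFacts P n) (μ : Measure (E n)) [IsFiniteMeasure μ] :
    ∫⁻ x, pp P x ∂μ ≠ ⊤ := by
  refine ne_top_of_le_ne_top ?_ (lintegral_mono (pp_le H))
  rw [lintegral_const]
  exact ENNReal.mul_ne_top ENNReal.ofReal_ne_top (measure_ne_top _ _)

theorem lintegral_vv_ne_top (μ : Measure (E n)) [IsFiniteMeasure μ] :
    ∫⁻ x, vv P x ∂μ ≠ ⊤ := by
  refine ne_top_of_le_ne_top ?_ (lintegral_mono (vv_le (P := P)))
  rw [lintegral_const]
  exact ENNReal.mul_ne_top ENNReal.ofReal_ne_top (measure_ne_top _ _)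

/-! ### closeness -/

lemma pot_norm_rot_sub_self_le (δ : ℝ) (y : E n) : ‖rot δ y - y‖ ≤ |δ| * ‖y‖ := by
  apply abs_le_of_sq_le_sq' _ (by positivity) |>.2
  rw [rot, norm_act_sub_self_sq, mul_pow, sq_abs, norm_sq]
  have h1 := Real.one_sub_sq_div_two_le_cos (x := δ)
  have h2 := Real.sin_sq_add_cos_sq δ
  have h3 := tP_nonneg y
  have h4 := tau_nonneg y
  have e : (Real.cos δ - 1) ^ 2 + Real.sin δ ^ 2 = 2 - 2 * Real.cos δ := by nlinarith
  rw [e]
  have h5 : 2 - 2 * Real.cos δ ≤ δ ^ 2 := by linarith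
  have h6 : (2 - 2 * Real.cos δ) * tP y ≤ δ ^ 2 * tP y := mul_le_mul_of_nonneg_right h5 h3
  have h7 : 0 ≤ δ ^ 2 * tau y := by positivity
  nlinarith

/-- one-dimensional estimate. -/
lemma rpow_close {s ρ t u η : ℝ} (hs : 0 < s) (hρ : 0 < ρ) (hu : ρ ≤ u) (ht : 0 < t)
    (hut : t - u ≤ η) (hη : 0 ≤ η) : u ^ (-s) ≤ t ^ (-s) + s * ρ ^ (-s - 1) * η := by
  have hu0 : 0 < u := hρ.trans_le hu
  have h := Gen.rpow_neg_tangent hs hu0 ht
  have h1 : u ^ (-s - 1) ≤ ρ ^ (-s - 1) := Real.rpow_le_rpow_of_nonpos hρ hu (by linarith)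
  have h2 : 0 ≤ u ^ (-s - 1) := by positivity
  have h3 : s * u ^ (-s - 1) * (t - u) ≤ s * u ^ (-s - 1) * η :=
    mul_le_mul_of_nonneg_left hut (by positivity)
  have h4 : s * u ^ (-s - 1) * η ≤ s * ρ ^ (-s - 1) * η :=
    mul_le_mul_of_nonneg_right (mul_le_mul_of_nonneg_left h1 hs.le) hη
  linarith

/-- moving two points by at most `η` each. -/
lemma pair_close {s ρ η : ℝ} (hs : 0 < s) (hρ : 0 < ρ) (hη : 0 ≤ η) (hηρ : 2 * η ≤ ρ)
    {a b a' b' : E n} (hab : 2 * ρ ≤ ‖a - b‖) (ha : ‖a' - a‖ ≤ η) (hb : ‖b' - b‖ ≤ η) :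
    a' ≠ b' ∧ ‖a' - b'‖ ^ (-s) ≤ ‖a - b‖ ^ (-s) + s * ρ ^ (-s - 1) * (2 * η) := by
  have h1 : ‖a - b‖ ≤ ‖a' - b'‖ + 2 * η := by
    have e : a - b = (a' - b') - (a' - a) + (b' - b) := by abel
    calc ‖a - b‖ = ‖(a' - b') - (a' - a) + (b' - b)‖ := by rw [← e]
      _ ≤ ‖(a' - b') - (a' - a)‖ + ‖b' - b‖ := norm_add_le _ _
      _ ≤ ‖a' - b'‖ + ‖a' - a‖ + ‖b' - b‖ := by
          have := norm_sub_le (a' - b') (a' - a); linarith
      _ ≤ ‖a' - b'‖ + 2 * η := by linarith
  have h2 : ρ ≤ ‖a' - b'‖ := by linarith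
  refine ⟨?_, rpow_close hs hρ h2 (by linarith) (by linarith) (by linarith)⟩
  rintro rfl
  simp at h2
  linarith

/-- closeness for triples (real form). -/
lemma triple_close {s ρ η : ℝ} (hs : 0 < s) (hρ : 0 < ρ) (hη : 0 ≤ η) (hηρ : 2 * η ≤ ρ)
    {w y g y' g' : E n} (h1 : 2 * ρ ≤ ‖w - y‖) (h2 : 2 * ρ ≤ ‖w - g‖) (h3 : 2 * ρ ≤ ‖y - g‖)
    (hy : ‖y' - y‖ ≤ η) (hg : ‖g' - g‖ ≤ η) :
    tripleCost s (w, y', g') ≤ tripleCost s (w, y, g)
      + ENNReal.ofReal (6 * s * ρ ^ (-s - 1) * η) := by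
  have hw : ‖w - w‖ ≤ η := by simpa using hη
  obtain ⟨n1, c1⟩ := pair_close hs hρ hη hηρ h1 hw hy
  obtain ⟨n2, c2⟩ := pair_close hs hρ hη hηρ h2 hw hg
  obtain ⟨n3, c3⟩ := pair_close hs hρ hη hηρ h3 hy hg
  have m1 : w ≠ y := by rintro rfl; simp at h1; linarith
  have m2 : w ≠ g := by rintro rfl; simp at h2; linarith
  have m3 : y ≠ g := by rintro rfl; simp at h3; linarith
  rw [tripleCost_eq_ofReal _ n1 n2 n3, tripleCost_eq_ofReal _ m1 m2 m3,
    ← ENNReal.ofReal_add (costR_nonneg _ _ _ _) (by positivity)]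
  apply ENNReal.ofReal_le_ofReal
  unfold costR
  linarith

/-- lower bound for the squared distances in a configuration. -/
noncomputable def r2 (s : ℝ) : ℝ := min 1 ((s / kap s) ^ (1 / sg s))

lemma r2_pos {s : ℝ} (hs : 0 < s) : 0 < r2 s := by
  unfold r2
  have := kap_pos hs
  exact lt_min one_pos (by positivity)

lemma r2_le_aF {s B : ℝ} (hs : 0 < s) (hB : 0 < B) (hB0 : B ≤ B0 s) : r2 s ≤ aF s B := by
  refine (min_le_left _ _).trans ?_
  unfold aF
  apply Real.one_le_rpow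
  · rw [le_div_iff₀ (by positivity)]
    unfold B0 at hB0; linarith
  · have := sg_pos hs; positivity

lemma r2_le_bF {s B : ℝ} (hs : 0 < s) (hB : 0 < B) (hBk : B < kap s) : r2 s ≤ 4 * bF s B := by
  refine (min_le_right _ _).trans ?_
  unfold bF
  have hk := kap_pos hs
  have hσ := sg_pos hs
  rw [show 4 * ((s / (kap s - B)) ^ (1 / sg s) / 4) = (s / (kap s - B)) ^ (1 / sg s) by ring]
  apply Real.rpow_le_rpow (by positivity) _ (by positivity)
  apply div_le_div_of_nonneg_left hs.le (by linarith) (by linarith)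

lemma le_norm_of_sq {r : ℝ} {v : E n} (h : r ≤ ‖v‖ ^ 2) : 2 * (√r / 2) ≤ ‖v‖ := by
  have : √r ≤ ‖v‖ := by
    rw [← Real.sqrt_sq (norm_nonneg v)]
    exact Real.sqrt_le_sqrt h
  linarith

/-- bound of the norm on `Out`. -/
noncomputable def R0 (s : ℝ) : ℝ := √(Qf s (B0 s) / kap s ^ 2) + 1

lemma R0_pos (s : ℝ) : 0 < R0 s := by unfold R0; positivity

lemma norm_le_R0 {y : E n} (hy : y ∈ Out P) : ‖y‖ ≤ R0 P.s := by
  have h1 := normsq_le_qK P.hs y
  have h2 := qK_lt_of_Out hy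
  have hk := kap_pos P.hs
  have : ‖y‖ ≤ √(Qf P.s (B0 P.s) / kap P.s ^ 2) := by
    apply Real.le_sqrt_of_sq_le
    rw [le_div_iff₀ (by positivity)]
    linarith
  unfold R0; linarith

/-- **closeness lemma**: rotating the two outer points of a configuration by small angles changes
the cost by at most `ε`, uniformly on `Out`. -/
theorem closeness (H : ConfigFacts P n) (ε : ℝ≥0∞) (hε : 0 < ε) :
    ∃ δ : ℝ, 0 < δ ∧ ∀ y ∈ (Out P : Set (E n)), ∀ δ₁ δ₂ : ℝ, |δ₁| ≤ δ → |δ₂| ≤ δ →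
      tripleCost P.s (Fmap P y, rot δ₁ y, rot δ₂ (Gmap P y))
        ≤ tripleCost P.s (Fmap P y, y, Gmap P y) + ε := by
  obtain ⟨e, he0, heε⟩ : ∃ e : ℝ, 0 < e ∧ ENNReal.ofReal e ≤ ε := by
    obtain ⟨e, he0, heε⟩ := ENNReal.lt_iff_exists_real_btwn.mp hε
    exact ⟨e, by simpa using heε.1, heε.2.le⟩
  have hs := P.hs
  set ρ : ℝ := √(r2 P.s) / 2 with hρdef
  have hρ : 0 < ρ := by have := r2_pos hs; positivity
  set M : ℝ := 6 * P.s * ρ ^ (-P.s - 1) with hM
  have hMpos : 0 < M := by positivity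
  have hR := R0_pos P.s
  refine ⟨min (ρ / (2 * R0 P.s)) (e / (M * R0 P.s)), lt_min (by positivity) (by positivity), ?_⟩
  intro y hy δ₁ δ₂ h1 h2
  set δ := min (ρ / (2 * R0 P.s)) (e / (M * R0 P.s)) with hδ
  have hδ0 : 0 ≤ δ := (abs_nonneg _).trans h1
  have hδ1 : δ * R0 P.s * 2 ≤ ρ := by
    have : δ ≤ ρ / (2 * R0 P.s) := min_le_left _ _
    rw [le_div_iff₀ (by positivity)] at this
    linarith
  have hδ2 : M * (δ * R0 P.s) ≤ e := by
    have : δ ≤ e / (M * R0 P.s) := min_le_right _ _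
    rw [le_div_iff₀ (by positivity)] at this
    linarith
  obtain ⟨b1, b2⟩ := H.Bx_mem _ (F_in hy)
  have b3 := b2.trans_lt (B0_lt_kap hs)
  obtain ⟨e1, e2, e3, -⟩ := H.eqc y hy
  have d1 : 2 * ρ ≤ ‖Fmap P y - y‖ := le_norm_of_sq (by rw [e1]; exact r2_le_aF hs b1 b2)
  have d2 : 2 * ρ ≤ ‖Fmap P y - Gmap P y‖ := le_norm_of_sq (by rw [e2]; exact r2_le_aF hs b1 b2)
  have d3 : 2 * ρ ≤ ‖y - Gmap P y‖ := le_norm_of_sq (by rw [e3]; exact r2_le_bF hs b1 b3)
  have c1 : ‖rot δ₁ y - y‖ ≤ δ * R0 P.s :=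
    (pot_norm_rot_sub_self_le _ _).trans (mul_le_mul h1 (norm_le_R0 hy) (norm_nonneg _) hδ0)
  have c2 : ‖rot δ₂ (Gmap P y) - Gmap P y‖ ≤ δ * R0 P.s :=
    (pot_norm_rot_sub_self_le _ _).trans
      (mul_le_mul h2 (norm_le_R0 (H.G_out y hy)) (norm_nonneg _) hδ0)
  refine (triple_close hs hρ (by positivity) (by linarith) d1 d2 d3 c1 c2).trans ?_
  gcongr
  exact (ENNReal.ofReal_le_ofReal hδ2).trans heε

/-! ### rotation invariance -/

lemma pot_act_rot (u v c θ : ℝ) (y : E n) : act u v c (rot θ y) = rot θ (act u v c y) := by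
  unfold rot
  rw [act_act, act_act]
  congr 1 <;> ring

lemma pot_rot_rot (θ θ' : ℝ) (y : E n) : rot θ (rot θ' y) = rot (θ + θ') y := by
  unfold rot
  rw [act_act, Real.cos_add, Real.sin_add]
  congr 1 <;> ring

lemma pot_rot_zero (y : E n) : rot 0 y = y := by
  unfold rot; simp

lemma pot_rot_neg_rot (θ : ℝ) (y : E n) : rot (-θ) (rot θ y) = y := by
  rw [pot_rot_rot]; simp [pot_rot_zero]

lemma pot_By_rot (θ : ℝ) (y : E n) : By P (rot θ y) = By P y := by
  unfold By qK; rw [tP_rot, tau_rot]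

lemma pot_Bx_rot (θ : ℝ) (y : E n) : Bx P (rot θ y) = Bx P y := by
  unfold Bx; rw [tP_rot, tau_rot]

lemma pot_Fmap_rot (θ : ℝ) (y : E n) : Fmap P (rot θ y) = rot θ (Fmap P y) := by
  unfold Fmap; rw [pot_By_rot, tP_rot, pot_act_rot]

lemma pot_In_rot (θ : ℝ) (y : E n) : rot θ y ∈ In P ↔ y ∈ In P := by
  unfold In
  simp only [Set.mem_ofPred_eq, tP_rot, tau_rot]

lemma pot_Vdom_rot (θ : ℝ) (y : E n) : rot θ y ∈ Vdom P ↔ y ∈ Vdom P := by
  unfold Vdom
  simp only [Set.mem_ofPred_eq, tP_rot, pot_By_rot]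
  unfold qK
  rw [tP_rot, tau_rot]

lemma pot_Out_rot (θ : ℝ) (y : E n) : rot θ y ∈ Out P ↔ y ∈ Out P := by
  unfold Out
  simp only [Set.mem_ofPred_eq, pot_Vdom_rot, pot_Fmap_rot, pot_In_rot]

lemma pot_pp_rot (θ : ℝ) (y : E n) : pp P (rot θ y) = pp P y := by
  by_cases h : y ∈ In P
  · rw [pp_of_mem h, pp_of_mem ((pot_In_rot θ y).mpr h), pot_Bx_rot, tP_rot, tau_rot]
  · rw [pp_of_not_mem h, pp_of_not_mem (fun h' => h ((pot_In_rot θ y).mp h'))]

lemma pot_vv_rot (θ : ℝ) (y : E n) : vv P (rot θ y) = vv P y := by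
  by_cases h : y ∈ Out P
  · rw [vv_of_mem h, vv_of_mem ((pot_Out_rot θ y).mpr h)]
    unfold NK; rw [tP_rot, tau_rot]
  · rw [vv_of_not_mem h, vv_of_not_mem (fun h' => h ((pot_Out_rot θ y).mp h'))]

/-! ### the facts from `Maps.lean` -/

theorem configFacts (P : Par) (n : ℕ) : ConfigFacts P n where
  disj := disjoint_In_Out P
  Bx_mem x hx := by
    obtain ⟨h0, -, hI, -, -⟩ := Bx_facts P (In_subset_Udom P hx)
    exact ⟨h0, hI.2.le⟩
  G_out y hy := Gmap_mem_Out P hy
  eqc y hy := by rw [Bx_Fmap P hy.1]; exact eqCond_Fmap P hy.1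
  rig x hx y z h := by
    have hU := In_subset_Udom P hx
    rcases rigid_maps P hU h with ⟨h1, -⟩ | ⟨h1, -⟩
    · left; rw [h1, Fmap_fmap P hU]
    · right; rw [h1, Fbar_gmap P hU]
  C0_le B hB hB' := C0_le P.hs hB hB'

/-! ### measurability, final form -/

lemma pot_measurableSet_Vdom (P : Par) : MeasurableSet (Vdom P : Set (E n)) := by
  have h1 : Measurable (qK P.s : E n → ℝ) := by
    unfold qK
    exact (measurable_tP.const_mul _).add (measurable_tau.const_mul _)
  have h2 : Measurable fun y : E n => bF P.s (By P y) := (measurable_bF _).comp (measurable_By P)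
  exact (h1 measurableSet_Ioo).inter (measurableSet_lt h2 measurable_tP)

lemma pot_measurableSet_Out (P : Par) : MeasurableSet (Out P : Set (E n)) :=
  (pot_measurableSet_Vdom P).inter (measurable_Fmap P (measurable_By P) (measurableSet_In P))

theorem pot_measurable_pp (P : Par) : Measurable (pp P : E n → ℝ≥0∞) :=
  measurable_pp (measurable_Bx P)

theorem pot_measurable_vv (P : Par) : Measurable (vv P : E n → ℝ≥0∞) :=
  measurable_vv (pot_measurableSet_Out P)

/-! ### the pointwise bound for the approximating maps -/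

/-- the defect functional. -/
noncomputable def okTriple (P : Par) (ε : ℝ≥0∞) (x y z : E n) : Prop :=
  tripleCost P.s (x, y, z) + (vv P x + vv P y + vv P z) ≤ pp P x + pp P y + pp P z + ε

lemma okTriple_cyc {ε : ℝ≥0∞} {x y z : E n} (h : okTriple P ε x y z) : okTriple P ε y z x := by
  unfold okTriple at h ⊢
  rw [← tripleCost_cyc, show vv P y + vv P z + vv P x = vv P x + vv P y + vv P z by ring,
    show pp P y + pp P z + pp P x = pp P x + pp P y + pp P z by ring]
  exact h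

lemma okTriple_swap {ε : ℝ≥0∞} {x y z : E n} (h : okTriple P ε x y z) : okTriple P ε x z y := by
  unfold okTriple at h ⊢
  rw [← tripleCost_swap, show vv P x + vv P z + vv P y = vv P x + vv P y + vv P z by ring,
    show pp P x + pp P z + pp P y = pp P x + pp P y + pp P z by ring]
  exact h

theorem happ_core (H : ConfigFacts P n) (ε : ℝ≥0∞) (hε : 0 < ε) :
    ∃ δ : ℝ, 0 < δ ∧ ∀ y ∈ (Out P : Set (E n)), ∀ δ₁ δ₂ : ℝ, |δ₁| ≤ δ → |δ₂| ≤ δ →
      okTriple P ε (Fmap P y) (rot δ₁ y) (rot δ₂ (Gmap P y)) := by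
  obtain ⟨δ, hδ, h⟩ := closeness H ε hε
  refine ⟨δ, hδ, fun y hy δ₁ δ₂ h1 h2 => ?_⟩
  unfold okTriple
  rw [pot_vv_rot, pot_vv_rot, pot_pp_rot, pot_pp_rot, ← heq H y hy]
  calc _ ≤ tripleCost P.s (Fmap P y, y, Gmap P y) + ε
        + (vv P (Fmap P y) + vv P y + vv P (Gmap P y)) := by
        gcongr; exact h y hy δ₁ δ₂ h1 h2
    _ = _ := by ring

/-- **pointwise form of `happ`**: if `He Ho De Do` are rotations by (point dependent) angles
`≤ δ`, then the maps of `Approx.lean` are `ε`-optimal at every point of `In ∪ Out`. -/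
theorem happ_pointwise (P : Par) (n : ℕ) (ε : ℝ≥0∞) (hε : 0 < ε) :
    ∃ δ : ℝ, 0 < δ ∧ ∀ (He Ho De Do : E n → E n) (EN : Set (E n)),
      (∀ x, ∃ t : ℝ, |t| ≤ δ ∧ He x = rot t x) → (∀ x, ∃ t : ℝ, |t| ≤ δ ∧ Ho x = rot t x) →
      (∀ x, ∃ t : ℝ, |t| ≤ δ ∧ De x = rot t x) → (∀ x, ∃ t : ℝ, |t| ≤ δ ∧ Do x = rot t x) →
      ∀ x ∈ (In P ∪ Out P : Set (E n)),
        tripleCost P.s (x, T2map (In P) (Out P) EN (fmap P) (Fmap P) (Gbar P) He Ho De Do x,
            T3map (In P) (Out P) EN (fmap P) (Fbar P) (Gmap P) He Ho De Do x)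
          + (vv P x + vv P (T2map (In P) (Out P) EN (fmap P) (Fmap P) (Gbar P) He Ho De Do x)
            + vv P (T3map (In P) (Out P) EN (fmap P) (Fbar P) (Gmap P) He Ho De Do x))
        ≤ pp P x + pp P (T2map (In P) (Out P) EN (fmap P) (Fmap P) (Gbar P) He Ho De Do x)
            + pp P (T3map (In P) (Out P) EN (fmap P) (Fbar P) (Gmap P) He Ho De Do x) + ε := by
  have H := configFacts P n
  obtain ⟨δ, hδ, h⟩ := happ_core H ε hε
  refine ⟨δ, hδ, fun He Ho De Do EN hHe hHo hDe hDo x hx => ?_⟩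
  change okTriple P ε x _ _
  rcases hx with hx | hx
  · rw [T2map_In hx, T3map_In hx]
    have hy := fmap_mem_Out P hx
    obtain ⟨t1, ht1, e1⟩ := hHe (fmap P x)
    obtain ⟨t2, ht2, e2⟩ := hHo (Gmap P (fmap P x))
    have := h _ hy t1 t2 ht1 ht2
    rw [Fmap_fmap P (In_subset_Udom P hx)] at this
    rw [e1, e2]; exact this
  · by_cases hE : x ∈ EN
    · rw [T2map_EN H.disj hx hE, T3map_EN H.disj hx hE]
      obtain ⟨t, ht, e⟩ := hDe x
      have hy : De x ∈ Out P := by rw [e]; exact (pot_Out_rot t x).mpr hx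
      obtain ⟨t2, ht2, e2⟩ := hHe (Gmap P (De x))
      have hx' : x = rot (-t) (De x) := by rw [e, pot_rot_neg_rot]
      have := h _ hy (-t) t2 (by rwa [abs_neg]) ht2
      rw [← hx', ← e2] at this
      exact okTriple_swap (okTriple_cyc this)
    · rw [T2map_ON H.disj hx hE, T3map_ON H.disj hx hE]
      obtain ⟨t, ht, e⟩ := hDo x
      have hy' : Do x ∈ Out P := by rw [e]; exact (pot_Out_rot t x).mpr hx
      have hy : Gbar P (Do x) ∈ Out P := Gbar_mem_Out P hy'
      obtain ⟨t2, ht2, e2⟩ := hHo (Gbar P (Do x))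
      have hx' : x = rot (-t) (Do x) := by rw [e, pot_rot_neg_rot]
      have := h _ hy t2 (-t) ht2 (by rwa [abs_neg])
      rw [Gmap_Gbar P hy'.1, Fmap_Gbar P hy'.1, ← hx', ← e2] at this
      exact okTriple_swap (okTriple_cyc (okTriple_cyc this))

end Crest.Agent.OT3
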