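import Crest.Agent.Lib_OT3.Abstract
import Crest.Agent.Lib_OT3.Potential
import Crest.Agent.Lib_OT3.MeasFacts

/-!
# S0175: final assembly (everything except the density facts `DensHyp`)
-/

set_option autoImplicit false
open MeasureTheory Set
open scoped ENNReal Real ContDiff
open Crest.AnalysisR.OT

namespace Crest.Agent.OT3

variable {n : ℕ} {P : Par}

/-- the approximating Monge maps -/
theorem happ_final (h : DensHyp P n) (ε : ℝ≥0∞) (hε : 0 < ε) :
    ∃ T₂ T₃ : E n → E n, Measurable T₂ ∧ Measurable T₃ ∧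
      (mu P).map T₂ = mu P ∧ (mu P).map T₃ = mu P ∧
      ∀ᵐ x ∂(mu P : Measure (E n)), tripleCost P.s (x, T₂ x, T₃ x) + (vv P x + vv P (T₂ x) + vv P (T₃ x))
        ≤ pp P x + pp P (T₂ x) + pp P (T₃ x) + ε := by
  obtain ⟨δ, hδ, hpt⟩ := happ_pointwise P n ε hε
  obtain ⟨N, hN⟩ := exists_nat_gt (2 * π / δ)
  have hNpos : (0 : ℝ) < N := lt_trans (by positivity) hN
  have hN0 : 0 < N := by exact_mod_cast hNpos
  have hsmall : 2 * π / N ≤ δ := by
    rw [div_le_iff₀ hNpos]
    rw [div_lt_iff₀ hδ] at hN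
    linarith
  have := h.prob
  have hIn := measurableSet_In P (n := n)
  have hOut := h.measurableSet_Out
  have hEN := measurableSet_EN (n := n) N
  have hdisj := disjoint_In_Out P (n := n)
  have hfm := measurable_fmap P (measurable_Bx P (n := n))
  have hFm := measurable_Fmap P (measurable_By P (n := n))
  have hFbm := measurable_Fbar P (measurable_By P (n := n))
  have hGm := measurable_Gmap P (measurable_By P (n := n))
  have hGbm := measurable_Gbar P (measurable_By P (n := n))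
  have hrot := h.mu_Out_map_rot (rotPres n)
  have h0 := mu_Out_tP_zero P (n := n)
  refine ⟨T2map (In P) (Out P) (EN N) (fmap P) (Fmap P) (Gbar P) (He N) (Ho N) (De N) (Do N),
    T3map (In P) (Out P) (EN N) (fmap P) (Fbar P) (Gmap P) (He N) (Ho N) (De N) (Do N),
    measurable_T2map hIn hOut hEN hfm hFm hGbm (measurable_He N) (measurable_Ho N)
      (measurable_De N) (measurable_Do N),
    measurable_T3map hIn hOut hEN hfm hFbm hGm (measurable_He N) (measurable_Ho N)
      (measurable_De N) (measurable_Do N),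
    map_T2map hIn hOut hEN hdisj h.mu_dec hfm hFm hGbm (measurable_He N) (measurable_Ho N)
      (measurable_De N) (measurable_Do N) h.map_fmap h.map_Fmap (h.map_Gbar (rotPres n))
      (map_He hrot h0 hN0) (map_Ho hrot h0 hN0) (ae_De_He h0 hN0) (ae_Do_Ho h0 hN0),
    map_T3map hIn hOut hEN hdisj h.mu_dec hfm hFbm hGm (measurable_He N) (measurable_Ho N)
      (measurable_De N) (measurable_Do N) h.map_fmap (h.map_Fbar (rotPres n))
      (h.map_Gmap (rotPres n))
      (map_He hrot h0 hN0) (map_Ho hrot h0 hN0) (ae_De_He h0 hN0) (ae_Do_Ho h0 hN0), ?_⟩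
  have hae : ∀ᵐ x ∂(mu P : Measure (E n)), x ∈ In P ∪ Out P := by
    rw [ae_iff]; exact h.mu_compl
  filter_upwards [hae] with x hx
  refine hpt (He N) (Ho N) (De N) (Do N) (EN N) ?_ ?_ ?_ ?_ x hx
  · intro x; obtain ⟨d, hd, e⟩ := He_eq_rot N x; exact ⟨d, hd.trans hsmall, e⟩
  · intro x; obtain ⟨d, hd, e⟩ := Ho_eq_rot N x; exact ⟨d, hd.trans hsmall, e⟩
  · intro x; obtain ⟨d, hd, e⟩ := De_eq_rot N x; exact ⟨d, hd.trans hsmall, e⟩
  · intro x; obtain ⟨d, hd, e⟩ := Do_eq_rot N x; exact ⟨d, hd.trans hsmall, e⟩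

theorem final_of_densHyp (h : DensHyp P n) :
    ∃ ρ : E n → ℝ, (∀ x, 0 ≤ ρ x) ∧ ContDiff ℝ ∞ ρ ∧ HasCompactSupport ρ ∧
      ContDiff ℝ ∞ (fun x => Real.sqrt (ρ x)) ∧ ∫ x, ρ x = 1 ∧
      ∃ π₀ : Measure (E n × E n × E n),
        IsCoupling₃ (measOfDensity ρ) π₀ ∧ ∫⁻ p, tripleCost P.s p ∂π₀ < ⊤ ∧
        (∀ γ : Measure (E n × E n × E n), IsCoupling₃ (measOfDensity ρ) γ →
          ∫⁻ p, tripleCost P.s p ∂π₀ ≤ ∫⁻ p, tripleCost P.s p ∂γ) ∧
        (∀ T₂ T₃ : E n → E n, Measurable T₂ → Measurable T₃ →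
          (measOfDensity ρ).map T₂ = measOfDensity ρ → (measOfDensity ρ).map T₃ = measOfDensity ρ →
          ∫⁻ p, tripleCost P.s p ∂π₀ < ∫⁻ x, tripleCost P.s (x, T₂ x, T₃ x) ∂(measOfDensity ρ)) ∧
        (∀ ε : ℝ≥0∞, 0 < ε → ∃ T₂ T₃ : E n → E n, Measurable T₂ ∧ Measurable T₃ ∧
          (measOfDensity ρ).map T₂ = measOfDensity ρ ∧ (measOfDensity ρ).map T₃ = measOfDensity ρ ∧
          ∫⁻ x, tripleCost P.s (x, T₂ x, T₃ x) ∂(measOfDensity ρ)
            < ∫⁻ p, tripleCost P.s p ∂π₀ + ε) := by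
  refine ⟨rho P (n := n), h.rho_nonneg, h.contDiff_rho, h.hasCompactSupport_rho,
    h.contDiff_sqrt_rho', h.integral_rho', ?_⟩
  have := h.prob
  exact abstract_main (μ := mu P (n := n)) (In := In P) (Out := Out P) (c := tripleCost P.s)
    (p := pp P) (v := vv P) (F := Fmap P) (Fb := Fbar P) (G := Gmap P)
    (measurableSet_In P) h.measurableSet_Out (disjoint_In_Out P) h.mu_compl h.mu_In_ne_zero
    (measurable_tripleCost P.s) (tripleCost_cyc P.s) (pot_measurable_pp P) (pot_measurable_vv P)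
    (lintegral_pp_ne_top (configFacts P n) _) (lintegral_vv_ne_top _)
    (hineq (configFacts P n))
    (measurable_Fmap P (measurable_By P)) (measurable_Fbar P (measurable_By P))
    (measurable_Gmap P (measurable_By P))
    h.map_Fmap (h.map_Fbar (rotPres n)) (h.map_Gmap (rotPres n))
    (injOn_Fmap P) (injOn_Fbar P) (heq (configFacts P n)) (hrig (configFacts P n))
    (happ_final h)

end Crest.Agent.OT3
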