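import Mathlib

/-!
# One-dimensional lemmas for the angular cell maps (helper1, S0175 skeleton)
-/

set_option autoImplicit false
open MeasureTheory Set
open scoped ENNReal

namespace Crest.Agent.OT3.H1

theorem lintegral_Ioc_periodic {T : ℝ} (hT : 0 < T) {Θ : ℝ → ℝ≥0∞} (hΘ : Function.Periodic Θ T)
    (a b : ℝ) : ∫⁻ t in Ioc a (a + T), Θ t = ∫⁻ t in Ioc b (b + T), Θ t := by
  have : Fact (0 < T) := ⟨hT⟩
  have h1 := AddCircle.lintegral_preimage T a hΘ.lift
  have h2 := AddCircle.lintegral_preimage T b hΘ.lift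
  simp only [Function.Periodic.lift_coe] at h1 h2
  rw [h1, h2]

theorem lintegral_Ioc_shift (Γ : ℝ → ℝ≥0∞) (a b δ : ℝ) :
    ∫⁻ t in Ioc a b, Γ (t + δ) = ∫⁻ t in Ioc (a + δ) (b + δ), Γ t := by
  have h := (measurePreserving_add_right (volume : Measure ℝ) δ).setLIntegral_comp_preimage_emb
    (measurableEmbedding_addRight δ) Γ (Ioc (a + δ) (b + δ))
  rw [← h]
  congr 2
  ext t; simp

/-- twist: shifting a periodic function does not change its integral over a period -/
theorem lintegral_period_shift {T : ℝ} (hT : 0 < T) {Γ : ℝ → ℝ≥0∞} (hΓ : Function.Periodic Γ T)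
    (δ : ℝ) : ∫⁻ t in Ioc 0 T, Γ (t + δ) = ∫⁻ t in Ioc 0 T, Γ t := by
  rw [lintegral_Ioc_shift]
  have := lintegral_Ioc_periodic hT hΓ (0 + δ) 0
  rw [show (0 + δ + T) = T + δ by ring, zero_add] at this
  rw [zero_add] at this ⊢
  exact this

theorem map_affine_two (c : ℝ) :
    (volume : Measure ℝ).map (fun t => 2 * t + c) = (2⁻¹ : ℝ≥0∞) • (volume : Measure ℝ) := by
  have h1 : (fun t : ℝ => 2 * t + c) = (fun t => t + c) ∘ (fun t => 2 * t) := rfl
  rw [h1, ← Measure.map_map (measurable_add_const c) (measurable_const_mul 2),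
    Real.map_volume_mul_left (two_ne_zero), Measure.map_smul, map_add_right_eq_self]
  congr 1
  rw [abs_of_pos (by norm_num), ENNReal.ofReal_inv_of_pos (by norm_num)]
  norm_num

/-- one cell -/
theorem cell_one {Γ : ℝ → ℝ≥0∞} (hΓ : Measurable Γ) (a w : ℝ) (hw : 0 < w) (j : ℤ) (ι : ℝ)
    (hι : ι = 0 ∨ ι = 1) :
    ∫⁻ t in Ico (-a + j * w) (-a + (j + 1) * w),
      {t : ℝ | ι / 2 ≤ Int.fract ((a + t) / w) ∧ Int.fract ((a + t) / w) < (ι + 1) / 2}.indicator
        (fun t => Γ (t + w * (Int.fract ((a + t) / w) - ι))) t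
      = 2⁻¹ * ∫⁻ t in Ico (-a + j * w) (-a + (j + 1) * w), Γ t := by
  set C := Ico (-a + j * w) (-a + (j + 1) * w) with hC
  set A : ℝ → ℝ := fun t => 2 * t + (a - (j + ι) * w) with hA
  have hAm : Measurable A := by fun_prop
  have hfr : ∀ t ∈ C, Int.fract ((a + t) / w) = (a + t) / w - j := by
    intro t ht
    have h1 : (j : ℝ) ≤ (a + t) / w := by
      rw [le_div_iff₀ hw]; linarith [ht.1]
    have h2 : (a + t) / w < j + 1 := by
      rw [div_lt_iff₀ hw]; linarith [ht.2]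
    have : ⌊(a + t) / w⌋ = j := Int.floor_eq_iff.2 ⟨h1, h2⟩
    rw [Int.fract, this]
  -- pointwise identity
  have hpt : ∀ t, C.indicator ({t : ℝ | ι / 2 ≤ Int.fract ((a + t) / w) ∧
      Int.fract ((a + t) / w) < (ι + 1) / 2}.indicator
        (fun t => Γ (t + w * (Int.fract ((a + t) / w) - ι)))) t = C.indicator Γ (A t) := by
    intro t
    by_cases ht : t ∈ C
    · rw [indicator_of_mem ht]
      have e := hfr t ht
      have hD : t + w * (Int.fract ((a + t) / w) - ι) = A t := by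
        rw [e, hA]; field_simp; ring
      have hiff : (ι / 2 ≤ Int.fract ((a + t) / w) ∧ Int.fract ((a + t) / w) < (ι + 1) / 2) ↔
          A t ∈ C := by
        rw [e, hA, hC, mem_Ico, le_sub_iff_add_le, le_div_iff₀ hw, sub_lt_iff_lt_add,
          div_lt_iff₀ hw]
        constructor
        · rintro ⟨h1, h2⟩; constructor <;> nlinarith
        · rintro ⟨h1, h2⟩; constructor <;> nlinarith
      simp only [indicator_apply, mem_ofPred_eq, hiff, hD]
    · rw [indicator_of_notMem ht, indicator_of_notMem]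
      intro hh
      apply ht
      rw [hA, hC, mem_Ico] at hh
      rw [hC, mem_Ico]
      rcases hι with rfl | rfl
      · constructor <;> nlinarith [hh.1, hh.2]
      · constructor <;> nlinarith [hh.1, hh.2]
  rw [← lintegral_indicator measurableSet_Ico, ← lintegral_indicator measurableSet_Ico]
  rw [lintegral_congr hpt]
  have := lintegral_map (μ := (volume : Measure ℝ)) (hΓ.indicator (measurableSet_Ico (a := -a + j * w)
    (b := -a + (j + 1) * w))) hAm
  rw [← this, hA, map_affine_two, lintegral_smul_measure]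
  rfl

/-- the integrand of the cell lemma -/
noncomputable def cellFun (Γ : ℝ → ℝ≥0∞) (a w ι : ℝ) : ℝ → ℝ≥0∞ :=
  {t : ℝ | ι / 2 ≤ Int.fract ((a + t) / w) ∧ Int.fract ((a + t) / w) < (ι + 1) / 2}.indicator
    (fun t => Γ (t + w * (Int.fract ((a + t) / w) - ι)))

theorem cell_sum {Γ : ℝ → ℝ≥0∞} (hΓ : Measurable Γ) (a w : ℝ) (hw : 0 < w) (ι : ℝ)
    (hι : ι = 0 ∨ ι = 1) (n : ℕ) :
    ∫⁻ t in Ico (-a) (-a + n * w), cellFun Γ a w ι t = 2⁻¹ * ∫⁻ t in Ico (-a) (-a + n * w), Γ t := by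
  induction n with
  | zero => simp
  | succ n ih =>
    have h1 : -a ≤ -a + n * w := by have := mul_nonneg (Nat.cast_nonneg n : (0:ℝ) ≤ n) hw.le; linarith
    have h2 : -a + n * w ≤ -a + ((n + 1 : ℕ) : ℝ) * w := by push_cast; nlinarith
    have hU : Ico (-a) (-a + ((n + 1 : ℕ) : ℝ) * w)
        = Ico (-a) (-a + n * w) ∪ Ico (-a + n * w) (-a + ((n + 1 : ℕ) : ℝ) * w) :=
      (Ico_union_Ico_eq_Ico h1 h2).symm
    have hd : Disjoint (Ico (-a) (-a + n * w)) (Ico (-a + n * w) (-a + ((n + 1 : ℕ) : ℝ) * w)) := by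
      rw [Set.disjoint_left]; intro t h h'; exact absurd h.2 (not_lt.2 h'.1)
    rw [hU, lintegral_union measurableSet_Ico hd, lintegral_union measurableSet_Ico hd, ih, mul_add]
    congr 1
    have := cell_one hΓ a w hw (n : ℤ) ι hι
    push_cast at this ⊢
    exact this

theorem cellFun_periodic {Γ : ℝ → ℝ≥0∞} (a w : ℝ) (hw : 0 < w) (ι : ℝ) (N : ℕ)
    (hper : Function.Periodic Γ (N * w)) : Function.Periodic (cellFun Γ a w ι) (N * w) := by
  intro t
  have e : Int.fract ((a + (t + N * w)) / w) = Int.fract ((a + t) / w) := by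
    have : (a + (t + N * w)) / w = (a + t) / w + (N : ℕ) := by field_simp; ring
    rw [this, Int.fract_add_natCast]
  unfold cellFun
  simp only [indicator_apply, mem_ofPred_eq, e]
  have : t + N * w + w * (Int.fract ((a + t) / w) - ι) = (t + w * (Int.fract ((a + t) / w) - ι)) + N * w := by
    ring
  rw [this, hper]

/-- **Cell lemma.** -/
theorem cell_period {Γ : ℝ → ℝ≥0∞} (hΓ : Measurable Γ) (a w : ℝ) (hw : 0 < w) (ι : ℝ)
    (hι : ι = 0 ∨ ι = 1) (N : ℕ) (hN : 0 < N) (hper : Function.Periodic Γ (N * w)) :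
    ∫⁻ t in Ioc 0 (N * w), cellFun Γ a w ι t = 2⁻¹ * ∫⁻ t in Ioc 0 (N * w), Γ t := by
  have hT : 0 < (N : ℝ) * w := mul_pos (Nat.cast_pos.2 hN) hw
  have h1 := lintegral_Ioc_periodic hT (cellFun_periodic a w hw ι N hper) 0 (-a)
  have h2 := lintegral_Ioc_periodic hT hper 0 (-a)
  rw [zero_add] at h1 h2
  rw [h1, h2, ← setLIntegral_congr (Ico_ae_eq_Ioc (μ := volume) (a := -a) (b := -a + N * w)),
    ← setLIntegral_congr (Ico_ae_eq_Ioc (μ := volume) (a := -a) (b := -a + N * w))]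
  exact cell_sum hΓ a w hw ι hι N

end Crest.Agent.OT3.H1
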