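import Mathlib

/-!
# S0175: smooth dependence of the root of a scalar equation
-/

set_option autoImplicit false
open Set Filter
open scoped Topology ContDiff

namespace Crest.Agent.OT3

theorem contDiffAt_root {X : Type*} [NormedAddCommGroup X] [NormedSpace ℝ X] [CompleteSpace X]
    {f : X × ℝ → ℝ} {b : X → ℝ} {x0 : X} {lo hi D : ℝ}
    (hf : ContDiffAt ℝ ∞ f (x0, b x0))
    (hD : HasDerivAt (fun B => f (x0, B)) D (b x0)) (hD0 : D ≠ 0)
    (h0 : f (x0, b x0) = 0) (hmem : b x0 ∈ Ioo lo hi)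
    (huniq : ∀ᶠ x in 𝓝 x0, ∀ B ∈ Ioo lo hi, f (x, B) = 0 → b x = B) :
    ContDiffAt ℝ ∞ b x0 := by
  have pn : (∞ : ℕ∞ω) ≠ 0 := by simp
  have hfd : HasFDerivAt f (fderiv ℝ f (x0, b x0)) (x0, b x0) :=
    (hf.differentiableAt pn).hasFDerivAt
  have hcurve : HasDerivAt (fun B : ℝ => (x0, B)) ((0 : X), (1 : ℝ)) (b x0) :=
    (hasDerivAt_const (b x0) x0).prodMk (hasDerivAt_id (b x0))
  have hcomp : HasDerivAt (fun B => f (x0, B)) (fderiv ℝ f (x0, b x0) ((0 : X), (1 : ℝ))) (b x0) :=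
    hfd.comp_hasDerivAt (b x0) hcurve
  have hDeq : fderiv ℝ f (x0, b x0) ((0 : X), (1 : ℝ)) = D := hcomp.unique hD
  have hinv : (fderiv ℝ f (x0, b x0) ∘L ContinuousLinearMap.inr ℝ X ℝ).IsInvertible := by
    have : fderiv ℝ f (x0, b x0) ∘L ContinuousLinearMap.inr ℝ X ℝ
        = ((ContinuousLinearEquiv.unitsEquivAut ℝ (Units.mk0 D hD0) : ℝ ≃L[ℝ] ℝ) : ℝ →L[ℝ] ℝ) := by
      ext
      simp [hDeq]
    rw [this]
    exact ContinuousLinearMap.isInvertible_equiv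
  set ψ := hf.implicitFunction pn hinv with hψ
  have hψ0 : ψ x0 = b x0 := hf.implicitFunction_apply_self pn hinv
  have hψs : ContDiffAt ℝ ∞ ψ x0 := hf.contDiffAt_implicitFunction pn hinv
  have hψe : ∀ᶠ x in 𝓝 x0, f (x, ψ x) = 0 := by
    have := hf.eventually_apply_implicitFunction pn hinv
    simpa [h0] using this
  have hψm : ∀ᶠ x in 𝓝 x0, ψ x ∈ Ioo lo hi := by
    have hc : ContinuousAt ψ x0 := hψs.continuousAt
    exact hc.eventually_mem (by rw [hψ0]; exact isOpen_Ioo.mem_nhds hmem)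
  have : b =ᶠ[𝓝 x0] ψ := by
    filter_upwards [huniq, hψe, hψm] with x h1 h2 h3 using h1 _ h3 h2
  exact hψs.congr_of_eventuallyEq this

end Crest.Agent.OT3
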