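import Crest.Agent.Lib_OT3.Config

/-!
# S0175: rigidity of the equality configurations
-/

set_option autoImplicit false
open MeasureTheory Set
open scoped ENNReal Real

namespace Crest.Agent.OT3

variable {n : ℕ}

lemma rigid {s B : ℝ} (hs : 0 < s) (hB0 : 0 < B) (hB : B < kap s) {x y z : E n} (ht : 0 < tP x)
    (h1 : ‖x - y‖ ^ 2 = ‖x - z‖ ^ 2) (h3 : ‖y - z‖ ^ 2 = 4 * bF s B)
    (hp : ∀ i : Fin n, y i.succ.succ = z i.succ.succ)
    (m0 : (y 0 + z 0) / 2 = -(B / (kap s - B)) * x 0)
    (m1 : (y 1 + z 1) / 2 = -(B / (kap s - B)) * x 1)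
    (mp : ∀ i : Fin n, (y i.succ.succ + z i.succ.succ) / 2 = -(B / (kap' s - B)) * x i.succ.succ) :
    (y = fB s B x ∧ z = gB s B x) ∨ (y = gB s B x ∧ z = fB s B x) := by
  have hk : 0 < kap s - B := by linarith
  have hb := bF_pos hs hB
  set lam := B / (kap s - B) with hlam
  have hlam0 : 0 < lam := by positivity
  set e0 := (y 0 - z 0) / 2 with he0
  set e1 := (y 1 - z 1) / 2 with he1
  have hy0 : y 0 = -lam * x 0 + e0 := by rw [he0, ← m0]; ring
  have hz0 : z 0 = -lam * x 0 - e0 := by rw [he0, ← m0]; ring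
  have hy1 : y 1 = -lam * x 1 + e1 := by rw [he1, ← m1]; ring
  have hz1 : z 1 = -lam * x 1 - e1 := by rw [he1, ← m1]; ring
  have hyp : ∀ i : Fin n, y i.succ.succ = -(B / (kap' s - B)) * x i.succ.succ := by
    intro i; rw [← mp i, ← hp i]; ring
  have hzp : ∀ i : Fin n, z i.succ.succ = -(B / (kap' s - B)) * x i.succ.succ := by
    intro i; rw [← mp i, hp i]; ring
  -- |e|^2 = b
  have hee : e0 ^ 2 + e1 ^ 2 = bF s B := by
    rw [norm_sub_sq'] at h3
    have : ∑ i : Fin n, (y i.succ.succ - z i.succ.succ) ^ 2 = 0 := by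
      apply Finset.sum_eq_zero; intro i _; rw [hp i]; ring
    rw [this] at h3
    rw [he0, he1]; linarith
  -- x ⊥ e
  have hxe : x 0 * e0 + x 1 * e1 = 0 := by
    rw [norm_sub_sq', norm_sub_sq'] at h1
    have : ∑ i : Fin n, (x i.succ.succ - y i.succ.succ) ^ 2
        = ∑ i : Fin n, (x i.succ.succ - z i.succ.succ) ^ 2 := by
      apply Finset.sum_congr rfl; intro i _; rw [hp i]
    rw [this, hy0, hz0, hy1, hz1] at h1
    have h4 : (1 + lam) * (x 0 * e0 + x 1 * e1) = 0 := by nlinarith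
    rcases mul_eq_zero.mp h4 with h | h
    · linarith
    · exact h
  have htdef : tP x = x 0 ^ 2 + x 1 ^ 2 := rfl
  set c := (x 0 * e1 - x 1 * e0) / tP x with hc
  have hce0 : e0 = -(c * x 1) := by
    rw [hc]; field_simp
    rw [htdef]; linear_combination (x 0) * hxe
  have hce1 : e1 = c * x 0 := by
    rw [hc]; field_simp
    rw [htdef]; linear_combination (x 1) * hxe
  have hc2 : c ^ 2 = (√(bF s B) / √(tP x)) ^ 2 := by
    have hR : (√(bF s B) / √(tP x)) ^ 2 = bF s B / tP x := by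
      rw [div_pow, Real.sq_sqrt hb.le, Real.sq_sqrt ht.le]
    rw [hR, eq_div_iff ht.ne', ← hee]
    have q0 : e0 ^ 2 = c ^ 2 * x 1 ^ 2 := by rw [hce0]; ring
    have q1 : e1 ^ 2 = c ^ 2 * x 0 ^ 2 := by rw [hce1]; ring
    rw [q0, q1, htdef]
    ring
  rcases sq_eq_sq_iff_eq_or_eq_neg.mp hc2 with h | h
  · left
    constructor
    · rw [ext_iff']
      refine ⟨?_, ?_, fun i => ?_⟩
      · simp only [fB, act_zero]; rw [hy0, hce0, ← h]; ring
      · simp only [fB, act_one']; rw [hy1, hce1, ← h]; ring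
      · simp only [fB, act_succ]; exact hyp i
    · rw [ext_iff']
      refine ⟨?_, ?_, fun i => ?_⟩
      · simp only [gB, act_zero]; rw [hz0, hce0, ← h]; ring
      · simp only [gB, act_one']; rw [hz1, hce1, ← h]; ring
      · simp only [gB, act_succ]; exact hzp i
  · right
    have h' : √(bF s B) / √(tP x) = -c := by rw [h]; ring
    constructor
    · rw [ext_iff']
      refine ⟨?_, ?_, fun i => ?_⟩
      · simp only [gB, act_zero]; rw [hy0, hce0, h']; ring
      · simp only [gB, act_one']; rw [hy1, hce1, h']; ring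
      · simp only [gB, act_succ]; exact hyp i
    · rw [ext_iff']
      refine ⟨?_, ?_, fun i => ?_⟩
      · simp only [fB, act_zero]; rw [hz0, hce0, h']; ring
      · simp only [fB, act_one']; rw [hz1, hce1, h']; ring
      · simp only [fB, act_succ]; exact hzp i

end Crest.Agent.OT3
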