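import Crest.Agent.Lib_OT3.Basic

/-!
# S0175: rotations in the plane `P`, rotation invariant measures

* `rot_zero`, `rot_rot`, `rot_add`, `measurePreserving_rot`, joint continuity / measurability;
* `orb x` : uniform measure on the orbit of `x`; `lintegral_orb` (averaging), `map_eq_of_orb`;
* `map_twist` : twisted rotations preserve rotation invariant measures;
* `He Ho De Do EN` : angular compressions / expansions with `N` cells.
-/

set_option autoImplicit false
open MeasureTheory Set
open scoped ENNReal Real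

namespace Crest.Agent.OT3

variable {n : ℕ}

/-! ### algebra of rotations -/

@[simp] lemma rot_zero (x : E n) : rot 0 x = x := by simp [rot]

lemma rot_rot (s t : ℝ) (x : E n) : rot s (rot t x) = rot (s + t) x := by
  simp only [rot, act_act, Real.cos_add, Real.sin_add, mul_one]
  congr 1
  ring

lemma rot_add (s t : ℝ) (x : E n) : rot (s + t) x = rot s (rot t x) := (rot_rot s t x).symm

lemma rot_add_two_pi (t : ℝ) (x : E n) : rot (t + 2 * π) x = rot t x := by
  simp only [rot, Real.cos_add_two_pi, Real.sin_add_two_pi]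

lemma rot_periodic (x : E n) : Function.Periodic (fun t => rot t x) (2 * π) :=
  fun t => rot_add_two_pi t x

lemma rot_neg_rot (t : ℝ) (x : E n) : rot (-t) (rot t x) = x := by
  rw [rot_rot]; simp

lemma rot_rot_neg (t : ℝ) (x : E n) : rot t (rot (-t) x) = x := by
  rw [rot_rot]; simp

lemma rot_of_tP_eq_zero {x : E n} (hx : tP x = 0) (t : ℝ) : rot t x = x := by
  have h0 : x 0 = 0 := by
    have : x 0 ^ 2 ≤ 0 := by unfold tP at hx; nlinarith [sq_nonneg (x 1)]
    exact pow_eq_zero_iff (two_ne_zero) |>.1 (le_antisymm this (sq_nonneg _))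
  have h1 : x 1 = 0 := by
    have : x 1 ^ 2 ≤ 0 := by unfold tP at hx; nlinarith [sq_nonneg (x 0)]
    exact pow_eq_zero_iff (two_ne_zero) |>.1 (le_antisymm this (sq_nonneg _))
  rw [ext_iff']
  refine ⟨?_, ?_, fun i => ?_⟩ <;> simp [rot, h0, h1]

/-! ### continuity and measurability -/

lemma continuous_rot_uncurry : Continuous (fun p : ℝ × E n => rot p.1 p.2) := by
  unfold rot act mk
  apply (PiLp.continuous_toLp 2 _).comp
  apply continuous_pi
  intro i
  refine Fin.cases ?_ (fun j => Fin.cases ?_ (fun k => ?_) j) i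
  · show Continuous fun p : ℝ × E n => Real.cos p.1 * p.2 0 - Real.sin p.1 * p.2 1
    fun_prop
  · show Continuous fun p : ℝ × E n => Real.sin p.1 * p.2 0 + Real.cos p.1 * p.2 1
    fun_prop
  · show Continuous fun p : ℝ × E n => 1 * p.2 k.succ.succ
    fun_prop

lemma measurable_rot_uncurry : Measurable (fun p : ℝ × E n => rot p.1 p.2) :=
  continuous_rot_uncurry.measurable

lemma continuous_rot (t : ℝ) : Continuous (rot t : E n → E n) := by
  have h : Continuous (fun x : E n => ((t, x) : ℝ × E n)) := by fun_prop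
  have h2 := (continuous_rot_uncurry (n := n)).comp h
  have h3 : ((fun p : ℝ × E n => rot p.1 p.2) ∘ fun x : E n => ((t, x) : ℝ × E n)) = rot t := by
    funext x
    rfl
  rw [h3] at h2
  exact h2

lemma measurable_rot (t : ℝ) : Measurable (rot t : E n → E n) := (continuous_rot t).measurable

lemma continuous_rot_left (x : E n) : Continuous (fun t => rot t x) := by
  have h : Continuous (fun t : ℝ => ((t, x) : ℝ × E n)) := by fun_prop
  have h2 := (continuous_rot_uncurry (n := n)).comp h
  have h3 : ((fun p : ℝ × E n => rot p.1 p.2) ∘ fun t : ℝ => ((t, x) : ℝ × E n))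
      = fun t => rot t x := by
    funext x
    rfl
  rw [h3] at h2
  exact h2

lemma measurable_rot_left (x : E n) : Measurable (fun t => rot t x) :=
  (continuous_rot_left x).measurable

lemma measurable_rot_fun {δ : E n → ℝ} (hδ : Measurable δ) :
    Measurable (fun x : E n => rot (δ x) x) := by
  have h : Measurable (fun x : E n => ((δ x, x) : ℝ × E n)) := hδ.prodMk measurable_id
  have h2 := (measurable_rot_uncurry (n := n)).comp h
  have h3 : ((fun p : ℝ × E n => rot p.1 p.2) ∘ fun x : E n => ((δ x, x) : ℝ × E n))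
      = fun x => rot (δ x) x := by
    funext x
    rfl
  rw [h3] at h2
  exact h2

/-! ### rotations preserve Lebesgue measure -/

/-- `rot t` as a linear isometry equivalence. -/
noncomputable def rotL (t : ℝ) : E n ≃ₗᵢ[ℝ] E n where
  toFun := rot t
  map_add' x y := by
    rw [ext_iff']
    refine ⟨?_, ?_, fun i => ?_⟩ <;> simp [rot] <;> ring
  map_smul' c x := by
    rw [ext_iff']
    refine ⟨?_, ?_, fun i => ?_⟩ <;> simp [rot] <;> ring
  invFun := rot (-t)
  left_inv := rot_neg_rot t
  right_inv := rot_rot_neg t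
  norm_map' x := by
    have h : ‖rot t x‖ ^ 2 = ‖x‖ ^ 2 := by rw [norm_sq, norm_sq, tP_rot, tau_rot]
    exact (sq_eq_sq₀ (norm_nonneg _) (norm_nonneg _)).1 h

lemma measurePreserving_rot (t : ℝ) :
    MeasurePreserving (rot t : E n → E n) volume volume :=
  (rotL (n := n) t).measurePreserving

lemma map_rot_volume (t : ℝ) : (volume : Measure (E n)).map (rot t) = volume :=
  (measurePreserving_rot t).map_eq

/-! ### one-dimensional lemmas -/

section oneD
variable {β : Type*} [MeasurableSpace β]

/-- the push-forward of Lebesgue measure on a period window under a periodic map does not depend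
on the window. -/
lemma map_restrict_Ioc_periodic {f : ℝ → β} (hf : Measurable f) {T : ℝ} (hT : 0 < T)
    (hp : Function.Periodic f T) (a b : ℝ) :
    (volume.restrict (Ioc a (a + T))).map f = (volume.restrict (Ioc b (b + T))).map f := by
  ext A hA
  rw [Measure.map_apply hf hA, Measure.map_apply hf hA, Measure.restrict_apply (hf hA),
    Measure.restrict_apply (hf hA)]
  refine (isAddFundamentalDomain_Ioc hT a).measure_set_eq (isAddFundamentalDomain_Ioc hT b)
    (hf hA) ?_
  rintro ⟨g, hg⟩
  obtain ⟨k, rfl⟩ := AddSubgroup.mem_zmultiples_iff.1 hg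
  ext t
  simp only [mem_preimage]
  have : f (k • T + t) = f t := by
    rw [add_comm]
    exact hp.zsmul k t
  show f (k • T + t) ∈ A ↔ f t ∈ A
  rw [this]

lemma map_add_restrict_Ioc (a b c : ℝ) :
    (volume.restrict (Ioc a b)).map (fun t => t + c) = volume.restrict (Ioc (a + c) (b + c)) := by
  have h := (measurePreserving_add_right (volume : Measure ℝ) c).restrict_preimage
    (measurableSet_Ioc (a := a + c) (b := b + c))
  have h2 : (fun t => t + c) ⁻¹' Ioc (a + c) (b + c) = Ioc a b := by
    ext t; simp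
  rw [h2] at h
  exact h.map_eq

lemma map_half_volume (c : ℝ) :
    (volume : Measure ℝ).map (fun t => (t + c) / 2) = (2 : ℝ≥0∞) • volume := by
  have h1 : (fun t : ℝ => (t + c) / 2) = (fun t => (2 : ℝ)⁻¹ * t) ∘ (fun t => t + c) := by
    funext t; simp; ring
  rw [h1, ← Measure.map_map (by fun_prop) (by fun_prop),
    (measurePreserving_add_right (volume : Measure ℝ) c).map_eq,
    Real.map_volume_mul_left (by norm_num)]
  simp

lemma map_half_restrict_Ioc (a b c : ℝ) :
    (volume.restrict (Ioc a b)).map (fun t => (t + c) / 2)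
      = (2 : ℝ≥0∞) • volume.restrict (Ioc ((a + c) / 2) ((b + c) / 2)) := by
  have hm : Measurable (fun t : ℝ => (t + c) / 2) := by fun_prop
  have h2 : (fun t => (t + c) / 2) ⁻¹' Ioc ((a + c) / 2) ((b + c) / 2) = Ioc a b := by
    ext t
    simp only [mem_preimage, mem_Ioc]
    constructor
    · rintro ⟨h1, h2⟩; constructor <;> linarith
    · rintro ⟨h1, h2⟩; constructor <;> linarith
  rw [← h2, ← Measure.restrict_map hm measurableSet_Ioc, map_half_volume, Measure.restrict_smul]

end oneD

/-- relative position (in `[0,1)`, measured from the right end) of `t` in its cell of length `L`;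
the cells are `(π - (k+1) L, π - k L]`. -/
noncomputable def vf (L t : ℝ) : ℝ := Int.fract ((π - t) / L)

lemma measurable_vf (L : ℝ) : Measurable (vf L) := by
  unfold vf
  exact measurable_fract.comp (by fun_prop)

lemma vf_nonneg (L t : ℝ) : 0 ≤ vf L t := Int.fract_nonneg _
lemma vf_lt_one (L t : ℝ) : vf L t < 1 := Int.fract_lt_one _

lemma vf_cell {L : ℝ} (hL : 0 < L) (k : ℤ) {t : ℝ} (ht : t ∈ Ioc (π - (k + 1) * L) (π - k * L)) :
    vf L t = (π - k * L - t) / L := by
  unfold vf
  rw [Int.fract_eq_iff]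
  refine ⟨div_nonneg (by linarith [ht.2]) hL.le, ?_, k, ?_⟩
  · rw [div_lt_one hL]; linarith [ht.1]
  · field_simp; ring

lemma window_of_cells {h : ℝ → ℝ} (hm : Measurable h) {C : Set ℝ} {L : ℝ} (hL : 0 < L)
    (cell : ∀ k : ℕ, (volume.restrict (Ioc (π - (k + 1) * L) (π - k * L))).map h
      = (2 : ℝ≥0∞) • (volume.restrict (Ioc (π - (k + 1) * L) (π - k * L))).restrict C) (N : ℕ) :
    (volume.restrict (Ioc (π - N * L) π)).map h
      = (2 : ℝ≥0∞) • (volume.restrict (Ioc (π - N * L) π)).restrict C := by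
  induction N with
  | zero => simp
  | succ k ih =>
    have hk : (0 : ℝ) ≤ k * L := by positivity
    have hU : Ioc (π - ((k + 1 : ℕ) : ℝ) * L) π
        = Ioc (π - (k + 1) * L) (π - k * L) ∪ Ioc (π - k * L) π := by
      rw [Ioc_union_Ioc_eq_Ioc (by nlinarith) (by linarith)]
      push_cast
      rfl
    have hd : Disjoint (Ioc (π - (k + 1) * L) (π - k * L)) (Ioc (π - k * L) π) := by
      rw [Set.disjoint_left]
      intro t h1 h2
      exact absurd h1.2 (not_le.2 h2.1)
    rw [hU, Measure.restrict_union hd measurableSet_Ioc, Measure.map_add _ _ hm,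
      Measure.restrict_add, smul_add, cell k, ih]

/-- lifted "even" compression: the cell `(e - L, e]` is mapped affinely onto `(e - L/2, e]`. -/
noncomputable def he (L t : ℝ) : ℝ := t + vf L t * L / 2
/-- lifted "odd" compression: the cell `(e - L, e]` is mapped affinely onto `(e - L, e - L/2]`. -/
noncomputable def ho (L t : ℝ) : ℝ := t - (1 - vf L t) * L / 2
/-- the right halves of the cells. -/
def Ce (L : ℝ) : Set ℝ := {t | vf L t < 1 / 2}

lemma measurable_he (L : ℝ) : Measurable (he L) := by
  have := measurable_vf L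
  unfold he; fun_prop
lemma measurable_ho (L : ℝ) : Measurable (ho L) := by
  have := measurable_vf L
  unfold ho; fun_prop
lemma measurableSet_Ce (L : ℝ) : MeasurableSet (Ce L) :=
  measurableSet_lt (measurable_vf L) measurable_const

lemma map_he_cell {L : ℝ} (hL : 0 < L) (k : ℕ) :
    (volume.restrict (Ioc (π - (k + 1) * L) (π - k * L))).map (he L)
      = (2 : ℝ≥0∞) • (volume.restrict (Ioc (π - (k + 1) * L) (π - k * L))).restrict (Ce L) := by
  have h1 : he L =ᵐ[volume.restrict (Ioc (π - (k + 1) * L) (π - k * L))]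
      fun t => (t + (π - k * L)) / 2 := by
    rw [Filter.EventuallyEq, ae_restrict_iff' measurableSet_Ioc]
    refine Filter.Eventually.of_forall fun t ht => ?_
    have := vf_cell hL k (by exact_mod_cast ht)
    unfold he
    rw [this]
    push_cast
    field_simp
    ring
  have h2 : Ce L ∩ Ioc (π - (k + 1) * L) (π - k * L)
      = Ioc ((π - (k + 1) * L + (π - k * L)) / 2) ((π - k * L + (π - k * L)) / 2) := by
    ext t
    simp only [mem_inter_iff, mem_Ioc, Ce, mem_ofPred_eq]
    constructor
    · rintro ⟨h, ht⟩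
      have := vf_cell hL k (t := t) (by exact_mod_cast ht)
      rw [this, div_lt_iff₀ hL] at h
      push_cast at h
      constructor <;> linarith [ht.2]
    · rintro ⟨h3, h4⟩
      have ht : t ∈ Ioc (π - (k + 1) * L) (π - k * L) := by constructor <;> linarith
      have := vf_cell hL k (t := t) (by exact_mod_cast ht)
      refine ⟨?_, ht⟩
      rw [this, div_lt_iff₀ hL]
      push_cast
      linarith
  rw [Measure.map_congr h1, map_half_restrict_Ioc, Measure.restrict_restrict (measurableSet_Ce L),
    h2]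

lemma map_ho_cell {L : ℝ} (hL : 0 < L) (k : ℕ) :
    (volume.restrict (Ioc (π - (k + 1) * L) (π - k * L))).map (ho L)
      = (2 : ℝ≥0∞) • (volume.restrict (Ioc (π - (k + 1) * L) (π - k * L))).restrict (Ce L)ᶜ := by
  have h1 : ho L =ᵐ[volume.restrict (Ioc (π - (k + 1) * L) (π - k * L))]
      fun t => (t + (π - (k + 1) * L)) / 2 := by
    rw [Filter.EventuallyEq, ae_restrict_iff' measurableSet_Ioc]
    refine Filter.Eventually.of_forall fun t ht => ?_
    have := vf_cell hL k (by exact_mod_cast ht)
    unfold ho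
    rw [this]
    push_cast
    field_simp
    ring
  have h2 : (Ce L)ᶜ ∩ Ioc (π - (k + 1) * L) (π - k * L)
      = Ioc ((π - (k + 1) * L + (π - (k + 1) * L)) / 2) ((π - k * L + (π - (k + 1) * L)) / 2) := by
    ext t
    simp only [mem_inter_iff, mem_Ioc, Ce, mem_ofPred_eq, mem_compl_iff, not_lt]
    constructor
    · rintro ⟨h, ht⟩
      have := vf_cell hL k (t := t) (by exact_mod_cast ht)
      rw [this, le_div_iff₀ hL] at h
      push_cast at h
      constructor <;> linarith [ht.1]
    · rintro ⟨h3, h4⟩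
      have ht : t ∈ Ioc (π - (k + 1) * L) (π - k * L) := by constructor <;> linarith
      have := vf_cell hL k (t := t) (by exact_mod_cast ht)
      refine ⟨?_, ht⟩
      rw [this, le_div_iff₀ hL]
      push_cast
      linarith
  rw [Measure.map_congr h1, map_half_restrict_Ioc,
    Measure.restrict_restrict (measurableSet_Ce L).compl, h2]

lemma map_he_window {N : ℕ} (hN : 0 < N) :
    (volume.restrict (Ioc (-π) π)).map (he (2 * π / N))
      = (2 : ℝ≥0∞) • (volume.restrict (Ioc (-π) π)).restrict (Ce (2 * π / N)) := by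
  have hN' : (0 : ℝ) < N := by exact_mod_cast hN
  have hL : 0 < 2 * π / N := by positivity
  have h := window_of_cells (measurable_he _) hL (fun k => map_he_cell hL k) N
  have h2 : π - N * (2 * π / N) = -π := by field_simp; ring
  rwa [h2] at h

lemma map_ho_window {N : ℕ} (hN : 0 < N) :
    (volume.restrict (Ioc (-π) π)).map (ho (2 * π / N))
      = (2 : ℝ≥0∞) • (volume.restrict (Ioc (-π) π)).restrict (Ce (2 * π / N))ᶜ := by
  have hN' : (0 : ℝ) < N := by exact_mod_cast hN
  have hL : 0 < 2 * π / N := by positivity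
  have h := window_of_cells (measurable_ho _) hL (fun k => map_ho_cell hL k) N
  have h2 : π - N * (2 * π / N) = -π := by field_simp; ring
  rwa [h2] at h

/-! ### further one-dimensional facts: the expansions invert the compressions -/

lemma he_facts {N : ℕ} (hN : 0 < N) {t : ℝ} (ht : t ∈ Ioc (-π) π) :
    he (2 * π / N) t ∈ Ioc (-π) π ∧ vf (2 * π / N) (he (2 * π / N) t) = vf (2 * π / N) t / 2 := by
  have hN' : (0 : ℝ) < N := by exact_mod_cast hN
  set L : ℝ := 2 * π / N with hLdef
  have hL : 0 < L := by positivity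
  have hv0 := vf_nonneg L t
  have hv1 := vf_lt_one L t
  have hu : (π - t) / L = ⌊(π - t) / L⌋ + vf L t := (Int.floor_add_fract _).symm
  have hu0 : 0 ≤ (π - t) / L := div_nonneg (by linarith [ht.2]) hL.le
  have hm0 : (0 : ℝ) ≤ ⌊(π - t) / L⌋ := by exact_mod_cast Int.floor_nonneg.2 hu0
  have hut : π - t = (⌊(π - t) / L⌋ + vf L t) * L := by
    rw [← hu]; field_simp
  refine ⟨⟨?_, ?_⟩, ?_⟩
  · unfold he
    have : 0 ≤ vf L t * L := by positivity
    linarith [ht.1]
  · unfold he
    have : 0 ≤ (⌊(π - t) / L⌋ : ℝ) * L := by positivity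
    have : 0 ≤ vf L t * L := by positivity
    nlinarith
  · have h1 : vf L (he L t) = Int.fract ((π - he L t) / L) := rfl
    rw [h1, Int.fract_eq_iff]
    refine ⟨by linarith, by linarith, ⌊(π - t) / L⌋, ?_⟩
    have : π - he L t = (⌊(π - t) / L⌋ + vf L t / 2) * L := by
      unfold he; linarith
    rw [this]
    field_simp
    ring

lemma ho_facts {N : ℕ} (hN : 0 < N) {t : ℝ} (ht : t ∈ Ioc (-π) π) :
    ho (2 * π / N) t ∈ Ioc (-π) π ∧
      vf (2 * π / N) (ho (2 * π / N) t) = (1 + vf (2 * π / N) t) / 2 := by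
  have hN' : (0 : ℝ) < N := by exact_mod_cast hN
  set L : ℝ := 2 * π / N with hLdef
  have hL : 0 < L := by positivity
  have hNL : N * L = 2 * π := by rw [hLdef]; field_simp
  have hv0 := vf_nonneg L t
  have hv1 := vf_lt_one L t
  have hu : (π - t) / L = ⌊(π - t) / L⌋ + vf L t := (Int.floor_add_fract _).symm
  have huN : (π - t) / L < N := by
    rw [div_lt_iff₀ hL, hNL]; linarith [ht.1]
  have hmN : (⌊(π - t) / L⌋ : ℝ) + 1 ≤ N := by
    have h1 : ⌊(π - t) / L⌋ < (N : ℤ) := by
      rw [Int.floor_lt]; exact_mod_cast huN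
    have h2 : ⌊(π - t) / L⌋ + 1 ≤ (N : ℤ) := h1
    exact_mod_cast h2
  have hut : π - t = (⌊(π - t) / L⌋ + vf L t) * L := by
    rw [← hu]; field_simp
  refine ⟨⟨?_, ?_⟩, ?_⟩
  · unfold ho
    have h3 : ((⌊(π - t) / L⌋ : ℝ) + 1) * L ≤ N * L := mul_le_mul_of_nonneg_right hmN hL.le
    have h4 : 0 < (1 - vf L t) * L := mul_pos (by linarith) hL
    nlinarith
  · unfold ho
    have : 0 ≤ (1 - vf L t) * L := mul_nonneg (by linarith) hL.le
    linarith [ht.2]
  · have h1 : vf L (ho L t) = Int.fract ((π - ho L t) / L) := rfl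
    rw [h1, Int.fract_eq_iff]
    refine ⟨by linarith, by linarith, ⌊(π - t) / L⌋, ?_⟩
    have : π - ho L t = (⌊(π - t) / L⌋ + (1 + vf L t) / 2) * L := by
      unfold ho; linarith
    rw [this]
    field_simp
    ring

/-! ### angle and base point -/

/-- the angle of `x_P`, in `(-π, π]`. -/
noncomputable def ang (x : E n) : ℝ := Complex.arg ⟨x 0, x 1⟩
/-- the point of the orbit of `x` on the positive first axis. -/
noncomputable def base (x : E n) : E n := mk (√(tP x)) 0 (perp x)

lemma measurable_ang : Measurable (ang : E n → ℝ) := by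
  have h : Measurable (fun x : E n => (⟨x 0, x 1⟩ : ℂ)) := by
    have h1 : (fun x : E n => (⟨x 0, x 1⟩ : ℂ)) = fun x : E n => (x 0 : ℂ) + (x 1 : ℂ) * Complex.I := by
      funext x; exact Complex.mk_eq_add_mul_I _ _
    rw [h1]
    have h0 : Measurable fun x : E n => x 0 := by fun_prop
    have h1 : Measurable fun x : E n => x 1 := by fun_prop
    exact (Complex.measurable_ofReal.comp h0).add
      ((Complex.measurable_ofReal.comp h1).mul measurable_const)
  exact Complex.measurable_arg.comp h

lemma ang_mem (x : E n) : ang x ∈ Ioc (-π) π := Complex.arg_mem_Ioc _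

lemma rot_ang_base (x : E n) : rot (ang x) (base x) = x := by
  have hn : ‖(⟨x 0, x 1⟩ : ℂ)‖ = √(tP x) := by
    rw [Complex.norm_eq_sqrt_sq_add_sq, tP]
  have hc := Complex.norm_mul_cos_arg (⟨x 0, x 1⟩ : ℂ)
  have hs := Complex.norm_mul_sin_arg (⟨x 0, x 1⟩ : ℂ)
  rw [hn] at hc hs
  rw [ext_iff']
  refine ⟨?_, ?_, fun i => ?_⟩
  · simp only [rot, base, act_zero, mk_zero, mk_one, ang]
    simp only [mul_zero, sub_zero]
    rw [mul_comm]; exact hc
  · simp only [rot, base, act_one', mk_zero, mk_one, ang]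
    simp only [mul_zero, add_zero]
    rw [mul_comm]; exact hs
  · simp [rot, base, perp]

lemma ang_rot_base {x : E n} (hx : tP x ≠ 0) {t : ℝ} (ht : t ∈ Ioc (-π) π) :
    ang (rot t (base x)) = t := by
  have hr : 0 < √(tP x) := Real.sqrt_pos.2 (lt_of_le_of_ne (tP_nonneg x) (Ne.symm hx))
  have h := Complex.arg_mul_cos_add_sin_mul_I hr ht
  have h2 : (⟨(rot t (base x)) 0, (rot t (base x)) 1⟩ : ℂ)
      = (√(tP x) : ℂ) * (Complex.cos t + Complex.sin t * Complex.I) := by
    apply Complex.ext
    · simp [rot, base, ← Complex.ofReal_cos, ← Complex.ofReal_sin, mul_comm]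
    · simp [rot, base, ← Complex.ofReal_cos, ← Complex.ofReal_sin, mul_comm]
  unfold ang
  rw [h2, h]

/-! ### orbit measures and averaging -/

/-- the (non-normalised) uniform measure on the orbit of `x`. -/
noncomputable def orb (x : E n) : Measure (E n) :=
  (volume.restrict (Ioc (-π) π)).map (fun t => rot t x)

lemma map_rot_add_window (s : ℝ) (x : E n) :
    (volume.restrict (Ioc (-π) π)).map (fun t => rot (t + s) x) = orb x := by
  have h1 : (fun t => rot (t + s) x) = (fun t => rot t x) ∘ (fun t => t + s) := rfl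
  rw [h1, ← Measure.map_map (measurable_rot_left x) (by fun_prop), map_add_restrict_Ioc]
  have h2 := map_restrict_Ioc_periodic (measurable_rot_left x) Real.two_pi_pos (rot_periodic x)
    (-π + s) (-π)
  have e1 : -π + s + 2 * π = π + s := by ring
  have e2 : -π + 2 * π = π := by ring
  rw [e1, e2] at h2
  exact h2

lemma orb_rot (s : ℝ) (x : E n) : orb (rot s x) = orb x := by
  rw [← map_rot_add_window s x]
  unfold orb
  congr 1
  funext t
  rw [rot_rot]

lemma orb_base (x : E n) : orb (base x) = orb x := by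
  conv_rhs => rw [← rot_ang_base x]
  rw [orb_rot]

lemma orb_apply (x : E n) {S : Set (E n)} (hS : MeasurableSet S) :
    orb x S = ∫⁻ t in Ioc (-π) π, S.indicator 1 (rot t x) := by
  unfold orb
  rw [Measure.map_apply (measurable_rot_left x) hS,
    ← lintegral_indicator_one ((measurable_rot_left x) hS)]
  rfl

lemma lintegral_orb {ν : Measure (E n)} [SFinite ν] (hν : ∀ t, ν.map (rot t) = ν)
    {S : Set (E n)} (hS : MeasurableSet S) :
    ∫⁻ x, orb x S ∂ν = ENNReal.ofReal (2 * π) * ν S := by
  have hm : Measurable (fun p : ℝ × E n => S.indicator (1 : E n → ℝ≥0∞) (rot p.1 p.2)) :=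
    (measurable_one.indicator hS).comp measurable_rot_uncurry
  calc ∫⁻ x, orb x S ∂ν
      = ∫⁻ x, (∫⁻ t in Ioc (-π) π, S.indicator 1 (rot t x)) ∂ν := by
        simp only [orb_apply _ hS]
    _ = ∫⁻ t in Ioc (-π) π, (∫⁻ x, S.indicator 1 (rot t x) ∂ν) := by
        rw [lintegral_lintegral_swap]
        exact (hm.comp measurable_swap).aemeasurable
    _ = ∫⁻ t in Ioc (-π) π, ν S := by
        congr 1
        funext t
        have h1 : ∫⁻ x, S.indicator 1 (rot t x) ∂ν = ∫⁻ y, S.indicator 1 y ∂(ν.map (rot t)) :=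
          (lintegral_map (measurable_one.indicator hS) (measurable_rot t)).symm
        rw [h1, hν t, lintegral_indicator_one hS]
    _ = ENNReal.ofReal (2 * π) * ν S := by
        rw [lintegral_const, Measure.restrict_apply_univ, Real.volume_Ioc, mul_comm]
        congr 2
        ring

/-- A measurable map which transforms (almost) every orbit measure into `c` times its restriction
to `B` does the same with every rotation invariant measure. -/
lemma map_eq_of_orb {ν : Measure (E n)} [SFinite ν] (hν : ∀ t, ν.map (rot t) = ν)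
    {T : E n → E n} (hT : Measurable T) {B : Set (E n)} (hB : MeasurableSet B) {c : ℝ≥0∞}
    (hc : c ≠ ∞) (h : ∀ᵐ x ∂ν, (orb x).map T = c • (orb x).restrict B) :
    ν.map T = c • ν.restrict B := by
  ext A hA
  have h0 : ENNReal.ofReal (2 * π) ≠ 0 := by
    simp only [ne_eq, ENNReal.ofReal_eq_zero, not_le]; exact Real.two_pi_pos
  rw [← ENNReal.mul_right_inj h0 ENNReal.ofReal_ne_top]
  rw [Measure.map_apply hT hA, Measure.smul_apply, Measure.restrict_apply hA, smul_eq_mul,
    ← lintegral_orb hν (hT hA), mul_left_comm, ← lintegral_orb hν (hA.inter hB),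
    ← lintegral_const_mul' _ _ hc]
  refine lintegral_congr_ae ?_
  filter_upwards [h] with x hx
  rw [← Measure.map_apply hT hA, hx, Measure.smul_apply, Measure.restrict_apply hA, smul_eq_mul]

/-- **twisted rotations preserve rotation invariant measures.** -/
lemma map_twist {ν : Measure (E n)} [SFinite ν] (hν : ∀ θ, ν.map (rot θ) = ν)
    {T : E n → E n} (hT : Measurable T)
    (hT' : ∀ x, ∃ φ : ℝ, ∀ θ, T (rot θ x) = rot (θ + φ) x) : ν.map T = ν := by
  have h := map_eq_of_orb hν hT MeasurableSet.univ (c := 1) ENNReal.one_ne_top ?_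
  · simpa using h
  · refine Filter.Eventually.of_forall fun x => ?_
    obtain ⟨φ, hφ⟩ := hT' x
    rw [one_smul, Measure.restrict_univ]
    conv_lhs => rw [orb]
    rw [Measure.map_map hT (measurable_rot_left x)]
    have : T ∘ (fun t => rot t x) = fun t => rot (t + φ) x := by
      funext t; exact hφ t
    rw [this, map_rot_add_window]

/-! ### angular compressions and expansions -/

/-- compression of every angular cell onto its "even" half. -/
noncomputable def He (N : ℕ) (x : E n) : E n :=
  rot (vf (2 * π / N) (ang x) * (2 * π / N) / 2) x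
/-- compression of every angular cell onto its "odd" half. -/
noncomputable def Ho (N : ℕ) (x : E n) : E n :=
  rot (-((1 - vf (2 * π / N) (ang x)) * (2 * π / N) / 2)) x
/-- expansion inverting `He`. -/
noncomputable def De (N : ℕ) (x : E n) : E n :=
  rot (-(vf (2 * π / N) (ang x) * (2 * π / N))) x
/-- expansion inverting `Ho`. -/
noncomputable def Do (N : ℕ) (x : E n) : E n :=
  rot ((1 - vf (2 * π / N) (ang x)) * (2 * π / N)) x
/-- the union of the "even" halves of the angular cells. -/
def EN (N : ℕ) : Set (E n) := {x | vf (2 * π / N) (ang x) < 1 / 2}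

lemma measurable_vf_ang (L : ℝ) : Measurable (fun x : E n => vf L (ang x)) :=
  (measurable_vf L).comp measurable_ang

lemma measurable_He (N : ℕ) : Measurable (He N : E n → E n) := by
  have := measurable_vf_ang (n := n) (2 * π / N)
  exact measurable_rot_fun (by fun_prop)
lemma measurable_Ho (N : ℕ) : Measurable (Ho N : E n → E n) := by
  have := measurable_vf_ang (n := n) (2 * π / N)
  exact measurable_rot_fun (by fun_prop)
lemma measurable_De (N : ℕ) : Measurable (De N : E n → E n) := by
  have := measurable_vf_ang (n := n) (2 * π / N)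
  exact measurable_rot_fun (by fun_prop)
lemma measurable_Do (N : ℕ) : Measurable (Do N : E n → E n) := by
  have := measurable_vf_ang (n := n) (2 * π / N)
  exact measurable_rot_fun (by fun_prop)
lemma measurableSet_EN (N : ℕ) : MeasurableSet (EN N : Set (E n)) :=
  measurableSet_lt (measurable_vf_ang _) measurable_const

lemma two_pi_div_nonneg (N : ℕ) : 0 ≤ 2 * π / N := by positivity

lemma He_eq_rot (N : ℕ) (x : E n) : ∃ δ : ℝ, |δ| ≤ 2 * π / N ∧ He N x = rot δ x := by
  refine ⟨_, ?_, rfl⟩
  have h0 := vf_nonneg (2 * π / N) (ang x)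
  have h1 := vf_lt_one (2 * π / N) (ang x)
  have hL := two_pi_div_nonneg N
  rw [abs_le]
  constructor <;> nlinarith

lemma Ho_eq_rot (N : ℕ) (x : E n) : ∃ δ : ℝ, |δ| ≤ 2 * π / N ∧ Ho N x = rot δ x := by
  refine ⟨_, ?_, rfl⟩
  have h0 := vf_nonneg (2 * π / N) (ang x)
  have h1 := vf_lt_one (2 * π / N) (ang x)
  have hL := two_pi_div_nonneg N
  rw [abs_le]
  constructor <;> nlinarith

lemma De_eq_rot (N : ℕ) (x : E n) : ∃ δ : ℝ, |δ| ≤ 2 * π / N ∧ De N x = rot δ x := by
  refine ⟨_, ?_, rfl⟩
  have h0 := vf_nonneg (2 * π / N) (ang x)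
  have h1 := vf_lt_one (2 * π / N) (ang x)
  have hL := two_pi_div_nonneg N
  rw [abs_le]
  constructor <;> nlinarith

lemma Do_eq_rot (N : ℕ) (x : E n) : ∃ δ : ℝ, |δ| ≤ 2 * π / N ∧ Do N x = rot δ x := by
  refine ⟨_, ?_, rfl⟩
  have h0 := vf_nonneg (2 * π / N) (ang x)
  have h1 := vf_lt_one (2 * π / N) (ang x)
  have hL := two_pi_div_nonneg N
  rw [abs_le]
  constructor <;> nlinarith

lemma He_rot_base (N : ℕ) {x : E n} (hx : tP x ≠ 0) {t : ℝ} (ht : t ∈ Ioc (-π) π) :
    He N (rot t (base x)) = rot (he (2 * π / N) t) (base x) := by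
  unfold He he
  rw [ang_rot_base hx ht, rot_rot, add_comm]

lemma Ho_rot_base (N : ℕ) {x : E n} (hx : tP x ≠ 0) {t : ℝ} (ht : t ∈ Ioc (-π) π) :
    Ho N (rot t (base x)) = rot (ho (2 * π / N) t) (base x) := by
  unfold Ho ho
  rw [ang_rot_base hx ht, rot_rot]
  congr 1
  ring

lemma De_He {N : ℕ} (hN : 0 < N) {x : E n} (hx : tP x ≠ 0) : De N (He N x) = x := by
  have ht := ang_mem x
  obtain ⟨h1, h2⟩ := he_facts hN ht
  conv_lhs => rw [← rot_ang_base x]
  rw [He_rot_base N hx ht]
  unfold De
  rw [ang_rot_base hx h1, h2, rot_rot]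
  conv_rhs => rw [← rot_ang_base x]
  congr 1
  unfold he
  ring

lemma Do_Ho {N : ℕ} (hN : 0 < N) {x : E n} (hx : tP x ≠ 0) : Do N (Ho N x) = x := by
  have ht := ang_mem x
  obtain ⟨h1, h2⟩ := ho_facts hN ht
  conv_lhs => rw [← rot_ang_base x]
  rw [Ho_rot_base N hx ht]
  unfold Do
  rw [ang_rot_base hx h1, h2, rot_rot]
  conv_rhs => rw [← rot_ang_base x]
  congr 1
  unfold ho
  ring

lemma restrict_preimage_EN (N : ℕ) {x : E n} (hx : tP x ≠ 0) :
    (volume.restrict (Ioc (-π) π)).restrict ((fun t => rot t (base x)) ⁻¹' EN N)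
      = (volume.restrict (Ioc (-π) π)).restrict (Ce (2 * π / N)) := by
  rw [Measure.restrict_restrict ((measurable_rot_left _) (measurableSet_EN N)),
    Measure.restrict_restrict (measurableSet_Ce _)]
  congr 1
  ext t
  simp only [mem_inter_iff, mem_preimage, and_congr_left_iff]
  intro ht
  show vf (2 * π / N) (ang (rot t (base x))) < 1 / 2 ↔ vf (2 * π / N) t < 1 / 2
  rw [ang_rot_base hx ht]

lemma restrict_preimage_EN_compl (N : ℕ) {x : E n} (hx : tP x ≠ 0) :
    (volume.restrict (Ioc (-π) π)).restrict ((fun t => rot t (base x)) ⁻¹' (EN N)ᶜ)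
      = (volume.restrict (Ioc (-π) π)).restrict (Ce (2 * π / N))ᶜ := by
  rw [Measure.restrict_restrict ((measurable_rot_left _) (measurableSet_EN N).compl),
    Measure.restrict_restrict (measurableSet_Ce _).compl]
  congr 1
  ext t
  simp only [mem_inter_iff, mem_preimage, and_congr_left_iff, mem_compl_iff]
  intro ht
  show ¬ vf (2 * π / N) (ang (rot t (base x))) < 1 / 2 ↔ ¬ vf (2 * π / N) t < 1 / 2
  rw [ang_rot_base hx ht]

lemma orb_map_He {N : ℕ} (hN : 0 < N) {x : E n} (hx : tP x ≠ 0) :
    (orb x).map (He N) = (2 : ℝ≥0∞) • (orb x).restrict (EN N) := by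
  rw [← orb_base x]
  unfold orb
  rw [Measure.map_map (measurable_He N) (measurable_rot_left _),
    Measure.restrict_map (measurable_rot_left _) (measurableSet_EN N),
    restrict_preimage_EN N hx, ← Measure.map_smul, ← map_he_window hN,
    Measure.map_map (measurable_rot_left _) (measurable_he _)]
  refine Measure.map_congr ?_
  rw [Filter.EventuallyEq, ae_restrict_iff' measurableSet_Ioc]
  exact Filter.Eventually.of_forall fun t ht => He_rot_base N hx ht

lemma orb_map_Ho {N : ℕ} (hN : 0 < N) {x : E n} (hx : tP x ≠ 0) :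
    (orb x).map (Ho N) = (2 : ℝ≥0∞) • (orb x).restrict (EN N)ᶜ := by
  rw [← orb_base x]
  unfold orb
  rw [Measure.map_map (measurable_Ho N) (measurable_rot_left _),
    Measure.restrict_map (measurable_rot_left _) (measurableSet_EN N).compl,
    restrict_preimage_EN_compl N hx, ← Measure.map_smul, ← map_ho_window hN,
    Measure.map_map (measurable_rot_left _) (measurable_ho _)]
  refine Measure.map_congr ?_
  rw [Filter.EventuallyEq, ae_restrict_iff' measurableSet_Ioc]
  exact Filter.Eventually.of_forall fun t ht => Ho_rot_base N hx ht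

lemma map_He {ν : Measure (E n)} [SFinite ν] (hν : ∀ θ, ν.map (rot θ) = ν)
    (h0 : ν {x | tP x = 0} = 0) {N : ℕ} (hN : 0 < N) :
    ν.map (He N) = (2 : ℝ≥0∞) • ν.restrict (EN N) := by
  refine map_eq_of_orb hν (measurable_He N) (measurableSet_EN N) (by norm_num) ?_
  have : ∀ᵐ x ∂ν, tP x ≠ 0 := by
    rw [ae_iff]; simpa using h0
  filter_upwards [this] with x hx
  exact orb_map_He hN hx

lemma map_Ho {ν : Measure (E n)} [SFinite ν] (hν : ∀ θ, ν.map (rot θ) = ν)
    (h0 : ν {x | tP x = 0} = 0) {N : ℕ} (hN : 0 < N) :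
    ν.map (Ho N) = (2 : ℝ≥0∞) • ν.restrict (EN N)ᶜ := by
  refine map_eq_of_orb hν (measurable_Ho N) (measurableSet_EN N).compl (by norm_num) ?_
  have : ∀ᵐ x ∂ν, tP x ≠ 0 := by
    rw [ae_iff]; simpa using h0
  filter_upwards [this] with x hx
  exact orb_map_Ho hN hx

/-! ### the reflection -/

/-- reflection `x_1 ↦ - x_1`. -/
noncomputable def refl (x : E n) : E n := mk (x 0) (-(x 1)) (perp x)

lemma refl_rot_base (t : ℝ) (x : E n) : refl (rot t (base x)) = rot (-t) (base x) := by
  rw [ext_iff']
  refine ⟨?_, ?_, fun i => ?_⟩ <;> simp [refl, rot, base, perp]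

lemma continuous_refl : Continuous (refl : E n → E n) := by
  unfold refl mk
  apply (PiLp.continuous_toLp 2 _).comp
  apply continuous_pi
  intro i
  refine Fin.cases ?_ (fun j => Fin.cases ?_ (fun k => ?_) j) i
  · show Continuous fun p : E n => p 0
    fun_prop
  · show Continuous fun p : E n => -(p 1)
    fun_prop
  · show Continuous fun p : E n => p k.succ.succ
    fun_prop

lemma measurable_refl : Measurable (refl : E n → E n) := continuous_refl.measurable

lemma map_neg_window :
    (volume.restrict (Ioc (-π) π)).map (fun t => -t) = volume.restrict (Ioc (-π) π) := by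
  have h := (Measure.measurePreserving_neg (volume : Measure ℝ)).restrict_preimage
    (measurableSet_Ico (a := -π) (b := π))
  have h2 : (fun t : ℝ => -t) ⁻¹' Ico (-π) π = Ioc (-π) π := by
    ext t
    simp only [mem_preimage, mem_Ico, mem_Ioc]
    constructor
    · rintro ⟨h1, h2⟩; constructor <;> linarith
    · rintro ⟨h1, h2⟩; constructor <;> linarith
  have h3 : (Neg.neg : ℝ → ℝ) = fun t => -t := rfl
  rw [h3, h2] at h
  rw [h.map_eq]
  exact Measure.restrict_congr_set Ico_ae_eq_Ioc

lemma map_refl_of_rotInv {ν : Measure (E n)} [SFinite ν] (hν : ∀ θ, ν.map (rot θ) = ν) :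
    ν.map refl = ν := by
  have h := map_eq_of_orb hν measurable_refl MeasurableSet.univ (c := 1) ENNReal.one_ne_top ?_
  · simpa using h
  · refine Filter.Eventually.of_forall fun x => ?_
    rw [one_smul, Measure.restrict_univ, ← orb_base x]
    conv_lhs => rw [orb]
    rw [Measure.map_map measurable_refl (measurable_rot_left _)]
    have : refl ∘ (fun t => rot t (base x)) = (fun t => rot t (base x)) ∘ fun t => -t := by
      funext t; exact refl_rot_base t x
    rw [this, ← Measure.map_map (measurable_rot_left _) (by fun_prop), map_neg_window]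
    rfl

lemma ae_tP_ne_zero {ν : Measure (E n)} (h0 : ν {x | tP x = 0} = 0) : ∀ᵐ x ∂ν, tP x ≠ 0 := by
  rw [ae_iff]; simpa using h0

lemma ae_De_He {ν : Measure (E n)} (h0 : ν {x | tP x = 0} = 0) {N : ℕ} (hN : 0 < N) :
    ∀ᵐ x ∂ν, De N (He N x) = x := by
  filter_upwards [ae_tP_ne_zero h0] with x hx
  exact De_He hN hx

lemma ae_Do_Ho {ν : Measure (E n)} (h0 : ν {x | tP x = 0} = 0) {N : ℕ} (hN : 0 < N) :
    ∀ᵐ x ∂ν, Do N (Ho N x) = x := by
  filter_upwards [ae_tP_ne_zero h0] with x hx
  exact Do_Ho hN hx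

/-- a rotation by a small angle moves points by a small amount. -/
lemma norm_rot_sub_self_le (δ : ℝ) (x : E n) : ‖rot δ x - x‖ ≤ |δ| * ‖x‖ := by
  have h1 : ‖rot δ x - x‖ ^ 2 = ((Real.cos δ - 1) ^ 2 + Real.sin δ ^ 2) * tP x := by
    rw [rot, norm_act_sub_self_sq]; simp
  have h2 : (Real.cos δ - 1) ^ 2 + Real.sin δ ^ 2 ≤ δ ^ 2 := by
    have := Real.one_sub_sq_div_two_le_cos (x := δ)
    have := Real.sin_sq_add_cos_sq δ
    nlinarith
  have h3 : tP x ≤ ‖x‖ ^ 2 := by rw [norm_sq]; linarith [tau_nonneg x]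
  have h4 : ‖rot δ x - x‖ ^ 2 ≤ (|δ| * ‖x‖) ^ 2 := by
    rw [h1, mul_pow, sq_abs]
    exact mul_le_mul h2 h3 (tP_nonneg x) (sq_nonneg _)
  exact (sq_le_sq₀ (norm_nonneg _) (by positivity)).1 h4


end Crest.Agent.OT3
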