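import Crest.Agent.Lib_OT3.Maps
import Crest.Agent.Lib_OT3.Rot

/-!
# S0175: behaviour of all objects under the rotations `rot θ` of the plane `P`
-/

set_option autoImplicit false
open MeasureTheory Set
open scoped ENNReal Real

namespace Crest.Agent.OT3

variable {n : ℕ} (P : Par)

lemma qK_rot (s θ : ℝ) (y : E n) : qK s (rot θ y) = qK s y := by
  unfold qK; rw [tP_rot, tau_rot]

lemma NK_rot (s θ : ℝ) (y : E n) : NK s (rot θ y) = NK s y := by
  unfold NK; rw [tP_rot, tau_rot]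

lemma By_rot (θ : ℝ) (y : E n) : By P (rot θ y) = By P y := by
  unfold By; rw [qK_rot]

lemma Bx_rot (θ : ℝ) (x : E n) : Bx P (rot θ x) = Bx P x := by
  unfold Bx; rw [tP_rot, tau_rot]

lemma act_rot (u v c θ : ℝ) (x : E n) : act u v c (rot θ x) = rot θ (act u v c x) := by
  unfold rot
  rw [act_act, act_act]
  congr 1 <;> ring

@[simp] lemma rot_zero' (x : E n) : rot 0 x = x := by
  unfold rot; simp

lemma Fmap_rot (θ : ℝ) (y : E n) : Fmap P (rot θ y) = rot θ (Fmap P y) := by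
  unfold Fmap; rw [By_rot, tP_rot, act_rot]

lemma Fbar_rot (θ : ℝ) (y : E n) : Fbar P (rot θ y) = rot θ (Fbar P y) := by
  unfold Fbar; rw [By_rot, tP_rot, act_rot]

lemma Gmap_rot (θ : ℝ) (y : E n) : Gmap P (rot θ y) = rot θ (Gmap P y) := by
  unfold Gmap; rw [By_rot, tP_rot, act_rot]

lemma Gbar_rot (θ : ℝ) (y : E n) : Gbar P (rot θ y) = rot θ (Gbar P y) := by
  unfold Gbar; rw [By_rot, tP_rot, act_rot]

lemma fmap_rot (θ : ℝ) (x : E n) : fmap P (rot θ x) = rot θ (fmap P x) := by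
  unfold fmap; rw [Bx_rot, tP_rot, act_rot]

lemma gmap_rot (θ : ℝ) (x : E n) : gmap P (rot θ x) = rot θ (gmap P x) := by
  unfold gmap; rw [Bx_rot, tP_rot, act_rot]

lemma rot_mem_In {θ : ℝ} {x : E n} : rot θ x ∈ In P ↔ x ∈ In P := by
  unfold In; simp only [mem_ofPred_eq, tP_rot, tau_rot]

lemma rot_mem_Udom {θ : ℝ} {x : E n} : rot θ x ∈ Udom P ↔ x ∈ Udom P := by
  unfold Udom; simp only [mem_ofPred_eq, tP_rot, tau_rot]

lemma rot_mem_Vdom {θ : ℝ} {x : E n} : rot θ x ∈ Vdom P ↔ x ∈ Vdom P := by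
  unfold Vdom; simp only [mem_ofPred_eq, tP_rot, qK_rot, By_rot]

lemma rot_mem_Out {θ : ℝ} {x : E n} : rot θ x ∈ Out P ↔ x ∈ Out P := by
  unfold Out; simp only [mem_ofPred_eq, rot_mem_Vdom, Fmap_rot, rot_mem_In]

lemma eta_rot (θ : ℝ) (x : E n) : eta P (rot θ x) = eta P x := by
  unfold eta; rw [tP_rot, tau_rot]

/-- a unit complex number acts as a rotation -/
lemma act_eq_rot {u v : ℝ} (h : u ^ 2 + v ^ 2 = 1) : ∃ φ : ℝ, ∀ x : E n, act u v 1 x = rot φ x := by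
  refine ⟨Complex.arg ⟨u, v⟩, fun x => ?_⟩
  have hn : ‖(⟨u, v⟩ : ℂ)‖ = 1 := by
    rw [Complex.norm_eq_sqrt_sq_add_sq]; simp [h]
  have h1 := Complex.norm_mul_cos_arg (⟨u, v⟩ : ℂ)
  have h2 := Complex.norm_mul_sin_arg (⟨u, v⟩ : ℂ)
  rw [hn, one_mul] at h1 h2
  unfold rot
  rw [h1, h2]

lemma uG_sq_add_vG_sq {s B T : ℝ} (hb : 0 ≤ bF s B) (hT : bF s B ≤ T) (hT0 : T ≠ 0) :
    uG s B T ^ 2 + vG s B T ^ 2 = 1 := by
  unfold uG vG
  have : √(bF s B * (T - bF s B)) ^ 2 = bF s B * (T - bF s B) :=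
    Real.sq_sqrt (mul_nonneg hb (sub_nonneg.2 hT))
  field_simp
  rw [this]; ring

end Crest.Agent.OT3
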